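import Mathlib
import Crest.Prelude.Def_FinProb

/-!
Product (binomial) weights on the subsets of a finite type of coins: total mass, union of two
independent binomial sets, monotonicity tools, and the link with `Crest.FinProb.bernoulliProb`.
-/

set_option autoImplicit false

namespace Crest.Agent.S0076Aux

open Finset

variable {ι : Type*} [Fintype ι] [DecidableEq ι]

/-- weight of the subset `W` when every point is present independently with probability `p`. -/
noncomputable def wt (p : ℝ) (W : Finset ι) : ℝ := ∏ i, if i ∈ W then p else 1 - p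

/-- the set of coins showing `true`. -/
def toFin (ω : ι → Bool) : Finset ι := univ.filter (fun i => ω i = true)

omit [DecidableEq ι] in
@[simp] lemma mem_toFin (ω : ι → Bool) (i : ι) : i ∈ toFin ω ↔ ω i = true := by
  simp [toFin]

/-- outcomes of coins are the same as subsets. -/
def finEquiv : (ι → Bool) ≃ Finset ι where
  toFun := toFin
  invFun W i := decide (i ∈ W)
  left_inv ω := by
    funext i
    simp
  right_inv W := by
    ext i
    simp

lemma finEquiv_apply (ω : ι → Bool) : finEquiv ω = toFin ω := rfl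

lemma bernoulliWeight_eq (p : ℝ) (ω : ι → Bool) :
    Crest.FinProb.bernoulliWeight p ω = wt p (toFin ω) := by
  unfold Crest.FinProb.bernoulliWeight wt
  refine Finset.prod_congr rfl fun i _ => ?_
  simp

lemma wt_nonneg {p : ℝ} (h0 : 0 ≤ p) (h1 : p ≤ 1) (W : Finset ι) : 0 ≤ wt p W := by
  unfold wt
  refine Finset.prod_nonneg fun i _ => ?_
  split_ifs
  · exact h0
  · linarith

/-- sum over all subsets of a product of coordinatewise factors. -/
lemma sum_finset_prod (g : ι → Bool → ℝ) :
    ∑ W : Finset ι, ∏ i, g i (decide (i ∈ W)) = ∏ i, (g i true + g i false) := by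
  have h1 : ∏ i, (g i true + g i false) = ∏ i, ∑ b ∈ (univ : Finset Bool), g i b := by
    refine Finset.prod_congr rfl fun i _ => ?_
    simp
  rw [h1, Finset.prod_univ_sum, Fintype.piFinset_univ]
  rw [← Equiv.sum_comp (finEquiv (ι := ι))]
  refine Finset.sum_congr rfl fun ω _ => ?_
  refine Finset.prod_congr rfl fun i _ => ?_
  rw [finEquiv_apply]
  congr 1
  simp

lemma wt_eq (p : ℝ) (W : Finset ι) :
    wt p W = ∏ i, (fun (_ : ι) (b : Bool) => if b then p else 1 - p) i (decide (i ∈ W)) := by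
  unfold wt
  refine Finset.prod_congr rfl fun i _ => ?_
  by_cases h : i ∈ W <;> simp [h]

lemma sum_wt (p : ℝ) : ∑ W : Finset ι, wt p W = 1 := by
  have h := sum_finset_prod (ι := ι) (fun _ b => if b then p else 1 - p)
  have h2 : ∑ W : Finset ι, wt p W
      = ∑ W : Finset ι, ∏ i, (fun (_ : ι) (b : Bool) => if b then p else 1 - p) i
          (decide (i ∈ W)) :=
    Finset.sum_congr rfl fun W _ => wt_eq p W
  rw [h2, h]
  simp

/-- for fixed `W`, the total weight of the pairs with union `W`. -/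
lemma sum_union_eq (a b : ℝ) (W : Finset ι) :
    ∑ W₁ : Finset ι, ∑ W₂ : Finset ι, (if W₁ ∪ W₂ = W then wt a W₁ * wt b W₂ else 0)
      = wt (a + b - a * b) W := by
  classical
  set G : ι → Bool → Bool → ℝ := fun i x y =>
    if (x || y) = decide (i ∈ W) then (if x then a else 1 - a) * (if y then b else 1 - b) else 0
    with hG
  have key : ∀ W₁ W₂ : Finset ι, (if W₁ ∪ W₂ = W then wt a W₁ * wt b W₂ else 0)
      = ∏ i, G i (decide (i ∈ W₁)) (decide (i ∈ W₂)) := by
    intro W₁ W₂
    have : ∏ i, G i (decide (i ∈ W₁)) (decide (i ∈ W₂)) =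
        ∏ i ∈ (univ : Finset ι), if ((decide (i ∈ W₁) || decide (i ∈ W₂)) = decide (i ∈ W)) then
          ((if i ∈ W₁ then a else 1 - a) * (if i ∈ W₂ then b else 1 - b)) else 0 := by
      refine Finset.prod_congr rfl fun i _ => ?_
      simp only [hG]
      by_cases h1 : i ∈ W₁ <;> by_cases h2 : i ∈ W₂ <;> simp [h1, h2]
    rw [this, Finset.prod_ite_zero]
    have hiff : (W₁ ∪ W₂ = W) ↔
        ∀ i ∈ (univ : Finset ι), (decide (i ∈ W₁) || decide (i ∈ W₂)) = decide (i ∈ W) := by
      constructor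
      · intro h i _
        rw [← h]
        by_cases h1 : i ∈ W₁ <;> by_cases h2 : i ∈ W₂ <;> simp [h1, h2]
      · intro h
        ext i
        have := h i (mem_univ i)
        by_cases h1 : i ∈ W₁ <;> by_cases h2 : i ∈ W₂ <;> by_cases h3 : i ∈ W <;>
          simp_all
    by_cases hU : W₁ ∪ W₂ = W
    · rw [if_pos hU, if_pos (hiff.1 hU), Finset.prod_mul_distrib]
      rfl
    · rw [if_neg hU, if_neg (fun h => hU (hiff.2 h))]
  simp_rw [key]
  have step1 : ∀ W₁ : Finset ι, ∑ W₂ : Finset ι, ∏ i, G i (decide (i ∈ W₁)) (decide (i ∈ W₂))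
      = ∏ i, (fun i x => G i x true + G i x false) i (decide (i ∈ W₁)) := by
    intro W₁
    exact sum_finset_prod (fun i y => G i (decide (i ∈ W₁)) y)
  rw [Finset.sum_congr rfl fun W₁ _ => step1 W₁]
  rw [sum_finset_prod (fun i x => G i x true + G i x false)]
  unfold wt
  refine Finset.prod_congr rfl fun i _ => ?_
  by_cases h : i ∈ W
  · simp [hG, h]; ring
  · simp [hG, h]; ring

/-- the union of two independent binomial sets is binomial. -/
lemma sum_sum_union (a b : ℝ) (f : Finset ι → ℝ) :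
    ∑ W₁ : Finset ι, ∑ W₂ : Finset ι, wt a W₁ * wt b W₂ * f (W₁ ∪ W₂)
      = ∑ W : Finset ι, wt (a + b - a * b) W * f W := by
  classical
  have h1 : ∀ W₁ W₂ : Finset ι, wt a W₁ * wt b W₂ * f (W₁ ∪ W₂)
      = ∑ W : Finset ι, (if W₁ ∪ W₂ = W then wt a W₁ * wt b W₂ else 0) * f W := by
    intro W₁ W₂
    rw [Finset.sum_eq_single (W₁ ∪ W₂)]
    · simp
    · intro W _ hW
      rw [if_neg (Ne.symm hW)]; simp
    · intro h; exact absurd (mem_univ _) h
  simp_rw [h1]
  calc ∑ W₁ : Finset ι, ∑ W₂ : Finset ι, ∑ W : Finset ι,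
        (if W₁ ∪ W₂ = W then wt a W₁ * wt b W₂ else 0) * f W
      = ∑ W₁ : Finset ι, ∑ W : Finset ι, ∑ W₂ : Finset ι,
        (if W₁ ∪ W₂ = W then wt a W₁ * wt b W₂ else 0) * f W := by
        refine Finset.sum_congr rfl fun W₁ _ => ?_
        rw [Finset.sum_comm]
    _ = ∑ W : Finset ι, ∑ W₁ : Finset ι, ∑ W₂ : Finset ι,
        (if W₁ ∪ W₂ = W then wt a W₁ * wt b W₂ else 0) * f W := by
        rw [Finset.sum_comm]
    _ = ∑ W : Finset ι, wt (a + b - a * b) W * f W := by
        refine Finset.sum_congr rfl fun W _ => ?_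
        rw [← sum_union_eq a b W, Finset.sum_mul]
        refine Finset.sum_congr rfl fun W₁ _ => ?_
        rw [Finset.sum_mul]

/-- adding `T` (disjoint from `W`) to `W` costs at most a factor `a` per point. -/
lemma wt_mul_pow_le {a : ℝ} (h0 : 0 ≤ a) (h1 : a ≤ 1) {W T : Finset ι} (hd : Disjoint W T) :
    wt a W * a ^ T.card ≤ wt a (W ∪ T) := by
  have hT : a ^ T.card = ∏ i, if i ∈ T then a else 1 := by
    rw [Finset.prod_ite_mem, Finset.univ_inter, Finset.prod_const]
  rw [hT]
  unfold wt
  rw [← Finset.prod_mul_distrib]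
  refine Finset.prod_le_prod ?_ ?_
  · intro i _
    have : 0 ≤ 1 - a := by linarith
    split_ifs <;> positivity
  · intro i _
    by_cases hiT : i ∈ T
    · have hiW : i ∉ W := fun h => (Finset.disjoint_left.1 hd h) hiT
      simp only [hiT, hiW, if_true, if_false, Finset.mem_union, or_true]
      nlinarith
    · by_cases hiW : i ∈ W <;> simp [hiT, hiW]

lemma wt_one_univ : wt (1 : ℝ) (univ : Finset ι) = 1 := by
  unfold wt
  simp

/-- `bernoulliProb` as a sum over subsets. -/
lemma bernoulliProb_eq (p : ℝ) (E : Set (ι → Bool)) (P : Finset ι → Prop) [DecidablePred P]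
    (hE : ∀ ω, ω ∈ E ↔ P (toFin ω)) :
    Crest.FinProb.bernoulliProb p E = ∑ W : Finset ι, wt p W * (if P W then 1 else 0) := by
  classical
  unfold Crest.FinProb.bernoulliProb
  rw [Finset.sum_filter, ← Equiv.sum_comp (finEquiv (ι := ι))]
  refine Finset.sum_congr rfl fun ω _ => ?_
  rw [finEquiv_apply, bernoulliWeight_eq]
  by_cases h : ω ∈ E
  · rw [if_pos h, if_pos ((hE ω).1 h), mul_one]
  · rw [if_neg h, if_neg (fun h' => h ((hE ω).2 h')), mul_zero]

end Crest.Agent.S0076Aux
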