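import Mathlib
import Crest.Agent.S0076Aux.Weights

/-!
The Park–Pham theorem (minimum fragments), in the binomial model, with explicit constants.
-/

set_option autoImplicit false

namespace Crest.Agent.S0076Aux

open Finset

variable {ι : Type*} [Fintype ι] [DecidableEq ι]

/-- `GG` covers `FF`: every member of `FF` contains a member of `GG`. -/
def Covers (GG FF : Finset (Finset ι)) : Prop := ∀ A ∈ FF, ∃ T ∈ GG, T ⊆ A

/-- the `q`-cost of a family. -/
noncomputable def cost (q : ℝ) (GG : Finset (Finset ι)) : ℝ := ∑ T ∈ GG, q ^ T.card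

/-- `W` contains a member of `FF`. -/
def Hit (FF : Finset (Finset ι)) (W : Finset ι) : Prop := ∃ A ∈ FF, A ⊆ W

instance (FF : Finset (Finset ι)) (W : Finset ι) : Decidable (Hit FF W) := by
  unfold Hit; infer_instance

/-- probability that a binomial set of density `ρ` contains no member of `FF`. -/
noncomputable def failP (ρ : ℝ) (FF : Finset (Finset ι)) : ℝ :=
  ∑ W : Finset ι, wt ρ W * (if Hit FF W then 0 else 1)

omit [Fintype ι] [DecidableEq ι] in
lemma cost_nonneg {q : ℝ} (hq : 0 ≤ q) (GG : Finset (Finset ι)) : 0 ≤ cost q GG :=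
  Finset.sum_nonneg fun _ _ => pow_nonneg hq _

omit [Fintype ι] in
lemma cost_union_le {q : ℝ} (hq : 0 ≤ q) (G₁ G₂ : Finset (Finset ι)) :
    cost q (G₁ ∪ G₂) ≤ cost q G₁ + cost q G₂ := by
  unfold cost
  rw [← Finset.sum_union_inter]
  have : 0 ≤ ∑ T ∈ G₁ ∩ G₂, q ^ T.card := Finset.sum_nonneg fun _ _ => pow_nonneg hq _
  linarith

lemma failP_nonneg {ρ : ℝ} (h0 : 0 ≤ ρ) (h1 : ρ ≤ 1) (FF : Finset (Finset ι)) :
    0 ≤ failP ρ FF := by
  unfold failP
  refine Finset.sum_nonneg fun W _ => mul_nonneg (wt_nonneg h0 h1 W) ?_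
  split_ifs <;> norm_num

lemma failP_le_one {ρ : ℝ} (h0 : 0 ≤ ρ) (h1 : ρ ≤ 1) (FF : Finset (Finset ι)) :
    failP ρ FF ≤ 1 := by
  unfold failP
  calc ∑ W : Finset ι, wt ρ W * (if Hit FF W then 0 else 1)
      ≤ ∑ W : Finset ι, wt ρ W := by
        refine Finset.sum_le_sum fun W _ => ?_
        have := wt_nonneg h0 h1 W
        split_ifs <;> nlinarith
    _ = 1 := sum_wt ρ

/-! ### minimum fragments -/

omit [Fintype ι] in
lemma exists_frag (FF : Finset (Finset ι)) (W S : Finset ι) (hS : S ∈ FF) :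
    ∃ S' ∈ FF, S' ⊆ S ∪ W ∧ ∀ S'' ∈ FF, S'' ⊆ S ∪ W → (S' \ W).card ≤ (S'' \ W).card := by
  have hne : (FF.filter (fun A => A ⊆ S ∪ W)).Nonempty :=
    ⟨S, by simp [hS, Finset.subset_union_left]⟩
  obtain ⟨S', hS', hmin⟩ := Finset.exists_min_image _ (fun A => (A \ W).card) hne
  rw [Finset.mem_filter] at hS'
  refine ⟨S', hS'.1, hS'.2, fun S'' h1 h2 => hmin S'' ?_⟩
  rw [Finset.mem_filter]
  exact ⟨h1, h2⟩

open Classical in
/-- the minimum fragment of `S` with respect to `W`. -/
noncomputable def frag (FF : Finset (Finset ι)) (W S : Finset ι) : Finset ι :=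
  if h : S ∈ FF then (Classical.choose (exists_frag FF W S h)) \ W else ∅

omit [Fintype ι] in
lemma frag_spec (FF : Finset (Finset ι)) (W S : Finset ι) (hS : S ∈ FF) :
    ∃ S' ∈ FF, S' ⊆ S ∪ W ∧ frag FF W S = S' \ W ∧
      ∀ S'' ∈ FF, S'' ⊆ S ∪ W → (frag FF W S).card ≤ (S'' \ W).card := by
  have h := Classical.choose_spec (exists_frag FF W S hS)
  refine ⟨Classical.choose (exists_frag FF W S hS), h.1, h.2.1, ?_, ?_⟩
  · simp [frag, hS]
  · intro S'' h1 h2
    have := h.2.2 S'' h1 h2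
    simpa [frag, hS] using this

/-- all fragments. -/
noncomputable def frags (FF : Finset (Finset ι)) (W : Finset ι) : Finset (Finset ι) :=
  FF.image (frag FF W)

/-- fragments of size at most `j`. -/
noncomputable def small (j : ℕ) (FF : Finset (Finset ι)) (W : Finset ι) : Finset (Finset ι) :=
  (frags FF W).filter (fun T => T.card ≤ j)

/-- fragments of size more than `j`. -/
noncomputable def large (j : ℕ) (FF : Finset (Finset ι)) (W : Finset ι) : Finset (Finset ι) :=
  (frags FF W).filter (fun T => j < T.card)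

open Classical in
/-- a canonical member of `FF` inside `Z` (if any). -/
noncomputable def chi (FF : Finset (Finset ι)) (Z : Finset ι) : Finset ι :=
  if h : ∃ A ∈ FF, A ⊆ Z then Classical.choose h else ∅

omit [Fintype ι] in
lemma chi_card_le (FF : Finset (Finset ι)) (m : ℕ) (hm : ∀ A ∈ FF, A.card ≤ m) (Z : Finset ι) :
    (chi FF Z).card ≤ m := by
  unfold chi
  split_ifs with h
  · exact hm _ (Classical.choose_spec h).1
  · simp

omit [Fintype ι] in
/-- the key property of minimum fragments. -/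
lemma frags_key (FF : Finset (Finset ι)) (W T : Finset ι) (hT : T ∈ frags FF W) :
    Disjoint W T ∧ T ⊆ chi FF (W ∪ T) ∧ (∃ S ∈ FF, T ⊆ S) ∧ (∃ S' ∈ FF, S' ⊆ T ∪ W) := by
  unfold frags at hT
  rw [Finset.mem_image] at hT
  obtain ⟨S, hS, rfl⟩ := hT
  obtain ⟨S', hS', hsub, heq, hmin⟩ := frag_spec FF W S hS
  have hTS : frag FF W S ⊆ S := by
    rw [heq]
    intro x hx
    rw [Finset.mem_sdiff] at hx
    have := hsub hx.1
    rw [Finset.mem_union] at this
    exact this.resolve_right hx.2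
  have hS'sub : S' ⊆ frag FF W S ∪ W := by
    rw [heq]
    intro x hx
    by_cases hxW : x ∈ W
    · exact Finset.mem_union_right _ hxW
    · exact Finset.mem_union_left _ (Finset.mem_sdiff.2 ⟨hx, hxW⟩)
  refine ⟨?_, ?_, ⟨S, hS, hTS⟩, ⟨S', hS', hS'sub⟩⟩
  · rw [heq]
    exact Finset.disjoint_sdiff
  · have hex : ∃ A ∈ FF, A ⊆ W ∪ frag FF W S :=
      ⟨S', hS', by rw [Finset.union_comm]; exact hS'sub⟩
    have hchi : chi FF (W ∪ frag FF W S) = Classical.choose hex := by
      unfold chi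
      rw [dif_pos hex]
    have hspec := Classical.choose_spec hex
    rw [hchi]
    set C := Classical.choose hex with hC
    -- `C \ W ⊆ T` and `|T| ≤ |C \ W|`
    have h1 : C \ W ⊆ frag FF W S := by
      intro x hx
      rw [Finset.mem_sdiff] at hx
      have := hspec.2 hx.1
      rw [Finset.mem_union] at this
      exact this.resolve_left hx.2
    have h2 : C ⊆ S ∪ W := by
      intro x hx
      have := hspec.2 hx
      rw [Finset.mem_union] at this ⊢
      rcases this with h | h
      · exact Or.inr h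
      · exact Or.inl (hTS h)
    have h3 := hmin C hspec.1 h2
    have h4 : C \ W = frag FF W S := Finset.eq_of_subset_of_card_le h1 h3
    rw [← h4]
    exact Finset.sdiff_subset

/-- the expected cost of the large fragments of one round. -/
lemma round_cost (FF : Finset (Finset ι)) (m j : ℕ) (hm : ∀ A ∈ FF, A.card ≤ m)
    (a q L : ℝ) (ha0 : 0 ≤ a) (ha1 : a ≤ 1) (hL : 1 ≤ L) (hq : q = a * (1 / L)) :
    ∑ W : Finset ι, wt a W * cost q (large j FF W) ≤ 2 ^ m * (1 / L) ^ (j + 1) := by
  classical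
  have hL0 : 0 ≤ 1 / L := by positivity
  have hL1 : 1 / L ≤ 1 := by
    rw [div_le_one (by linarith)]; exact hL
  -- termwise bound
  have h1 : ∀ W : Finset ι, wt a W * cost q (large j FF W)
      ≤ ∑ T ∈ large j FF W, wt a (W ∪ T) * (1 / L) ^ (j + 1) := by
    intro W
    unfold cost
    rw [Finset.mul_sum]
    refine Finset.sum_le_sum fun T hT => ?_
    unfold large at hT
    rw [Finset.mem_filter] at hT
    have hk := frags_key FF W T hT.1
    have hw := wt_mul_pow_le ha0 ha1 hk.1
    have hpow : (1 / L) ^ T.card ≤ (1 / L) ^ (j + 1) :=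
      pow_le_pow_of_le_one hL0 hL1 hT.2
    have hwn := wt_nonneg ha0 ha1 (W ∪ T)
    have hwn' : 0 ≤ wt a W * a ^ T.card :=
      mul_nonneg (wt_nonneg ha0 ha1 W) (pow_nonneg ha0 _)
    calc wt a W * q ^ T.card = (wt a W * a ^ T.card) * (1 / L) ^ T.card := by
          rw [hq, mul_pow]; ring
      _ ≤ wt a (W ∪ T) * (1 / L) ^ (j + 1) :=
          mul_le_mul hw hpow (pow_nonneg hL0 _) hwn
  -- counting
  have h2 : ∑ W : Finset ι, ∑ T ∈ large j FF W, wt a (W ∪ T) ≤ 2 ^ m := by
    rw [Finset.sum_sigma']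
    set P := (univ : Finset (Finset ι)).sigma (fun W => large j FF W) with hP
    set Q := (univ : Finset (Finset ι)).sigma (fun Z => (chi FF Z).powerset) with hQ
    set φ : (Σ _ : Finset ι, Finset ι) → (Σ _ : Finset ι, Finset ι) :=
      fun x => ⟨x.1 ∪ x.2, x.2⟩ with hφ
    have hinj : Set.InjOn φ (P : Set (Σ _ : Finset ι, Finset ι)) := by
      rintro ⟨W, T⟩ hx ⟨W', T'⟩ hy hxy
      simp only [hP, Finset.coe_sigma, Set.mem_sigma_iff, Finset.mem_coe, Finset.mem_univ,
        true_and] at hx hy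
      simp only [hφ, Sigma.mk.injEq, heq_eq_eq] at hxy
      obtain ⟨hU, rfl⟩ := hxy
      have hd := (frags_key FF W T (Finset.mem_filter.1 hx).1).1
      have hd' := (frags_key FF W' T (Finset.mem_filter.1 hy).1).1
      have e1 : (W ∪ T) \ T = W := by
        rw [Finset.union_sdiff_right]; exact Finset.sdiff_eq_self_of_disjoint hd
      have e2 : (W' ∪ T) \ T = W' := by
        rw [Finset.union_sdiff_right]; exact Finset.sdiff_eq_self_of_disjoint hd'
      have : W = W' := by rw [← e1, ← e2, hU]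
      subst this
      rfl
    have hsub : P.image φ ⊆ Q := by
      intro y hy
      rw [Finset.mem_image] at hy
      obtain ⟨⟨W, T⟩, hx, rfl⟩ := hy
      simp only [hP, Finset.mem_sigma, Finset.mem_univ, true_and] at hx
      simp only [hQ, hφ, Finset.mem_sigma, Finset.mem_univ, true_and, Finset.mem_powerset]
      exact (frags_key FF W T (Finset.mem_filter.1 hx).1).2.1
    calc ∑ x ∈ P, wt a (x.1 ∪ x.2) = ∑ x ∈ P, (fun y : (Σ _ : Finset ι, Finset ι) => wt a y.1) (φ x) := rfl
      _ = ∑ y ∈ P.image φ, wt a y.1 :=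
          (Finset.sum_image (f := fun y : (Σ _ : Finset ι, Finset ι) => wt a y.1) hinj).symm
      _ ≤ ∑ y ∈ Q, wt a y.1 :=
          Finset.sum_le_sum_of_subset_of_nonneg hsub fun y _ _ => wt_nonneg ha0 ha1 _
      _ = ∑ Z : Finset ι, ∑ _T ∈ (chi FF Z).powerset, wt a Z := by
          rw [hQ, Finset.sum_sigma]
      _ = ∑ Z : Finset ι, 2 ^ (chi FF Z).card * wt a Z := by
          refine Finset.sum_congr rfl fun Z _ => ?_
          rw [Finset.sum_const, Finset.card_powerset, nsmul_eq_mul]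
          push_cast
          ring
      _ ≤ ∑ Z : Finset ι, 2 ^ m * wt a Z := by
          refine Finset.sum_le_sum fun Z _ => ?_
          refine mul_le_mul_of_nonneg_right ?_ (wt_nonneg ha0 ha1 Z)
          exact pow_le_pow_right₀ (by norm_num) (chi_card_le FF m hm Z)
      _ = 2 ^ m := by
          rw [← Finset.mul_sum, sum_wt, mul_one]
  calc ∑ W : Finset ι, wt a W * cost q (large j FF W)
      ≤ ∑ W : Finset ι, ∑ T ∈ large j FF W, wt a (W ∪ T) * (1 / L) ^ (j + 1) :=
        Finset.sum_le_sum fun W _ => h1 W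
    _ = (∑ W : Finset ι, ∑ T ∈ large j FF W, wt a (W ∪ T)) * (1 / L) ^ (j + 1) := by
        rw [Finset.sum_mul]
        refine Finset.sum_congr rfl fun W _ => ?_
        rw [Finset.sum_mul]
    _ ≤ 2 ^ m * (1 / L) ^ (j + 1) :=
        mul_le_mul_of_nonneg_right h2 (pow_nonneg hL0 _)

/-! ### the rounds -/

/-- density of the union of `k` independent binomial sets of density `a`. -/
noncomputable def dens (a : ℝ) : ℕ → ℝ
  | 0 => 0
  | k + 1 => a + dens a k - a * dens a k

lemma dens_bounds {a : ℝ} (h0 : 0 ≤ a) (h1 : a ≤ 1) (k : ℕ) :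
    0 ≤ dens a k ∧ dens a k ≤ 1 ∧ dens a k ≤ k * a := by
  induction k with
  | zero => simp [dens]
  | succ k ih =>
    obtain ⟨i0, i1, i2⟩ := ih
    refine ⟨?_, ?_, ?_⟩
    · simp only [dens]; nlinarith
    · simp only [dens]; nlinarith
    · simp only [dens]; push_cast; nlinarith

/-- the error bound carried by the induction. -/
noncomputable def Bd (m : ℕ) : ℝ := (1 / 4) * (1 - (1 / 2) ^ m)

lemma Bd_step (m : ℕ) (hm : 1 ≤ m) :
    Bd (m / 2) + 2 ^ m * (1 / (2048 : ℝ)) ^ (m / 2 + 1) ≤ Bd m := by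
  set j := m / 2 with hj
  have h1 : m ≤ 2 * j + 1 := by omega
  have h2 : j + 1 ≤ m := by omega
  have e1 : (2 : ℝ) ^ m ≤ 2 ^ (2 * j + 1) := pow_le_pow_right₀ (by norm_num) h1
  have e2 : ((1 : ℝ) / 2) ^ m ≤ (1 / 2) ^ (j + 1) :=
    pow_le_pow_of_le_one (by norm_num) (by norm_num) h2
  have e3 : (2 : ℝ) ^ (2 * j + 1) * (1 / (2048 : ℝ)) ^ (j + 1) = (1 / 1024) * (1 / 512) ^ j := by
    have t1 : (2 : ℝ) ^ (2 * j + 1) = 4 ^ j * 2 := by
      rw [pow_succ, pow_mul]; norm_num
    have t2 : (1 / (2048 : ℝ)) ^ (j + 1) = (1 / 2048) ^ j * (1 / 2048) := pow_succ _ _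
    have t3 : (4 : ℝ) ^ j * (1 / 2048) ^ j = (1 / 512) ^ j := by
      rw [← mul_pow]; norm_num
    calc (2 : ℝ) ^ (2 * j + 1) * (1 / (2048 : ℝ)) ^ (j + 1)
        = ((4 : ℝ) ^ j * (1 / 2048) ^ j) * (1 / 1024) := by rw [t1, t2]; ring
      _ = (1 / 1024) * (1 / 512) ^ j := by rw [t3]; ring
  have e4 : ((1 : ℝ) / 512) ^ j ≤ (1 / 2) ^ j :=
    pow_le_pow_left₀ (by norm_num) (by norm_num) j
  have e5 : (0 : ℝ) ≤ (1 / (2048 : ℝ)) ^ (j + 1) := by positivity
  have e6 : (2 : ℝ) ^ m * (1 / (2048 : ℝ)) ^ (j + 1) ≤ (1 / 1024) * (1 / 2) ^ j := by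
    calc (2 : ℝ) ^ m * (1 / (2048 : ℝ)) ^ (j + 1)
        ≤ 2 ^ (2 * j + 1) * (1 / (2048 : ℝ)) ^ (j + 1) := mul_le_mul_of_nonneg_right e1 e5
      _ = (1 / 1024) * (1 / 512) ^ j := e3
      _ ≤ (1 / 1024) * (1 / 2) ^ j := by nlinarith
  have e7 : ((1 : ℝ) / 2) ^ (j + 1) = (1 / 2) ^ j * (1 / 2) := pow_succ _ _
  have e8 : (0 : ℝ) ≤ (1 / 2) ^ j := by positivity
  unfold Bd
  nlinarith

lemma Bd_le (m : ℕ) : Bd m ≤ 1 / 4 := by
  unfold Bd
  have : (0 : ℝ) ≤ (1 / 2) ^ m := by positivity
  nlinarith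

lemma base_case (FF : Finset (Finset ι)) (h0 : ∀ A ∈ FF, A.card ≤ 0) (q ρ K : ℝ)
    (hK : ∀ GG, Covers GG FF → K ≤ cost q GG) (hK0 : 0 ≤ K) :
    K * failP ρ FF ≤ 0 := by
  by_cases he : (∅ : Finset ι) ∈ FF
  · have : failP ρ FF = 0 := by
      unfold failP
      refine Finset.sum_eq_zero fun W _ => ?_
      have : Hit FF W := ⟨∅, he, Finset.empty_subset _⟩
      rw [if_pos this, mul_zero]
    rw [this, mul_zero]
  · have hemp : FF = ∅ := by
      rw [Finset.eq_empty_iff_forall_notMem]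
      intro A hA
      have := h0 A hA
      have hA0 : A = ∅ := Finset.card_eq_zero.1 (Nat.le_zero.1 this)
      exact he (hA0 ▸ hA)
    have hc : Covers (∅ : Finset (Finset ι)) FF := by
      intro A hA
      rw [hemp] at hA
      exact absurd hA (Finset.notMem_empty _)
    have := hK ∅ hc
    have hz : cost q (∅ : Finset (Finset ι)) = 0 := by simp [cost]
    have hK' : K = 0 := le_antisymm (hz ▸ this) hK0
    rw [hK', zero_mul]

/-- the main induction over the rounds. -/
theorem main_induction (q : ℝ) (hq : 0 ≤ q) (ha1 : 2048 * q ≤ 1) :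
    ∀ k m : ℕ, m < 2 ^ k → ∀ FF : Finset (Finset ι), (∀ A ∈ FF, A.card ≤ m) →
      ∀ K : ℝ, 0 ≤ K → (∀ GG, Covers GG FF → K ≤ cost q GG) →
        K * failP (dens (2048 * q) k) FF ≤ Bd m := by
  set a := 2048 * q with ha
  have ha0 : 0 ≤ a := by positivity
  intro k
  induction k with
  | zero =>
    intro m hm FF hFF K hK0 hK
    have hm0 : m = 0 := by simpa using hm
    subst hm0
    have := base_case FF hFF q (dens a 0) K hK hK0
    simpa [Bd] using this
  | succ k ih =>
    intro m hm FF hFF K hK0 hK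
    rcases Nat.eq_zero_or_pos m with hm0 | hmpos
    · subst hm0
      have := base_case FF hFF q (dens a (k + 1)) K hK hK0
      simpa [Bd] using this
    set j := m / 2 with hj
    have hjk : j < 2 ^ k := by
      rw [pow_succ] at hm
      omega
    obtain ⟨hρ0, hρ1, -⟩ := dens_bounds ha0 ha1 k
    set ρ' := dens a k with hρ'
    -- expand the union
    have hexp : failP (dens a (k + 1)) FF =
        ∑ W₁ : Finset ι, ∑ W₂ : Finset ι,
          wt a W₁ * wt ρ' W₂ * (if Hit FF (W₁ ∪ W₂) then 0 else 1) := by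
      rw [sum_sum_union a ρ' (fun W => if Hit FF W then (0 : ℝ) else 1)]
      rfl
    -- bound for each `W₁`
    have hW1 : ∀ W₁ : Finset ι,
        K * ∑ W₂ : Finset ι, wt ρ' W₂ * (if Hit FF (W₁ ∪ W₂) then (0 : ℝ) else 1)
          ≤ Bd j + cost q (large j FF W₁) := by
      intro W₁
      set F' := small j FF W₁ with hF'
      set c₁ := cost q (large j FF W₁) with hc₁
      have hc₁0 : 0 ≤ c₁ := cost_nonneg hq _
      have hX : ∑ W₂ : Finset ι, wt ρ' W₂ * (if Hit FF (W₁ ∪ W₂) then (0 : ℝ) else 1)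
          ≤ failP ρ' F' := by
        unfold failP
        refine Finset.sum_le_sum fun W₂ _ => ?_
        refine mul_le_mul_of_nonneg_left ?_ (wt_nonneg hρ0 hρ1 W₂)
        by_cases hh : Hit F' W₂
        · obtain ⟨T, hT, hTW⟩ := hh
          have hTf : T ∈ frags FF W₁ := (Finset.mem_filter.1 hT).1
          obtain ⟨S', hS', hsub⟩ := (frags_key FF W₁ T hTf).2.2.2
          have : Hit FF (W₁ ∪ W₂) := by
            refine ⟨S', hS', hsub.trans ?_⟩
            rw [Finset.union_comm]
            exact Finset.union_subset_union_right hTW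
          rw [if_pos this]
          split_ifs <;> norm_num
        · rw [if_neg hh]
          split_ifs <;> norm_num
      have hY0 := failP_nonneg hρ0 hρ1 F'
      have hY1 := failP_le_one hρ0 hρ1 F'
      have hF'card : ∀ A ∈ F', A.card ≤ j := fun A hA => (Finset.mem_filter.1 hA).2
      have hK' : ∀ GG, Covers GG F' → max 0 (K - c₁) ≤ cost q GG := by
        intro GG hGG
        refine max_le (cost_nonneg hq _) ?_
        have hcov : Covers (GG ∪ large j FF W₁) FF := by
          intro A hA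
          have hfr : frag FF W₁ A ∈ frags FF W₁ := Finset.mem_image_of_mem _ hA
          obtain ⟨S', hS', hsub, heq, -⟩ := frag_spec FF W₁ A hA
          have hTA : frag FF W₁ A ⊆ A := by
            rw [heq]
            intro x hx
            rw [Finset.mem_sdiff] at hx
            have := hsub hx.1
            rw [Finset.mem_union] at this
            exact this.resolve_right hx.2
          by_cases hsz : (frag FF W₁ A).card ≤ j
          · have : frag FF W₁ A ∈ F' := Finset.mem_filter.2 ⟨hfr, hsz⟩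
            obtain ⟨T, hT, hTsub⟩ := hGG _ this
            exact ⟨T, Finset.mem_union_left _ hT, hTsub.trans hTA⟩
          · have : frag FF W₁ A ∈ large j FF W₁ :=
              Finset.mem_filter.2 ⟨hfr, not_le.1 hsz⟩
            exact ⟨_, Finset.mem_union_right _ this, hTA⟩
        have h1 := hK _ hcov
        have h2 := cost_union_le hq GG (large j FF W₁)
        linarith
      have hIH := ih j hjk F' hF'card (max 0 (K - c₁)) (le_max_left _ _) hK'
      have hKle : K ≤ max 0 (K - c₁) + c₁ := by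
        have := le_max_right 0 (K - c₁)
        linarith
      calc K * ∑ W₂ : Finset ι, wt ρ' W₂ * (if Hit FF (W₁ ∪ W₂) then (0 : ℝ) else 1)
          ≤ K * failP ρ' F' := mul_le_mul_of_nonneg_left hX hK0
        _ ≤ (max 0 (K - c₁) + c₁) * failP ρ' F' := mul_le_mul_of_nonneg_right hKle hY0
        _ = max 0 (K - c₁) * failP ρ' F' + c₁ * failP ρ' F' := by ring
        _ ≤ Bd j + c₁ := by nlinarith
    have hround := round_cost FF m j hFF a q 2048 ha0 ha1 (by norm_num)
      (by rw [ha]; ring)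
    calc K * failP (dens a (k + 1)) FF
        = ∑ W₁ : Finset ι, wt a W₁ *
            (K * ∑ W₂ : Finset ι, wt ρ' W₂ * (if Hit FF (W₁ ∪ W₂) then (0 : ℝ) else 1)) := by
          rw [hexp, Finset.mul_sum]
          refine Finset.sum_congr rfl fun W₁ _ => ?_
          rw [Finset.mul_sum, Finset.mul_sum, Finset.mul_sum]
          refine Finset.sum_congr rfl fun W₂ _ => ?_
          ring
      _ ≤ ∑ W₁ : Finset ι, wt a W₁ * (Bd j + cost q (large j FF W₁)) :=
          Finset.sum_le_sum fun W₁ _ =>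
            mul_le_mul_of_nonneg_left (hW1 W₁) (wt_nonneg ha0 ha1 W₁)
      _ = Bd j + ∑ W₁ : Finset ι, wt a W₁ * cost q (large j FF W₁) := by
          simp_rw [mul_add]
          rw [Finset.sum_add_distrib, ← Finset.sum_mul, sum_wt, one_mul]
      _ ≤ Bd j + 2 ^ m * (1 / (2048 : ℝ)) ^ (j + 1) := by linarith
      _ ≤ Bd m := Bd_step m hmpos

/-- monotonicity of the failure probability in the density. -/
lemma failP_anti {a c : ℝ} (h0 : 0 ≤ a) (hac : a ≤ c) (h1 : c ≤ 1) (FF : Finset (Finset ι)) :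
    failP c FF ≤ failP a FF := by
  rcases eq_or_lt_of_le (hac.trans h1) with ha1 | ha1
  · have : c = a := le_antisymm (ha1 ▸ h1) hac
    rw [this]
  set b := (c - a) / (1 - a) with hb
  have h1a : 0 < 1 - a := by linarith
  have hb0 : 0 ≤ b := div_nonneg (by linarith) h1a.le
  have hb1 : b ≤ 1 := by
    rw [hb, div_le_one h1a]; linarith
  have hc : c = a + b - a * b := by
    rw [hb]; field_simp; ring
  have hexp : failP c FF = ∑ W₁ : Finset ι, ∑ W₂ : Finset ι,
      wt a W₁ * wt b W₂ * (if Hit FF (W₁ ∪ W₂) then 0 else 1) := by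
    rw [sum_sum_union a b (fun W => if Hit FF W then (0 : ℝ) else 1), ← hc]
    rfl
  rw [hexp]
  unfold failP
  refine Finset.sum_le_sum fun W₁ _ => ?_
  calc ∑ W₂ : Finset ι, wt a W₁ * wt b W₂ * (if Hit FF (W₁ ∪ W₂) then (0 : ℝ) else 1)
      ≤ ∑ W₂ : Finset ι, wt b W₂ * (wt a W₁ * (if Hit FF W₁ then (0 : ℝ) else 1)) := by
        refine Finset.sum_le_sum fun W₂ _ => ?_
        have hw1 := wt_nonneg h0 ha1.le W₁
        have hw2 := wt_nonneg hb0 hb1 W₂
        have hind : (if Hit FF (W₁ ∪ W₂) then (0 : ℝ) else 1) ≤ (if Hit FF W₁ then (0 : ℝ) else 1) := by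
          by_cases hh : Hit FF W₁
          · obtain ⟨A, hA, hAW⟩ := hh
            have : Hit FF (W₁ ∪ W₂) := ⟨A, hA, hAW.trans Finset.subset_union_left⟩
            rw [if_pos this]
            split_ifs <;> norm_num
          · rw [if_neg hh]
            split_ifs <;> norm_num
        calc wt a W₁ * wt b W₂ * (if Hit FF (W₁ ∪ W₂) then (0 : ℝ) else 1)
            ≤ wt a W₁ * wt b W₂ * (if Hit FF W₁ then (0 : ℝ) else 1) :=
              mul_le_mul_of_nonneg_left hind (mul_nonneg hw1 hw2)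
          _ = wt b W₂ * (wt a W₁ * (if Hit FF W₁ then (0 : ℝ) else 1)) := by ring
    _ = wt a W₁ * (if Hit FF W₁ then (0 : ℝ) else 1) := by
        rw [← Finset.sum_mul, sum_wt, one_mul]

lemma succP_eq (ρ : ℝ) (FF : Finset (Finset ι)) :
    ∑ W : Finset ι, wt ρ W * (if Hit FF W then 1 else 0) = 1 - failP ρ FF := by
  unfold failP
  rw [eq_sub_iff_add_eq, ← Finset.sum_add_distrib]
  refine Eq.trans ?_ (sum_wt (ι := ι) ρ)
  refine Finset.sum_congr rfl fun W _ => ?_
  split_ifs <;> ring

/-- **Park–Pham, binomial model.**  If every cover of the `h`-bounded nonempty family `FF` has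
`q`-cost at least `1/2`, then a binomial set of density `min 1 (2048 q (1 + log₂ h))` contains a
member of `FF` with probability at least `1/2`. -/
theorem parkPham (FF : Finset (Finset ι)) (hne : FF.Nonempty) (h : ℕ)
    (hcard : ∀ A ∈ FF, A.card ≤ h) (q : ℝ) (hq : 0 ≤ q)
    (hK : ∀ GG, Covers GG FF → 1 / 2 ≤ cost q GG) :
    (1 : ℝ) / 2 ≤ Crest.FinProb.bernoulliProb (min 1 (2048 * q * (1 + Real.logb 2 (h : ℝ))))
      {ω : ι → Bool | ∃ A ∈ FF, ∀ i ∈ A, ω i = true} := by
  have hlog : (Nat.log 2 h : ℝ) ≤ Real.logb 2 (h : ℝ) := by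
    have := Real.natLog_le_logb h 2
    simpa using this
  have hlog0 : (0 : ℝ) ≤ Real.logb 2 (h : ℝ) := le_trans (by positivity) hlog
  rw [bernoulliProb_eq _ _ (Hit FF) (by
    intro ω
    simp only [Set.mem_ofPred_eq, Hit]
    constructor
    · rintro ⟨A, hA, hAω⟩
      exact ⟨A, hA, fun i hi => (mem_toFin ω i).2 (hAω i hi)⟩
    · rintro ⟨A, hA, hAω⟩
      exact ⟨A, hA, fun i hi => (mem_toFin ω i).1 (hAω hi)⟩)]
  rw [succP_eq]
  by_cases ha1 : 2048 * q ≤ 1
  · set k := Nat.log 2 h + 1 with hk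
    have hlt : h < 2 ^ k := Nat.lt_pow_succ_log_self (by norm_num) h
    have hmain := main_induction q hq ha1 k h hlt FF hcard (1 / 2) (by norm_num) hK
    have hB := Bd_le h
    have ha0 : 0 ≤ 2048 * q := by positivity
    obtain ⟨d0, d1, d2⟩ := dens_bounds ha0 ha1 k
    have hle : dens (2048 * q) k ≤ min 1 (2048 * q * (1 + Real.logb 2 (h : ℝ))) := by
      refine le_min d1 (d2.trans ?_)
      rw [hk]
      push_cast
      nlinarith
    have := failP_anti d0 hle (min_le_left _ _) FF
    linarith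
  · have hmin : min 1 (2048 * q * (1 + Real.logb 2 (h : ℝ))) = 1 := by
      apply min_eq_left
      have ha1' : 1 < 2048 * q := not_le.1 ha1
      nlinarith
    rw [hmin]
    have : failP (1 : ℝ) FF ≤ 0 := by
      have h1 : ∑ W : Finset ι, wt (1 : ℝ) W * (if Hit FF W then 1 else 0) = 1 - failP 1 FF :=
        succP_eq 1 FF
      have h2 : (1 : ℝ) ≤ ∑ W : Finset ι, wt (1 : ℝ) W * (if Hit FF W then 1 else 0) := by
        have hu : Hit FF (univ : Finset ι) := by
          obtain ⟨A, hA⟩ := hne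
          exact ⟨A, hA, Finset.subset_univ _⟩
        calc (1 : ℝ) = wt (1 : ℝ) (univ : Finset ι) * (if Hit FF univ then 1 else 0) := by
              rw [if_pos hu, wt_one_univ, mul_one]
          _ ≤ ∑ W : Finset ι, wt (1 : ℝ) W * (if Hit FF W then 1 else 0) := by
              refine Finset.single_le_sum (f := fun W : Finset ι =>
                wt (1 : ℝ) W * (if Hit FF W then 1 else 0)) (fun W _ => ?_) (mem_univ _)
              refine mul_nonneg (wt_nonneg (by norm_num) le_rfl W) ?_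
              split_ifs <;> norm_num
      linarith
    linarith

omit [Fintype ι] in
/-- spread weights give the lower bound `1` for the cost of every cover. -/
theorem cost_ge_one_of_spread {σ : Type*} [Fintype σ] [Nonempty σ] (A : σ → Finset ι) (q : ℝ)
    (hspread : ∀ S : Finset ι,
      ((univ.filter (fun s : σ => S ⊆ A s)).card : ℝ) ≤ q ^ S.card * (Fintype.card σ : ℝ))
    (GG : Finset (Finset ι)) (hGG : Covers GG (univ.image A)) : 1 ≤ cost q GG := by
  classical
  have hpos : (0 : ℝ) < (Fintype.card σ : ℝ) := by exact_mod_cast Fintype.card_pos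
  have h1 : (Fintype.card σ : ℝ) ≤ ∑ T ∈ GG, ((univ.filter (fun s : σ => T ⊆ A s)).card : ℝ) := by
    have e : ∀ T ∈ GG, ((univ.filter (fun s : σ => T ⊆ A s)).card : ℝ)
        = ∑ s : σ, if T ⊆ A s then (1 : ℝ) else 0 := by
      intro T _
      rw [Finset.card_filter]
      push_cast
      rfl
    rw [Finset.sum_congr rfl e, Finset.sum_comm]
    calc (Fintype.card σ : ℝ) = ∑ _s : σ, (1 : ℝ) := by simp
      _ ≤ ∑ s : σ, ∑ T ∈ GG, if T ⊆ A s then (1 : ℝ) else 0 := by
          refine Finset.sum_le_sum fun s _ => ?_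
          obtain ⟨T, hT, hTs⟩ := hGG (A s) (Finset.mem_image_of_mem _ (mem_univ s))
          calc (1 : ℝ) = if T ⊆ A s then (1 : ℝ) else 0 := by rw [if_pos hTs]
            _ ≤ ∑ T ∈ GG, if T ⊆ A s then (1 : ℝ) else 0 := by
                refine Finset.single_le_sum (f := fun T => if T ⊆ A s then (1 : ℝ) else 0)
                  (fun T _ => ?_) hT
                split_ifs <;> norm_num
  have h2 : ∑ T ∈ GG, ((univ.filter (fun s : σ => T ⊆ A s)).card : ℝ)
      ≤ cost q GG * (Fintype.card σ : ℝ) := by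
    unfold cost
    rw [Finset.sum_mul]
    exact Finset.sum_le_sum fun T _ => hspread T
  have h3 := h1.trans h2
  by_contra hlt
  have hlt' : cost q GG < 1 := not_le.1 hlt
  nlinarith

end Crest.Agent.S0076Aux
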