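import Mathlib
import Crest.Prelude.Def_FinProb
import Crest.Prelude.Def_RandomGraph
import Crest.Agent.S0076Aux.ParkPham

/-!
From the spread of the uniform measure on the copies of `H` in `K_n` to the conclusion of S0076.
-/

set_option autoImplicit false

namespace Crest.Agent.S0076Aux

open Finset Crest.CombinatoricsR.RandomGraph

variable {n : ℕ} {W : Type} [Fintype W] [DecidableEq W]

/-- the coin positions used by the copy `σ(H)` of `H` in the complete graph on `Fin n`. -/
def copySlots (H : SimpleGraph W) [DecidableRel H.Adj] (σ : W ↪ Fin n) : Finset (EdgeSlot n) :=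
  univ.filter (fun z : EdgeSlot n => z.1 ∈ H.edgeFinset.image (Sym2.map σ))

lemma card_copySlots_le (H : SimpleGraph W) [DecidableRel H.Adj] (σ : W ↪ Fin n) :
    (copySlots H σ).card ≤ H.edgeFinset.card := by
  calc (copySlots H σ).card ≤ (H.edgeFinset.image (Sym2.map σ)).card := by
        refine Finset.card_le_card_of_injOn (fun z => z.1) ?_ ?_
        · intro z hz
          have hz' : z ∈ copySlots H σ := hz
          unfold copySlots at hz'
          rw [Finset.mem_filter] at hz'
          exact hz'.2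
        · intro z _ z' _ h
          exact Subtype.ext h
    _ ≤ H.edgeFinset.card := Finset.card_image_le

lemma isContained_of_slots (H : SimpleGraph W) [DecidableRel H.Adj] (σ : W ↪ Fin n)
    (ω : EdgeSlot n → Bool) (hω : ∀ z ∈ copySlots H σ, ω z = true) :
    H.IsContained (graphOf ω) := by
  refine ⟨⟨⟨σ, ?_⟩, σ.injective⟩⟩
  intro a b hab
  have hne : σ a ≠ σ b := fun h => H.ne_of_adj hab (σ.injective h)
  have hnd : ¬ (s(σ a, σ b) : Sym2 (Fin n)).IsDiag := by
    rw [Sym2.mk_isDiag_iff]; exact hne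
  unfold graphOf
  rw [SimpleGraph.fromEdgeSet_adj]
  refine ⟨⟨hnd, hω ⟨s(σ a, σ b), hnd⟩ ?_⟩, hne⟩
  unfold copySlots
  rw [Finset.mem_filter]
  refine ⟨mem_univ _, ?_⟩
  rw [Finset.mem_image]
  refine ⟨s(a, b), ?_, by simp⟩
  rw [SimpleGraph.mem_edgeFinset, SimpleGraph.mem_edgeSet]
  exact hab

lemma bernoulliProb_mono {ι : Type*} [Fintype ι] [DecidableEq ι] {p : ℝ} (h0 : 0 ≤ p)
    (h1 : p ≤ 1) {E₁ E₂ : Set (ι → Bool)} (hE : E₁ ⊆ E₂) :
    Crest.FinProb.bernoulliProb p E₁ ≤ Crest.FinProb.bernoulliProb p E₂ := by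
  classical
  unfold Crest.FinProb.bernoulliProb
  refine Finset.sum_le_sum_of_subset_of_nonneg ?_ ?_
  · intro ω hω
    rw [Finset.mem_filter] at hω ⊢
    exact ⟨hω.1, hE hω.2⟩
  · intro ω _ _
    rw [bernoulliWeight_eq]
    exact wt_nonneg h0 h1 _

/-- S0076 from: every cover of the family of copies of `H` has `e^50 p`-cost at least `1/2`
(i.e. the family of copies is not `e^50 p`-small). -/
theorem result_of_not_small (n : ℕ) (W : Type) [Fintype W] [DecidableEq W] (H : SimpleGraph W)
    [DecidableRel H.Adj] (hW : Fintype.card W ≤ n) (hH : 1 ≤ H.edgeFinset.card)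
    (p : ℝ) (hp0 : 0 ≤ p)
    (hK : ∀ GG : Finset (Finset (EdgeSlot n)),
      Covers GG (univ.image (fun σ : W ↪ Fin n => copySlots H σ)) →
        1 / 2 ≤ cost (Real.exp 50 * p) GG) :
    (1 : ℝ) / 2 ≤ gnpProb n
      (min 1 (2048 * Real.exp 50 * p * (1 + Real.logb 2 (H.edgeFinset.card : ℝ))))
      {G | H.IsContained G} := by
  classical
  haveI : Nonempty (W ↪ Fin n) :=
    Function.Embedding.nonempty_of_card_le (by simpa using hW)
  set FF : Finset (Finset (EdgeSlot n)) := univ.image (fun σ : W ↪ Fin n => copySlots H σ)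
    with hFF
  have hne : FF.Nonempty := by
    obtain ⟨σ⟩ := (inferInstance : Nonempty (W ↪ Fin n))
    exact ⟨copySlots H σ, Finset.mem_image_of_mem _ (mem_univ σ)⟩
  have hcard : ∀ A ∈ FF, A.card ≤ H.edgeFinset.card := by
    intro A hA
    rw [hFF, Finset.mem_image] at hA
    obtain ⟨σ, -, rfl⟩ := hA
    exact card_copySlots_le H σ
  have hq : 0 ≤ Real.exp 50 * p := mul_nonneg (Real.exp_pos _).le hp0
  have hpp := parkPham FF hne H.edgeFinset.card hcard (Real.exp 50 * p) hq hK
  have hlog0 : (0 : ℝ) ≤ Real.logb 2 (H.edgeFinset.card : ℝ) := by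
    apply Real.logb_nonneg (by norm_num)
    exact_mod_cast hH
  have hdens : 2048 * (Real.exp 50 * p) * (1 + Real.logb 2 (H.edgeFinset.card : ℝ))
      = 2048 * Real.exp 50 * p * (1 + Real.logb 2 (H.edgeFinset.card : ℝ)) := by ring
  rw [hdens] at hpp
  refine hpp.trans ?_
  unfold gnpProb
  refine bernoulliProb_mono ?_ (min_le_left _ _) ?_
  · refine le_min (by norm_num) ?_
    have : 0 ≤ 2048 * Real.exp 50 * p := by
      have := Real.exp_pos 50
      positivity
    exact mul_nonneg this (by linarith)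
  · rintro ω ⟨A, hA, hAω⟩
    rw [hFF, Finset.mem_image] at hA
    obtain ⟨σ, -, rfl⟩ := hA
    exact isContained_of_slots H σ ω hAω

/-- S0076 from the `e^50 p`-spread of the uniform measure on the copies of `H`. -/
theorem result_of_spread (n : ℕ) (W : Type) [Fintype W] [DecidableEq W] (H : SimpleGraph W)
    [DecidableRel H.Adj] (hW : Fintype.card W ≤ n) (hH : 1 ≤ H.edgeFinset.card)
    (p : ℝ) (hp0 : 0 ≤ p)
    (hspread : ∀ S : Finset (EdgeSlot n),
      ((univ.filter (fun σ : W ↪ Fin n => S ⊆ copySlots H σ)).card : ℝ)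
        ≤ (Real.exp 50 * p) ^ S.card * (Fintype.card (W ↪ Fin n) : ℝ)) :
    (1 : ℝ) / 2 ≤ gnpProb n
      (min 1 (2048 * Real.exp 50 * p * (1 + Real.logb 2 (H.edgeFinset.card : ℝ))))
      {G | H.IsContained G} := by
  classical
  haveI : Nonempty (W ↪ Fin n) :=
    Function.Embedding.nonempty_of_card_le (by simpa using hW)
  refine result_of_not_small n W H hW hH p hp0 fun GG hGG => ?_
  have := cost_ge_one_of_spread (fun σ : W ↪ Fin n => copySlots H σ) (Real.exp 50 * p)
    hspread GG hGG
  linarith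

end Crest.Agent.S0076Aux
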