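import Mathlib
import Crest.Prelude.Def_FinProb

/-!
# S0076Aux.Weights

Random subsets of a finite type `ι` at density `ρ`, as exact finite sums over `Finset ι`;
bridge to `Crest.FinProb.bernoulliWeight`/`bernoulliProb`; the "union of two independent random
sets" identity.
-/

set_option autoImplicit false

namespace Crest.Agent.S0076Aux.H60

open Finset

variable {ι : Type*} [Fintype ι] [DecidableEq ι]

/-- weight of the random set `W` at density `ρ`. -/
noncomputable def wt (ρ : ℝ) (W : Finset ι) : ℝ := ∏ i, if i ∈ W then ρ else 1 - ρ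

lemma wt_nonneg {ρ : ℝ} (h0 : 0 ≤ ρ) (h1 : ρ ≤ 1) (W : Finset ι) : 0 ≤ wt ρ W := by
  unfold wt
  apply Finset.prod_nonneg
  intro i _
  split_ifs <;> linarith

/-- The equivalence between outcomes of coin flips and finite sets. -/
def boolEquiv : (ι → Bool) ≃ Finset ι where
  toFun ω := univ.filter (fun i => ω i = true)
  invFun W := fun i => decide (i ∈ W)
  left_inv ω := by ext i; simp
  right_inv W := by ext i; simp

lemma mem_boolEquiv (ω : ι → Bool) (i : ι) : i ∈ boolEquiv ω ↔ ω i = true := by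
  simp [boolEquiv]

lemma wt_boolEquiv (ρ : ℝ) (ω : ι → Bool) :
    wt ρ (boolEquiv ω) = Crest.FinProb.bernoulliWeight ρ ω := by
  unfold wt Crest.FinProb.bernoulliWeight
  apply Finset.prod_congr rfl
  intro i _
  simp [mem_boolEquiv]

lemma sum_boolEquiv (F : Finset ι → ℝ) : ∑ ω : ι → Bool, F (boolEquiv ω) = ∑ W : Finset ι, F W :=
  Equiv.sum_comp boolEquiv F

/-- General push-forward of product weights. -/
lemma pushforward {α β : Type*} [Fintype α] [Fintype β] [DecidableEq α] [DecidableEq β]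
    (φ : α → β) (u : α → ℝ) (G : (ι → β) → ℝ) :
    ∑ f : ι → α, (∏ i, u (f i)) * G (fun i => φ (f i)) =
      ∑ ω : ι → β, (∏ i, ∑ x ∈ univ.filter (fun x => φ x = ω i), u x) * G ω := by
  classical
  have key : ∀ ω : ι → β, (∏ i, ∑ x ∈ univ.filter (fun x => φ x = ω i), u x) =
      ∑ f ∈ univ.filter (fun f : ι → α => (fun i => φ (f i)) = ω), ∏ i, u (f i) := by
    intro ω
    rw [Finset.prod_univ_sum]
    apply Finset.sum_congr
    · ext f
      simp [Fintype.mem_piFinset, funext_iff]
    · intros; rfl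
  simp_rw [key, Finset.sum_mul]
  rw [← Finset.sum_fiberwise (s := univ) (g := fun f : ι → α => fun i => φ (f i))]
  apply Finset.sum_congr rfl
  intro ω _
  apply Finset.sum_congr rfl
  intro f hf
  rw [(Finset.mem_filter.mp hf).2]

/-- Union of two independent random outcomes (function form). -/
lemma union_bool (a b : ℝ) (G : (ι → Bool) → ℝ) :
    ∑ ω₁ : ι → Bool, ∑ ω₂ : ι → Bool,
        Crest.FinProb.bernoulliWeight a ω₁ * Crest.FinProb.bernoulliWeight b ω₂ *
          G (fun i => ω₁ i || ω₂ i) =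
      ∑ ω : ι → Bool, Crest.FinProb.bernoulliWeight (a + b - a * b) ω * G ω := by
  classical
  have h := pushforward (ι := ι) (fun x : Bool × Bool => x.1 || x.2)
    (fun x : Bool × Bool => (if x.1 then a else 1 - a) * (if x.2 then b else 1 - b)) G
  have hfib : ∀ β : Bool, ∑ x ∈ univ.filter (fun x : Bool × Bool => (x.1 || x.2) = β),
      (if x.1 then a else 1 - a) * (if x.2 then b else 1 - b) =
      if β then a + b - a * b else 1 - (a + b - a * b) := by
    intro β
    rw [Finset.sum_filter, Fintype.sum_prod_type]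
    cases β <;> simp <;> ring
  simp_rw [hfib] at h
  unfold Crest.FinProb.bernoulliWeight
  rw [← h, ← Fintype.sum_prod_type',
    ← Equiv.sum_comp (Equiv.arrowProdEquivProdArrow ι (fun _ => Bool) (fun _ => Bool))]
  apply Finset.sum_congr rfl
  intro f _
  simp only [Equiv.arrowProdEquivProdArrow_apply]
  rw [Finset.prod_mul_distrib]

/-- Union of two independent random sets. -/
lemma union_wt (a b : ℝ) (g : Finset ι → ℝ) :
    ∑ W₁ : Finset ι, ∑ W₂ : Finset ι, wt a W₁ * wt b W₂ * g (W₁ ∪ W₂) =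
      ∑ W : Finset ι, wt (a + b - a * b) W * g W := by
  have h := union_bool a b (fun ω : ι → Bool => g (boolEquiv ω))
  rw [← sum_boolEquiv (fun W => wt (a + b - a * b) W * g W)]
  simp_rw [wt_boolEquiv]
  rw [← h, ← sum_boolEquiv]
  apply Finset.sum_congr rfl
  intro ω₁ _
  rw [← sum_boolEquiv]
  apply Finset.sum_congr rfl
  intro ω₂ _
  rw [wt_boolEquiv, wt_boolEquiv]
  congr 2
  ext i
  simp [mem_boolEquiv]

lemma wt_eq_pow (ρ : ℝ) (W : Finset ι) : wt ρ W = ρ ^ #W * (1 - ρ) ^ #Wᶜ := by
  unfold wt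
  rw [Finset.prod_ite, Finset.prod_const, Finset.prod_const]
  congr 2
  · congr 1; ext i; simp
  · congr 1; ext i; simp

lemma sum_wt (ρ : ℝ) : ∑ W : Finset ι, wt ρ W = 1 := by
  have h := Finset.prod_add (fun _ : ι => ρ) (fun _ : ι => 1 - ρ) univ
  simp only [add_sub_cancel, Finset.prod_const_one, Finset.powerset_univ] at h
  rw [h]
  apply Finset.sum_congr rfl
  intro W _
  rw [wt_eq_pow, Finset.prod_const, Finset.prod_const, Finset.compl_eq_univ_sdiff]

lemma wt_mul_pow_of_disjoint (ρ : ℝ) {W T : Finset ι} (h : Disjoint W T) :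
    wt ρ W * ρ ^ #T = wt ρ (W ∪ T) * (1 - ρ) ^ #T := by
  rw [wt_eq_pow, wt_eq_pow, Finset.card_union_of_disjoint h]
  have hc : #Wᶜ = #(W ∪ T)ᶜ + #T := by
    have h1 : Wᶜ = (W ∪ T)ᶜ ∪ T := by
      ext i
      simp only [mem_compl, mem_union, not_or]
      constructor
      · intro hi
        by_cases hT : i ∈ T
        · exact Or.inr hT
        · exact Or.inl ⟨hi, hT⟩
      · rintro (⟨hi, _⟩ | hT)
        · exact hi
        · exact fun hW => (Finset.disjoint_left.mp h hW) hT
    rw [h1, Finset.card_union_of_disjoint]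
    rw [Finset.disjoint_left]
    intro i hi hT
    simp only [mem_compl, mem_union, not_or] at hi
    exact hi.2 hT
  rw [hc]
  ring

lemma bernoulliProb_eq_sum (p : ℝ) (E : Set (ι → Bool)) [DecidablePred (· ∈ E)] :
    Crest.FinProb.bernoulliProb p E =
      ∑ W : Finset ι, wt p W * (if boolEquiv.symm W ∈ E then 1 else 0) := by
  unfold Crest.FinProb.bernoulliProb
  rw [← sum_boolEquiv, Finset.sum_filter]
  apply Finset.sum_congr rfl
  intro ω _
  rw [wt_boolEquiv, Equiv.symm_apply_apply]
  by_cases h : ω ∈ E <;> simp [h]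

end Crest.Agent.S0076Aux.H60
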