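import Mathlib
import Crest.Prelude.Def_FinProb
import Crest.Prelude.Def_RandomGraph
import Crest.Agent.S0076Aux.Weights60

/-!
# S0076Aux.Expect

`gnpExpect n p (copyCount F) = (number of copies of F in K_n) * p ^ e(F)`.
-/

set_option autoImplicit false
set_option linter.unusedSectionVars false

namespace Crest.Agent.S0076Aux.H60

open Finset
open Crest.CombinatoricsR.RandomGraph
open scoped Classical

/-- probability that all coins of `S` show heads -/
lemma sum_bernoulliWeight_forall {ι : Type*} [Fintype ι] [DecidableEq ι] (p : ℝ) (S : Finset ι) :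
    ∑ ω : ι → Bool, Crest.FinProb.bernoulliWeight p ω *
      (if ∀ i ∈ S, ω i = true then (1 : ℝ) else 0) = p ^ #S := by
  have h1 : ∀ ω : ι → Bool, Crest.FinProb.bernoulliWeight p ω *
      (if ∀ i ∈ S, ω i = true then (1 : ℝ) else 0) =
      ∏ i, ((if ω i then p else 1 - p) * (if (i ∈ S → ω i = true) then (1 : ℝ) else 0)) := by
    intro ω
    rw [Finset.prod_mul_distrib, Finset.prod_ite_zero]
    simp [Crest.FinProb.bernoulliWeight]
  simp_rw [h1]
  rw [← Fintype.prod_sum (fun (i : ι) (b : Bool) =>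
    ((if b then p else 1 - p) * (if (i ∈ S → b = true) then (1 : ℝ) else 0)))]
  have h2 : ∀ i : ι, ∑ b : Bool,
      ((if b then p else 1 - p) * (if (i ∈ S → b = true) then (1 : ℝ) else 0)) =
      if i ∈ S then p else 1 := by
    intro i
    rw [Fintype.sum_bool]
    by_cases hi : i ∈ S <;> simp [hi]
  simp_rw [h2]
  rw [Finset.prod_ite, Finset.prod_const_one, mul_one, Finset.prod_const]
  congr 2
  ext i; simp

variable {V : Type*} [Fintype V]

/-- copies in `G` as subgraphs of the complete graph whose edges lie in `G`. -/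
lemma copyCount_eq_card_top {V' : Type*} (G : SimpleGraph V) (F : SimpleGraph V') :
    G.copyCount F = #((univ : Finset (⊤ : SimpleGraph V).Subgraph).filter
      (fun K => Nonempty (F ≃g K.coe) ∧ ∀ u v, K.Adj u v → G.Adj u v)) := by
  rw [SimpleGraph.copyCount]
  apply Finset.card_bij (fun (G' : G.Subgraph) _ =>
    (⟨G'.verts, G'.Adj, fun h => by simpa using (G'.adj_sub h).ne, G'.edge_vert, G'.symm⟩ :
      (⊤ : SimpleGraph V).Subgraph))
  · intro G' hG'
    rw [Finset.mem_filter] at hG' ⊢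
    exact ⟨Finset.mem_univ _, hG'.2, fun u v h => G'.adj_sub h⟩
  · intro G₁ _ G₂ _ h
    have hv : G₁.verts = G₂.verts :=
      congrArg (fun K : (⊤ : SimpleGraph V).Subgraph => K.verts) h
    have ha : G₁.Adj = G₂.Adj :=
      congrArg (fun K : (⊤ : SimpleGraph V).Subgraph => K.Adj) h
    exact SimpleGraph.Subgraph.ext hv ha
  · intro K hK
    rw [Finset.mem_filter] at hK
    refine ⟨⟨K.verts, K.Adj, fun {u v} h => hK.2.2 u v h, K.edge_vert, K.symm⟩, ?_, ?_⟩
    · rw [Finset.mem_filter]
      exact ⟨Finset.mem_univ _, hK.2.1⟩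
    · rfl

variable {n : ℕ}

/-- the edge slots of a subgraph of the complete graph -/
noncomputable def slotsOf (K : (⊤ : SimpleGraph (Fin n)).Subgraph) : Finset (EdgeSlot n) :=
  univ.filter (fun z => z.1 ∈ K.edgeSet)

lemma card_slotsOf (K : (⊤ : SimpleGraph (Fin n)).Subgraph) :
    #(slotsOf K) = K.edgeSet.ncard := by
  rw [← Set.ncard_coe_finset (slotsOf K), ← Set.ncard_image_of_injective _ Subtype.val_injective]
  congr 1
  ext z
  constructor
  · rintro ⟨z', hz', rfl⟩
    exact (Finset.mem_filter.mp hz').2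
  · intro hz
    have hd : ¬ z.IsDiag :=
      SimpleGraph.not_isDiag_of_mem_edgeSet _ (SimpleGraph.Subgraph.edgeSet_subset K hz)
    exact ⟨⟨z, hd⟩, Finset.mem_filter.mpr ⟨Finset.mem_univ _, hz⟩, rfl⟩

lemma ncard_edgeSet_of_iso {V' : Type*} {F : SimpleGraph V'}
    {K : (⊤ : SimpleGraph V).Subgraph} (e : F ≃g K.coe) :
    K.edgeSet.ncard = F.edgeSet.ncard := by
  have hinj : Function.Injective (fun v : V' => ((e v : K.verts) : V)) :=
    Subtype.val_injective.comp e.injective
  rw [← Set.ncard_image_of_injective F.edgeSet (Sym2.map.injective hinj)]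
  congr 1
  ext z
  constructor
  · intro hz
    induction z using Sym2.ind with
    | _ u v =>
      rw [SimpleGraph.Subgraph.mem_edgeSet] at hz
      have hu : u ∈ K.verts := K.edge_vert hz
      have hv : v ∈ K.verts := K.edge_vert hz.symm
      have hadj : K.coe.Adj ⟨u, hu⟩ ⟨v, hv⟩ := hz
      refine ⟨s(e.symm ⟨u, hu⟩, e.symm ⟨v, hv⟩), ?_, ?_⟩
      · rw [SimpleGraph.mem_edgeSet]
        exact e.symm.map_rel_iff.mpr hadj
      · simp
  · rintro ⟨z', hz', rfl⟩
    induction z' using Sym2.ind with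
    | _ a b =>
      rw [SimpleGraph.mem_edgeSet] at hz'
      have : K.coe.Adj (e a) (e b) := e.map_rel_iff.mpr hz'
      simp only [Sym2.map_mk, SimpleGraph.Subgraph.mem_edgeSet]
      exact this

lemma adj_le_graphOf_iff (K : (⊤ : SimpleGraph (Fin n)).Subgraph) (ω : EdgeSlot n → Bool) :
    (∀ u v, K.Adj u v → (graphOf ω).Adj u v) ↔ ∀ z ∈ slotsOf K, ω z = true := by
  constructor
  · intro h z hz
    obtain ⟨z, hd⟩ := z
    have hz' : z ∈ K.edgeSet := (Finset.mem_filter.mp hz).2
    induction z using Sym2.ind with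
    | _ u v =>
      rw [SimpleGraph.Subgraph.mem_edgeSet] at hz'
      have := h u v hz'
      unfold graphOf at this
      rw [SimpleGraph.fromEdgeSet_adj] at this
      obtain ⟨⟨_, hω⟩, _⟩ := this
      exact hω
  · intro h u v huv
    have hne : u ≠ v := by simpa using K.adj_sub huv
    unfold graphOf
    rw [SimpleGraph.fromEdgeSet_adj]
    have hd : ¬ (s(u, v) : Sym2 (Fin n)).IsDiag := by simpa using hne
    refine ⟨⟨hd, h _ ?_⟩, hne⟩
    exact Finset.mem_filter.mpr ⟨Finset.mem_univ _, by simpa using huv⟩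

lemma copyCount_graphOf {V' : Type*} (F : SimpleGraph V') (ω : EdgeSlot n → Bool) :
    ((graphOf ω).copyCount F : ℝ) =
      ∑ K ∈ (univ : Finset (⊤ : SimpleGraph (Fin n)).Subgraph).filter
        (fun K => Nonempty (F ≃g K.coe)),
          (if ∀ z ∈ slotsOf K, ω z = true then (1 : ℝ) else 0) := by
  rw [copyCount_eq_card_top, Finset.sum_ite, Finset.sum_const_zero, add_zero,
    Finset.sum_const, nsmul_eq_mul, mul_one, Finset.filter_filter]
  congr 2
  ext K
  simp only [Finset.mem_filter, Finset.mem_univ, true_and, adj_le_graphOf_iff]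

lemma copyCount_top {V' : Type*} (F : SimpleGraph V') :
    (⊤ : SimpleGraph (Fin n)).copyCount F =
      #((univ : Finset (⊤ : SimpleGraph (Fin n)).Subgraph).filter
        (fun K => Nonempty (F ≃g K.coe))) := by
  rw [copyCount_eq_card_top]
  congr 1
  ext K
  simp only [Finset.mem_filter, Finset.mem_univ, true_and, SimpleGraph.top_adj]
  constructor
  · exact fun h => h.1
  · intro h
    exact ⟨h, fun u v huv => by simpa using K.adj_sub huv⟩

/-- **Expected number of copies.** -/
theorem gnpExpect_copyCount {V' : Type*} (p : ℝ) (F : SimpleGraph V') :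
    gnpExpect n p (fun G => (G.copyCount F : ℝ)) =
      ((⊤ : SimpleGraph (Fin n)).copyCount F : ℝ) * p ^ F.edgeSet.ncard := by
  unfold gnpExpect
  rw [copyCount_top]
  generalize h𝒦 : (univ : Finset (⊤ : SimpleGraph (Fin n)).Subgraph).filter
        (fun K => Nonempty (F ≃g K.coe)) = 𝒦
  have h1 : ∀ ω : EdgeSlot n → Bool, ((graphOf ω).copyCount F : ℝ) =
      ∑ K ∈ 𝒦, (if ∀ z ∈ slotsOf K, ω z = true then (1 : ℝ) else 0) := by
    intro ω
    rw [copyCount_graphOf, h𝒦]
  have h2 : ∀ K ∈ 𝒦,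
      ∑ ω : EdgeSlot n → Bool, Crest.FinProb.bernoulliWeight p ω *
        (if ∀ z ∈ slotsOf K, ω z = true then (1 : ℝ) else 0) = p ^ F.edgeSet.ncard := by
    intro K hK
    rw [← h𝒦] at hK
    obtain ⟨e⟩ := (Finset.mem_filter.mp hK).2
    rw [sum_bernoulliWeight_forall, card_slotsOf, ncard_edgeSet_of_iso e]
  calc ∑ ω : EdgeSlot n → Bool, Crest.FinProb.bernoulliWeight p ω * ((graphOf ω).copyCount F : ℝ)
      = ∑ ω : EdgeSlot n → Bool, ∑ K ∈ 𝒦, Crest.FinProb.bernoulliWeight p ω *
          (if ∀ z ∈ slotsOf K, ω z = true then (1 : ℝ) else 0) := by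
        apply Finset.sum_congr rfl
        intro ω _
        rw [h1, Finset.mul_sum]
    _ = ∑ K ∈ 𝒦, ∑ ω : EdgeSlot n → Bool, Crest.FinProb.bernoulliWeight p ω *
          (if ∀ z ∈ slotsOf K, ω z = true then (1 : ℝ) else 0) := Finset.sum_comm
    _ = ∑ K ∈ 𝒦, p ^ F.edgeSet.ncard := Finset.sum_congr rfl h2
    _ = (#𝒦 : ℝ) * p ^ F.edgeSet.ncard := by rw [Finset.sum_const, nsmul_eq_mul]

end Crest.Agent.S0076Aux.H60
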