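import Mathlib
import Crest.Prelude.Def_FinProb

/-!
# Park–Pham theorem in the binomial model (helper56)

Abstract version on a finite ground set `ι`, with scale dependent densities.
-/

set_option autoImplicit false

namespace Crest.Agent.S0076Aux.PP56

open Finset

variable {ι : Type*} [Fintype ι] [DecidableEq ι]

/-- weight of the set `A` under the product measure of density `p`. -/
noncomputable def wt (p : ℝ) (A : Finset ι) : ℝ := ∏ i, if i ∈ A then p else 1 - p

lemma sum_prod_ite (x y : ι → ℝ) :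
    ∑ A : Finset ι, ∏ i, (if i ∈ A then x i else y i) = ∏ i, (x i + y i) := by
  rw [Finset.prod_add, Finset.powerset_univ]
  refine Finset.sum_congr rfl fun A _ => ?_
  rw [Finset.prod_ite]
  congr 1
  · refine Finset.prod_congr ?_ fun _ _ => rfl
    ext i; simp
  · refine Finset.prod_congr ?_ fun _ _ => rfl
    ext i; simp

lemma wt_nonneg {p : ℝ} (h0 : 0 ≤ p) (h1 : p ≤ 1) (A : Finset ι) : 0 ≤ wt p A := by
  unfold wt
  refine Finset.prod_nonneg fun i _ => ?_
  split_ifs
  · exact h0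
  · linarith

lemma sum_wt (p : ℝ) : ∑ A : Finset ι, wt p A = 1 := by
  unfold wt
  rw [sum_prod_ite]
  simp

/-- indicator of `Y = Z` in product form -/
lemma prod_delta (Y Z : Finset ι) :
    (∏ i, (if i ∈ Y then (if i ∈ Z then (1:ℝ) else 0) else (if i ∈ Z then 0 else 1)))
      = if Y = Z then 1 else 0 := by
  split_ifs with h
  · subst h
    refine Finset.prod_eq_one fun i _ => ?_
    split_ifs <;> rfl
  · have : ∃ i, ¬ (i ∈ Y ↔ i ∈ Z) := by
      by_contra hcon
      push Not at hcon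
      exact h (Finset.ext hcon)
    obtain ⟨i, hi⟩ := this
    refine Finset.prod_eq_zero (Finset.mem_univ i) ?_
    by_cases h1 : i ∈ Y <;> by_cases h2 : i ∈ Z <;> simp_all

lemma union_prod (p s : ℝ) (a b : ι → ℝ) :
    ∑ A : Finset ι, ∑ B : Finset ι, wt p A * wt s B * (∏ i, if i ∈ A ∪ B then a i else b i)
      = ∑ Z : Finset ι, wt (p + s - p * s) Z * (∏ i, if i ∈ Z then a i else b i) := by
  have hR : ∑ Z : Finset ι, wt (p + s - p * s) Z * (∏ i, if i ∈ Z then a i else b i)
      = ∏ i, ((p + s - p * s) * a i + (1 - (p + s - p * s)) * b i) := by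
    rw [← sum_prod_ite]
    refine Finset.sum_congr rfl fun Z _ => ?_
    unfold wt
    rw [← Finset.prod_mul_distrib]
    refine Finset.prod_congr rfl fun i _ => ?_
    split_ifs <;> rfl
  have hin : ∀ A : Finset ι, ∑ B : Finset ι, wt p A * wt s B * (∏ i, if i ∈ A ∪ B then a i else b i)
      = ∏ i, (if i ∈ A then p * a i else (1 - p) * (s * a i + (1 - s) * b i)) := by
    intro A
    have : ∀ B : Finset ι, wt p A * wt s B * (∏ i, if i ∈ A ∪ B then a i else b i)
        = ∏ i, (if i ∈ B then (if i ∈ A then p else 1 - p) * (s * a i)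
            else (if i ∈ A then p else 1 - p) * ((1 - s) * (if i ∈ A then a i else b i))) := by
      intro B
      unfold wt
      rw [← Finset.prod_mul_distrib, ← Finset.prod_mul_distrib]
      refine Finset.prod_congr rfl fun i _ => ?_
      by_cases h1 : i ∈ A <;> by_cases h2 : i ∈ B <;> simp [h1, h2] <;> ring
    rw [Finset.sum_congr rfl fun B _ => this B, sum_prod_ite]
    refine Finset.prod_congr rfl fun i _ => ?_
    split_ifs <;> ring
  rw [Finset.sum_congr rfl fun A _ => hin A, sum_prod_ite, hR]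
  refine Finset.prod_congr rfl fun i _ => ?_
  ring

/-- two independent rounds of exposure -/
lemma union_lemma (p s : ℝ) (g : Finset ι → ℝ) :
    ∑ A : Finset ι, ∑ B : Finset ι, wt p A * wt s B * g (A ∪ B)
      = ∑ Z : Finset ι, wt (p + s - p * s) Z * g Z := by
  have hg : ∀ Y : Finset ι, g Y = ∑ Z : Finset ι, g Z *
      (∏ i, (if i ∈ Y then (if i ∈ Z then (1:ℝ) else 0) else (if i ∈ Z then 0 else 1))) := by
    intro Y
    simp_rw [prod_delta]
    simp
  have h1 : ∀ A B : Finset ι, wt p A * wt s B * g (A ∪ B) = ∑ Z : Finset ι, g Z *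
      (wt p A * wt s B * (∏ i, (if i ∈ A ∪ B then (if i ∈ Z then (1:ℝ) else 0)
        else (if i ∈ Z then 0 else 1)))) := by
    intro A B
    rw [hg (A ∪ B), Finset.mul_sum]
    refine Finset.sum_congr rfl fun Z _ => ?_
    ring
  have h2 : ∀ Y : Finset ι, wt (p + s - p * s) Y * g Y = ∑ Z : Finset ι, g Z *
      (wt (p + s - p * s) Y * (∏ i, (if i ∈ Y then (if i ∈ Z then (1:ℝ) else 0)
        else (if i ∈ Z then 0 else 1)))) := by
    intro Y
    rw [hg Y, Finset.mul_sum]
    refine Finset.sum_congr rfl fun Z _ => ?_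
    ring
  simp_rw [h1, h2]
  have : ∀ A : Finset ι, ∑ B : Finset ι, ∑ Z : Finset ι, g Z *
      (wt p A * wt s B * (∏ i, (if i ∈ A ∪ B then (if i ∈ Z then (1:ℝ) else 0)
        else (if i ∈ Z then 0 else 1)))) = ∑ Z : Finset ι, ∑ B : Finset ι, g Z *
      (wt p A * wt s B * (∏ i, (if i ∈ A ∪ B then (if i ∈ Z then (1:ℝ) else 0)
        else (if i ∈ Z then 0 else 1)))) := fun A => Finset.sum_comm
  simp_rw [this]
  rw [Finset.sum_comm]
  rw [Finset.sum_comm (s := (Finset.univ : Finset (Finset ι))) (t := (Finset.univ : Finset (Finset ι)))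
    (f := fun Y Z => g Z * (wt (p + s - p * s) Y * (∏ i, (if i ∈ Y then (if i ∈ Z then (1:ℝ) else 0)
        else (if i ∈ Z then 0 else 1)))))]
  refine Finset.sum_congr rfl fun Z _ => ?_
  simp_rw [← Finset.mul_sum]
  rw [union_prod]

/-- probability that the `p`-random set contains a member of `F`. -/
noncomputable def hit (p : ℝ) (F : Finset (Finset ι)) : ℝ :=
  ∑ Z : Finset ι, wt p Z * (if ∃ S ∈ F, S ⊆ Z then 1 else 0)

lemma hit_nonneg {p : ℝ} (h0 : 0 ≤ p) (h1 : p ≤ 1) (F : Finset (Finset ι)) : 0 ≤ hit p F := by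
  unfold hit
  refine Finset.sum_nonneg fun Z _ => mul_nonneg (wt_nonneg h0 h1 Z) ?_
  split_ifs <;> norm_num

/-- one round of exposure -/
lemma hit_step {p s : ℝ} (hp0 : 0 ≤ p) (hp1 : p ≤ 1) (hs0 : 0 ≤ s) (hs1 : s ≤ 1)
    (F : Finset (Finset ι)) (F' : Finset ι → Finset (Finset ι))
    (hF' : ∀ W, ∀ T ∈ F' W, ∃ S ∈ F, S ⊆ W ∪ T) :
    ∑ W : Finset ι, wt p W * hit s (F' W) ≤ hit (p + s - p * s) F := by
  unfold hit
  rw [← union_lemma]
  refine Finset.sum_le_sum fun W _ => ?_
  rw [Finset.mul_sum]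
  refine Finset.sum_le_sum fun B _ => ?_
  rw [← mul_assoc]
  refine mul_le_mul_of_nonneg_left ?_ (mul_nonneg (wt_nonneg hp0 hp1 W) (wt_nonneg hs0 hs1 B))
  by_cases h : ∃ T ∈ F' W, T ⊆ B
  · obtain ⟨T, hT, hTB⟩ := h
    obtain ⟨S, hS, hSW⟩ := hF' W T hT
    have : ∃ S ∈ F, S ⊆ W ∪ B := ⟨S, hS, hSW.trans (Finset.union_subset_union_right hTB)⟩
    rw [if_pos this]
    split_ifs <;> norm_num
  · rw [if_neg h]
    split_ifs <;> norm_num

lemma hit_mono {P P' : ℝ} (h0 : 0 ≤ P) (hPP : P ≤ P') (h1 : P' ≤ 1) (F : Finset (Finset ι)) :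
    hit P F ≤ hit P' F := by
  rcases eq_or_lt_of_le (hPP.trans h1) with hP1 | hP1
  · have : P' = P := le_antisymm (by linarith) hPP
    rw [this]
  · set s : ℝ := (P' - P) / (1 - P) with hs
    have hpos : 0 < 1 - P := by linarith
    have hs0 : 0 ≤ s := div_nonneg (by linarith) hpos.le
    have hs1 : s ≤ 1 := by
      rw [hs, div_le_one hpos]; linarith
    have hP' : s + P - s * P = P' := by
      have : s * (1 - P) = P' - P := by rw [hs]; field_simp
      nlinarith
    have := hit_step hs0 hs1 h0 (hPP.trans h1) F (fun _ => F)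
      (fun W T hT => ⟨T, hT, Finset.subset_union_right⟩)
    rw [hP', ← Finset.sum_mul, sum_wt, one_mul] at this
    exact this

lemma hit_one {F : Finset (Finset ι)} (hF : F.Nonempty) : hit 1 F = 1 := by
  obtain ⟨S, hS⟩ := hF
  unfold hit
  rw [Finset.sum_eq_single (Finset.univ : Finset ι)]
  · have : ∃ S ∈ F, S ⊆ (Finset.univ : Finset ι) := ⟨S, hS, Finset.subset_univ _⟩
    rw [if_pos this]
    simp [wt]
  · intro Z _ hZ
    have : ∃ i, i ∉ Z := by
      by_contra hcon
      push Not at hcon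
      exact hZ (Finset.eq_univ_iff_forall.2 hcon)
    obtain ⟨i, hi⟩ := this
    have : wt 1 Z = 0 := by
      unfold wt
      refine Finset.prod_eq_zero (Finset.mem_univ i) ?_
      simp [hi]
    rw [this, zero_mul]
  · intro h; exact absurd (Finset.mem_univ _) h

lemma wt_union_disj (p : ℝ) {W T : Finset ι} (h : Disjoint W T) :
    wt p W * p ^ T.card = wt p (W ∪ T) * (1 - p) ^ T.card := by
  have h1 : p ^ T.card = ∏ i, (if i ∈ T then p else 1) := by
    rw [Finset.prod_ite_mem, Finset.univ_inter, Finset.prod_const]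
  have h2 : (1 - p) ^ T.card = ∏ i, (if i ∈ T then (1 - p) else 1) := by
    rw [Finset.prod_ite_mem, Finset.univ_inter, Finset.prod_const]
  rw [h1, h2]
  unfold wt
  rw [← Finset.prod_mul_distrib, ← Finset.prod_mul_distrib]
  refine Finset.prod_congr rfl fun i _ => ?_
  by_cases hW : i ∈ W
  · have hT : i ∉ T := Finset.disjoint_left.1 h hW
    simp [hW, hT]
  · by_cases hT : i ∈ T
    · simp [hW, hT]; ring
    · simp [hW, hT]

/-- `T` is a minimum fragment of `(S, W)` with respect to `F`. -/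
def IsFrag (F : Finset (Finset ι)) (W S T : Finset ι) : Prop :=
  (∃ S' ∈ F, S' ⊆ W ∪ S ∧ T = S' \ W) ∧ ∀ S'' ∈ F, S'' ⊆ W ∪ S → T.card ≤ (S'' \ W).card

open Classical in
/-- all minimum fragments with respect to `W`. -/
noncomputable def frags (F : Finset (Finset ι)) (W : Finset ι) : Finset (Finset ι) :=
  Finset.univ.filter fun T => ∃ S ∈ F, IsFrag F W S T

lemma mem_frags {F : Finset (Finset ι)} {W T : Finset ι} :
    T ∈ frags F W ↔ ∃ S ∈ F, IsFrag F W S T := by
  classical
  simp [frags]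

lemma exists_frag (F : Finset (Finset ι)) (W : Finset ι) {S : Finset ι} (hS : S ∈ F) :
    ∃ T ∈ frags F W, T ⊆ S := by
  classical
  have hne : (F.filter fun S' => S' ⊆ W ∪ S).Nonempty :=
    ⟨S, Finset.mem_filter.2 ⟨hS, Finset.subset_union_right⟩⟩
  obtain ⟨S', hS', hmin⟩ := Finset.exists_min_image _ (fun S' => (S' \ W).card) hne
  rw [Finset.mem_filter] at hS'
  refine ⟨S' \ W, mem_frags.2 ⟨S, hS, ⟨S', hS'.1, hS'.2, rfl⟩, fun S'' h1 h2 =>
    hmin S'' (Finset.mem_filter.2 ⟨h1, h2⟩)⟩, ?_⟩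
  intro i hi
  rw [Finset.mem_sdiff] at hi
  rcases Finset.mem_union.1 (hS'.2 hi.1) with h | h
  · exact absurd h hi.2
  · exact h

lemma frag_spec {F : Finset (Finset ι)} {W T : Finset ι} (hT : T ∈ frags F W) :
    ∃ S' ∈ F, S' ⊆ W ∪ T ∧ T = S' \ W := by
  obtain ⟨S, _, ⟨S', hS', _, rfl⟩, _⟩ := mem_frags.1 hT
  refine ⟨S', hS', ?_, rfl⟩
  intro i hi
  by_cases h : i ∈ W
  · exact Finset.mem_union_left _ h
  · exact Finset.mem_union_right _ (Finset.mem_sdiff.2 ⟨hi, h⟩)

lemma frag_disj {F : Finset (Finset ι)} {W T : Finset ι} (hT : T ∈ frags F W) : Disjoint W T := by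
  obtain ⟨S', _, _, rfl⟩ := frag_spec hT
  exact Finset.disjoint_sdiff

lemma frag_min {F : Finset (Finset ι)} {W T : Finset ι} (hT : T ∈ frags F W)
    {S₀ : Finset ι} (h0 : S₀ ∈ F) (hsub : S₀ ⊆ W ∪ T) : T ⊆ S₀ := by
  obtain ⟨S, _, ⟨S', hS', hS'S, hTe⟩, hmin⟩ := mem_frags.1 hT
  have hTS : T ⊆ S := by
    intro i hi
    rw [hTe, Finset.mem_sdiff] at hi
    rcases Finset.mem_union.1 (hS'S hi.1) with h | h
    · exact absurd h hi.2
    · exact h
  have h1 : S₀ ⊆ W ∪ S := hsub.trans (Finset.union_subset_union_right hTS)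
  have h2 : T.card ≤ (S₀ \ W).card := hmin S₀ h0 h1
  have h3 : S₀ \ W ⊆ T := by
    intro i hi
    rw [Finset.mem_sdiff] at hi
    rcases Finset.mem_union.1 (hsub hi.1) with h | h
    · exact absurd h hi.2
    · exact h
  have h4 : S₀ \ W = T := Finset.eq_of_subset_of_card_le h3 h2
  rw [← h4]
  exact Finset.sdiff_subset

open Classical in
/-- a canonical member of `F` inside `Z` (if there is one). -/
noncomputable def chi (F : Finset (Finset ι)) (Z : Finset ι) : Finset ι :=
  if h : ∃ S ∈ F, S ⊆ Z then h.choose else ∅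

lemma chi_spec {F : Finset (Finset ι)} {Z : Finset ι} (h : ∃ S ∈ F, S ⊆ Z) :
    chi F Z ∈ F ∧ chi F Z ⊆ Z := by
  unfold chi
  rw [dif_pos h]
  exact h.choose_spec

lemma chi_card {F : Finset (Finset ι)} {ℓ : ℕ} (hF : ∀ S ∈ F, S.card ≤ ℓ) (Z : Finset ι) :
    (chi F Z).card ≤ ℓ := by
  by_cases h : ∃ S ∈ F, S ⊆ Z
  · exact hF _ (chi_spec h).1
  · unfold chi
    rw [dif_neg h]
    simp

lemma term_le {q L : ℝ} (hq : 0 ≤ q) (hL : 1 ≤ L) (hp1 : L * q ≤ 1) {W T : Finset ι}
    (hd : Disjoint W T) {M : ℕ} (hM : M ≤ T.card) :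
    wt (L * q) W * q ^ T.card ≤ wt (L * q) (W ∪ T) * (1 / L) ^ M := by
  have hLpos : 0 < L := by linarith
  have hp0 : 0 ≤ L * q := mul_nonneg hLpos.le hq
  have h1 := wt_union_disj (L * q) hd
  have h2 : wt (L * q) W * q ^ T.card
      = wt (L * q) (W ∪ T) * ((1 - L * q) ^ T.card * (1 / L) ^ T.card) := by
    have : q ^ T.card = (L * q) ^ T.card * (1 / L) ^ T.card := by
      rw [← mul_pow]
      congr 1
      field_simp
    rw [this, ← mul_assoc, h1]
    ring
  rw [h2]
  refine mul_le_mul_of_nonneg_left ?_ (wt_nonneg hp0 hp1 _)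
  have h3 : (1 - L * q) ^ T.card ≤ 1 := pow_le_one₀ (by linarith) (by linarith)
  have h4 : (1 / L) ^ T.card ≤ (1 / L) ^ M :=
    pow_le_pow_of_le_one (by positivity) (by rw [div_le_one hLpos]; exact hL) hM
  have h5 : 0 ≤ (1 / L) ^ T.card := by positivity
  calc (1 - L * q) ^ T.card * (1 / L) ^ T.card ≤ 1 * (1 / L) ^ T.card :=
        mul_le_mul_of_nonneg_right h3 h5
    _ ≤ (1 / L) ^ M := by rw [one_mul]; exact h4

/-- the key counting lemma of Park and Pham. -/
lemma key (F : Finset (Finset ι)) (ℓ M : ℕ) (hF : ∀ S ∈ F, S.card ≤ ℓ) {q L : ℝ} (hq : 0 ≤ q)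
    (hL : 1 ≤ L) (hp1 : L * q ≤ 1) :
    ∑ W : Finset ι, wt (L * q) W * ∑ T ∈ (frags F W).filter (fun T => M ≤ T.card), q ^ T.card
      ≤ 2 ^ ℓ * (1 / L) ^ M := by
  classical
  have hLpos : 0 < L := by linarith
  have hp0 : 0 ≤ L * q := mul_nonneg hLpos.le hq
  have hc0 : 0 ≤ (1 / L) ^ M := by positivity
  -- step 1 : rewrite as a double sum with indicator
  have e1 : ∀ W : Finset ι,
      wt (L * q) W * ∑ T ∈ (frags F W).filter (fun T => M ≤ T.card), q ^ T.card
      = ∑ T : Finset ι, (if T ∈ frags F W ∧ M ≤ T.card then wt (L * q) W * q ^ T.card else 0) := by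
    intro W
    rw [Finset.mul_sum, ← Finset.sum_filter]
    refine Finset.sum_congr ?_ fun _ _ => rfl
    ext T
    simp [Finset.mem_filter]
  rw [Finset.sum_congr rfl fun W _ => e1 W, Finset.sum_comm]
  -- step 3 : for fixed T
  have e3 : ∀ T : Finset ι,
      ∑ W : Finset ι, (if T ∈ frags F W ∧ M ≤ T.card then wt (L * q) W * q ^ T.card else 0)
      ≤ ∑ Z : Finset ι, (if T ⊆ chi F Z then wt (L * q) Z * (1 / L) ^ M else 0) := by
    intro T
    rw [← Finset.sum_filter, ← Finset.sum_filter]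
    set A := Finset.univ.filter (fun W : Finset ι => T ∈ frags F W ∧ M ≤ T.card) with hA
    set B := Finset.univ.filter (fun Z : Finset ι => T ⊆ chi F Z) with hB
    have hinj : Set.InjOn (fun W : Finset ι => W ∪ T) (A : Set (Finset ι)) := by
      intro W hW W' hW' hEq
      simp only [hA, Finset.coe_filter, Finset.mem_univ, true_and, Set.mem_ofPred_eq] at hW hW'
      have d1 := frag_disj hW.1
      have d2 := frag_disj hW'.1
      have hEq' : W ∪ T = W' ∪ T := hEq
      calc W = (W ∪ T) \ T := (Finset.union_sdiff_cancel_right d1).symm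
        _ = (W' ∪ T) \ T := by rw [hEq']
        _ = W' := Finset.union_sdiff_cancel_right d2
    calc ∑ W ∈ A, wt (L * q) W * q ^ T.card
        ≤ ∑ W ∈ A, wt (L * q) (W ∪ T) * (1 / L) ^ M := by
          refine Finset.sum_le_sum fun W hW => ?_
          simp only [hA, Finset.mem_filter, Finset.mem_univ, true_and] at hW
          exact term_le hq hL hp1 (frag_disj hW.1) hW.2
      _ = ∑ Z ∈ A.image (fun W => W ∪ T), wt (L * q) Z * (1 / L) ^ M := by
          rw [Finset.sum_image hinj]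
      _ ≤ ∑ Z ∈ B, wt (L * q) Z * (1 / L) ^ M := by
          refine Finset.sum_le_sum_of_subset_of_nonneg ?_
            (fun Z _ _ => mul_nonneg (wt_nonneg hp0 hp1 Z) hc0)
          intro Z hZ
          rw [Finset.mem_image] at hZ
          obtain ⟨W, hW, rfl⟩ := hZ
          simp only [hA, Finset.mem_filter, Finset.mem_univ, true_and] at hW
          simp only [hB, Finset.mem_filter, Finset.mem_univ, true_and]
          obtain ⟨S', hS', hsub, _⟩ := frag_spec hW.1
          have hc := chi_spec (F := F) (Z := W ∪ T) ⟨S', hS', hsub⟩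
          exact frag_min hW.1 hc.1 hc.2
  refine (Finset.sum_le_sum fun T _ => e3 T).trans ?_
  rw [Finset.sum_comm]
  have e4 : ∀ Z : Finset ι,
      ∑ T : Finset ι, (if T ⊆ chi F Z then wt (L * q) Z * (1 / L) ^ M else 0)
      ≤ wt (L * q) Z * (2 ^ ℓ * (1 / L) ^ M) := by
    intro Z
    rw [← Finset.sum_filter, Finset.sum_const, nsmul_eq_mul]
    have hcard : (Finset.univ.filter fun T : Finset ι => T ⊆ chi F Z).card = 2 ^ (chi F Z).card := by
      rw [← Finset.card_powerset]
      congr 1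
      ext T
      simp
    rw [hcard]
    have h2 : ((2 ^ (chi F Z).card : ℕ) : ℝ) ≤ 2 ^ ℓ := by
      push_cast
      exact pow_le_pow_right₀ (by norm_num) (chi_card hF Z)
    have hw := wt_nonneg hp0 hp1 Z
    calc ((2 ^ (chi F Z).card : ℕ) : ℝ) * (wt (L * q) Z * (1 / L) ^ M)
        ≤ 2 ^ ℓ * (wt (L * q) Z * (1 / L) ^ M) :=
          mul_le_mul_of_nonneg_right h2 (mul_nonneg hw hc0)
      _ = wt (L * q) Z * (2 ^ ℓ * (1 / L) ^ M) := by ring
  refine (Finset.sum_le_sum fun Z _ => e4 Z).trans ?_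
  rw [← Finset.sum_mul, sum_wt, one_mul]

/-- cost of a set in a cover; the density depends on the dyadic scale of the size. -/
noncomputable def cw (q : ℕ → ℝ) (T : Finset ι) : ℝ := (q (Nat.log 2 T.card)) ^ T.card

omit [Fintype ι] [DecidableEq ι] in
lemma cw_nonneg {q : ℕ → ℝ} (hq0 : ∀ j, 0 ≤ q j) (T : Finset ι) : 0 ≤ cw q T :=
  pow_nonneg (hq0 _) _

/-- accumulated density after `r` rounds. -/
noncomputable def dens (L : ℝ) (q : ℕ → ℝ) : ℕ → ℝ
  | 0 => 0
  | r + 1 => L * q r + dens L q r - L * q r * dens L q r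

lemma dens_mem {L : ℝ} {q : ℕ → ℝ} (h0 : ∀ j, 0 ≤ L * q j) (h1 : ∀ j, L * q j ≤ 1) (r : ℕ) :
    0 ≤ dens L q r ∧ dens L q r ≤ 1 := by
  induction r with
  | zero => simp [dens]
  | succ r ih =>
    have a0 := h0 r
    have a1 := h1 r
    simp only [dens]
    constructor <;> nlinarith [ih.1, ih.2]

lemma dens_le_sum {L : ℝ} {q : ℕ → ℝ} (h0 : ∀ j, 0 ≤ L * q j) (h1 : ∀ j, L * q j ≤ 1) (r : ℕ) :
    dens L q r ≤ ∑ j ∈ Finset.range r, L * q j := by
  induction r with
  | zero => simp [dens]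
  | succ r ih =>
    rw [Finset.sum_range_succ]
    simp only [dens]
    nlinarith [h0 r, (dens_mem h0 h1 r).1]

theorem pp_induction (q : ℕ → ℝ) (L : ℝ) (hL : 1 ≤ L) (hq0 : ∀ j, 0 ≤ q j)
    (hq1 : ∀ j, L * q j ≤ 1) :
    ∀ r : ℕ, ∀ F : Finset (Finset ι), (∀ S ∈ F, S.card < 2 ^ r) → ∀ c : ℝ, c ≤ 1 →
      (∀ G : Finset (Finset ι), (∀ S ∈ F, ∃ T ∈ G, T ⊆ S) → c ≤ ∑ T ∈ G, cw q T) →
      c - ∑ j ∈ Finset.range r, (4 / L) ^ (2 ^ j) ≤ hit (dens L q r) F := by
  classical
  have hLpos : 0 < L := by linarith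
  have h0 : ∀ j, 0 ≤ L * q j := fun j => mul_nonneg hLpos.le (hq0 j)
  intro r
  induction r with
  | zero =>
    intro F hF c hc hcov
    simp only [Finset.range_zero, Finset.sum_empty, sub_zero, dens]
    by_cases hne : F.Nonempty
    · obtain ⟨S, hS⟩ := hne
      have hS0 : S = ∅ := by
        have := hF S hS
        simp at this
        exact this
      have : hit (0 : ℝ) F = 1 := by
        unfold hit
        have hall : ∀ Z : Finset ι, (∃ S ∈ F, S ⊆ Z) := fun Z => ⟨S, hS, by rw [hS0]; simp⟩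
        simp only [hall, if_true, mul_one]
        exact sum_wt 0
      rw [this]; exact hc
    · rw [Finset.not_nonempty_iff_eq_empty] at hne
      have h1 := hcov ∅ (by intro S hS; rw [hne] at hS; simp at hS)
      simp only [Finset.sum_empty] at h1
      exact h1.trans (hit_nonneg le_rfl zero_le_one F)
  | succ r ih =>
    intro F hF c hc hcov
    set p := L * q r with hp
    have hp0 : 0 ≤ p := h0 r
    have hp1 : p ≤ 1 := hq1 r
    have hd := dens_mem h0 hq1 r
    -- small and large fragments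
    let F' : Finset ι → Finset (Finset ι) := fun W => (frags F W).filter (fun T => T.card < 2 ^ r)
    let Gl : Finset ι → Finset (Finset ι) := fun W => (frags F W).filter (fun T => 2 ^ r ≤ T.card)
    have hstep := hit_step hp0 hp1 hd.1 hd.2 F F' (by
      intro W T hT
      obtain ⟨S', hS', hsub, _⟩ := frag_spec (Finset.mem_filter.1 hT).1
      exact ⟨S', hS', hsub⟩)
    have hdens : dens L q (r + 1) = p + dens L q r - p * dens L q r := by
      simp only [dens, hp]
    rw [hdens]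
    refine le_trans ?_ hstep
    -- lower bound for each W
    have hW : ∀ W : Finset ι,
        c - ∑ T ∈ Gl W, cw q T - ∑ j ∈ Finset.range r, (4 / L) ^ (2 ^ j)
          ≤ hit (dens L q r) (F' W) := by
      intro W
      refine ih (F' W) (fun T hT => (Finset.mem_filter.1 hT).2) _ ?_ ?_
      · have : 0 ≤ ∑ T ∈ Gl W, cw q T := Finset.sum_nonneg fun T _ => cw_nonneg hq0 T
        linarith
      · intro G' hG'
        have hcover : ∀ S ∈ F, ∃ T ∈ Gl W ∪ G', T ⊆ S := by
          intro S hS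
          obtain ⟨T, hT, hTS⟩ := exists_frag F W hS
          by_cases hlarge : 2 ^ r ≤ T.card
          · exact ⟨T, Finset.mem_union_left _ (Finset.mem_filter.2 ⟨hT, hlarge⟩), hTS⟩
          · obtain ⟨T', hT', hsub⟩ := hG' T (Finset.mem_filter.2 ⟨hT, not_le.1 hlarge⟩)
            exact ⟨T', Finset.mem_union_right _ hT', hsub.trans hTS⟩
        have h1 := hcov _ hcover
        have h2 : ∑ T ∈ Gl W ∪ G', cw q T ≤ ∑ T ∈ Gl W, cw q T + ∑ T ∈ G', cw q T := by
          rw [← Finset.sum_union_inter]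
          have : 0 ≤ ∑ T ∈ Gl W ∩ G', cw q T := Finset.sum_nonneg fun T _ => cw_nonneg hq0 T
          linarith
        linarith
    -- the cost of the large fragments
    have hcost : ∑ W : Finset ι, wt p W * ∑ T ∈ Gl W, cw q T ≤ (4 / L) ^ (2 ^ r) := by
      have hk := key F (2 ^ (r + 1)) (2 ^ r) (fun S hS => (hF S hS).le) (hq0 r) hL (hq1 r)
      have hEq : ∀ W : Finset ι, ∑ T ∈ Gl W, cw q T = ∑ T ∈ Gl W, (q r) ^ T.card := by
        intro W
        refine Finset.sum_congr rfl fun T hT => ?_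
        have hT' := Finset.mem_filter.1 hT
        obtain ⟨S', hS', _, hTe⟩ := frag_spec hT'.1
        have hlt : T.card < 2 ^ (r + 1) := by
          have : T.card ≤ S'.card := by
            rw [hTe]; exact Finset.card_le_card Finset.sdiff_subset
          exact lt_of_le_of_lt this (hF S' hS')
        have hlog : Nat.log 2 T.card = r := by
          rw [Nat.log_eq_iff]
          · exact ⟨hT'.2, hlt⟩
          · right
            refine ⟨by norm_num, ?_⟩
            have : 0 < 2 ^ r := by positivity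
            omega
        unfold cw
        rw [hlog]
      simp_rw [hEq]
      refine hk.trans (le_of_eq ?_)
      have h4 : (4 : ℝ) / L = 2 ^ 2 * (1 / L) := by ring
      rw [h4, mul_pow, ← pow_mul, pow_succ, mul_comm (2 ^ r) 2]
    calc c - ∑ j ∈ Finset.range (r + 1), (4 / L) ^ (2 ^ j)
        = (c - ∑ j ∈ Finset.range r, (4 / L) ^ (2 ^ j)) - (4 / L) ^ (2 ^ r) := by
          rw [Finset.sum_range_succ]; ring
      _ ≤ (c - ∑ j ∈ Finset.range r, (4 / L) ^ (2 ^ j))
            - ∑ W : Finset ι, wt p W * ∑ T ∈ Gl W, cw q T := by linarith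
      _ = ∑ W : Finset ι, wt p W *
            (c - ∑ T ∈ Gl W, cw q T - ∑ j ∈ Finset.range r, (4 / L) ^ (2 ^ j)) := by
          have : ∀ W : Finset ι, wt p W *
              (c - ∑ T ∈ Gl W, cw q T - ∑ j ∈ Finset.range r, (4 / L) ^ (2 ^ j))
              = wt p W * (c - ∑ j ∈ Finset.range r, (4 / L) ^ (2 ^ j))
                - wt p W * ∑ T ∈ Gl W, cw q T := fun W => by ring
          rw [Finset.sum_congr rfl fun W _ => this W, Finset.sum_sub_distrib, ← Finset.sum_mul,
            sum_wt, one_mul]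
      _ ≤ ∑ W : Finset ι, wt p W * hit (dens L q r) (F' W) :=
          Finset.sum_le_sum fun W _ => mul_le_mul_of_nonneg_left (hW W) (wt_nonneg hp0 hp1 W)

lemma err_sum_le {x : ℝ} (hx0 : 0 ≤ x) (hx1 : x ≤ 1 / 2) (r : ℕ) :
    ∑ j ∈ Finset.range r, x ^ (2 ^ j) ≤ 2 * x - 2 * x * (1 / 2) ^ r := by
  induction r with
  | zero => simp
  | succ r ih =>
    rw [Finset.sum_range_succ]
    have h1 : x ^ (2 ^ r) ≤ x ^ (r + 1) :=
      pow_le_pow_of_le_one hx0 (by linarith) (Nat.lt_two_pow_self)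
    have h2 : x ^ r ≤ (1 / 2) ^ r := pow_le_pow_left₀ hx0 hx1 r
    have h3 : x ^ (r + 1) ≤ (1 / 2) ^ r * x := by
      rw [pow_succ]
      exact mul_le_mul_of_nonneg_right h2 hx0
    have h4 : (1 / 2 : ℝ) ^ (r + 1) = (1 / 2) ^ r * (1 / 2) := pow_succ _ _
    rw [h4]
    nlinarith

/-- **Park–Pham, binomial model, scale dependent densities.**  If every cover of `F` costs at
least `c`, then the `P`-random set contains a member of `F` with probability `≥ c - 8 / L`, as soon
as `P ≥ ∑_{j<R} L q_j`. -/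
theorem park_pham (q : ℕ → ℝ) (L : ℝ) (hL : 8 ≤ L) (hq0 : ∀ j, 0 ≤ q j)
    (hq1 : ∀ j, L * q j ≤ 1) (R : ℕ) (F : Finset (Finset ι)) (hF : ∀ S ∈ F, S.card < 2 ^ R)
    (c : ℝ) (hc : c ≤ 1)
    (hcov : ∀ G : Finset (Finset ι), (∀ S ∈ F, ∃ T ∈ G, T ⊆ S) → c ≤ ∑ T ∈ G, cw q T)
    (P : ℝ) (hP : ∑ j ∈ Finset.range R, L * q j ≤ P) (hP1 : P ≤ 1) :
    c - 8 / L ≤ hit P F := by
  have hLpos : 0 < L := by linarith
  have h0 : ∀ j, 0 ≤ L * q j := fun j => mul_nonneg hLpos.le (hq0 j)
  have h1 := pp_induction q L (by linarith) hq0 hq1 R F hF c hc hcov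
  have h2 := hit_mono (dens_mem h0 hq1 R).1 ((dens_le_sum h0 hq1 R).trans hP) hP1 F
  have hx0 : 0 ≤ 4 / L := by positivity
  have hx1 : 4 / L ≤ 1 / 2 := by
    rw [div_le_div_iff₀ hLpos (by norm_num)]; linarith
  have h3 := err_sum_le hx0 hx1 R
  have h4 : 0 ≤ 2 * (4 / L) * (1 / 2) ^ R := by positivity
  have h5 : 2 * (4 / L) = 8 / L := by ring
  linarith

/-- the set of heads of an outcome. -/
def supp (ω : ι → Bool) : Finset ι := Finset.univ.filter fun i => ω i = true

/-- outcomes versus subsets. -/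
def outcomeEquiv : (ι → Bool) ≃ Finset ι where
  toFun := supp
  invFun A := fun i => decide (i ∈ A)
  left_inv ω := by
    funext i
    simp [supp]
  right_inv A := by
    ext i
    simp [supp]

lemma bernoulliWeight_eq_wt (P : ℝ) (ω : ι → Bool) :
    Crest.FinProb.bernoulliWeight P ω = wt P (supp ω) := by
  unfold Crest.FinProb.bernoulliWeight wt
  refine Finset.prod_congr rfl fun i _ => ?_
  simp [supp]

lemma bernoulliProb_eq_hit (P : ℝ) (F : Finset (Finset ι)) :
    Crest.FinProb.bernoulliProb P {ω : ι → Bool | ∃ S ∈ F, S ⊆ supp ω} = hit P F := by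
  classical
  unfold Crest.FinProb.bernoulliProb hit
  rw [Finset.sum_filter]
  refine Fintype.sum_equiv outcomeEquiv _ _ fun ω => ?_
  have : outcomeEquiv ω = supp ω := rfl
  rw [this, bernoulliWeight_eq_wt]
  by_cases h : ∃ S ∈ F, S ⊆ supp ω
  · rw [if_pos h, if_pos (by exact h), mul_one]
  · rw [if_neg h, if_neg (by exact h), mul_zero]

lemma bernoulliProb_mono {P : ℝ} (h0 : 0 ≤ P) (h1 : P ≤ 1) {E E' : Set (ι → Bool)} (h : E ⊆ E') :
    Crest.FinProb.bernoulliProb P E ≤ Crest.FinProb.bernoulliProb P E' := by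
  classical
  unfold Crest.FinProb.bernoulliProb
  refine Finset.sum_le_sum_of_subset_of_nonneg ?_ ?_
  · intro ω hω
    rw [Finset.mem_filter] at hω ⊢
    exact ⟨hω.1, h hω.2⟩
  · intro ω _ _
    rw [bernoulliWeight_eq_wt]
    exact wt_nonneg h0 h1 _

end Crest.Agent.S0076Aux.PP56
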