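import Mathlib
import Crest.Prelude.Def_FinProb
import Crest.Prelude.Def_RandomGraph
import Crest.Agent.S0076Aux.PP56

/-!
# Park–Pham for copies of a graph in the binomial random graph (helper56)

`main_uniform` : if the uniform measure on the labelled copies of `H` in `K_n` is `q`-spread then
`G(n, min 1 (2048 q (1 + log₂ h)))` contains `H` with probability at least `1/2`.
`main_scale` : the same with a spread constant depending on the dyadic scale and a prefactor.
-/

set_option autoImplicit false

namespace Crest.Agent.S0076Aux.Graph56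

open Finset Crest.CombinatoricsR.RandomGraph Crest.Agent.S0076Aux.PP56

variable {n : ℕ} {W : Type} [Fintype W] [DecidableEq W]

open Classical in
/-- the coin positions used by the copy `H.map f` of `H`. -/
noncomputable def slots (H : SimpleGraph W) (f : W ↪ Fin n) : Finset (EdgeSlot n) :=
  Finset.univ.filter fun e => e.1 ∈ (H.map f).edgeSet

lemma mem_slots {H : SimpleGraph W} {f : W ↪ Fin n} {e : EdgeSlot n} :
    e ∈ slots H f ↔ e.1 ∈ (H.map f).edgeSet := by
  classical
  simp [slots]

lemma card_slots_le (H : SimpleGraph W) [DecidableRel H.Adj] (f : W ↪ Fin n) :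
    (slots H f).card ≤ H.edgeFinset.card := by
  classical
  rw [← SimpleGraph.card_edgeFinset_map f H]
  refine Finset.card_le_card_of_injOn (fun e => e.1) ?_ ?_
  · intro e he
    have := mem_slots.1 (Finset.mem_coe.1 he)
    exact Finset.mem_coe.2 (SimpleGraph.mem_edgeFinset.2 this)
  · intro a _ b _ hab
    exact Subtype.ext hab

lemma isContained_of_slots_subset {H : SimpleGraph W} {f : W ↪ Fin n} {ω : EdgeSlot n → Bool}
    (h : slots H f ⊆ supp ω) : H.IsContained (graphOf ω) := by
  refine ⟨⟨⟨f, ?_⟩, f.injective⟩⟩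
  intro u v huv
  have hne : f u ≠ f v := f.injective.ne huv.ne
  have hnd : ¬ (s(f u, f v) : Sym2 (Fin n)).IsDiag := by
    simpa using hne
  have hmem : (⟨s(f u, f v), hnd⟩ : EdgeSlot n) ∈ slots H f := by
    rw [mem_slots, SimpleGraph.mem_edgeSet, SimpleGraph.map_adj]
    exact ⟨u, v, huv, rfl, rfl⟩
  have hω := h hmem
  simp only [supp, Finset.mem_filter, Finset.mem_univ, true_and] at hω
  unfold graphOf
  rw [SimpleGraph.fromEdgeSet_adj]
  exact ⟨⟨hnd, hω⟩, hne⟩

/-- the family of all labelled copies of `H`. -/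
noncomputable def copies (n : ℕ) (H : SimpleGraph W) : Finset (Finset (EdgeSlot n)) :=
  Finset.univ.image fun f : W ↪ Fin n => slots H f

lemma gnpProb_ge_hit (H : SimpleGraph W) {P : ℝ} (h0 : 0 ≤ P) (h1 : P ≤ 1) :
    hit P (copies n H) ≤ gnpProb n P {G | H.IsContained G} := by
  rw [← bernoulliProb_eq_hit]
  unfold gnpProb
  refine bernoulliProb_mono h0 h1 ?_
  intro ω hω
  obtain ⟨S, hS, hsub⟩ := hω
  obtain ⟨f, _, rfl⟩ := Finset.mem_image.1 hS
  exact isContained_of_slots_subset hsub

open Classical in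
/-- number of embeddings whose copy contains `T`. -/
noncomputable def cnt (H : SimpleGraph W) (T : Finset (EdgeSlot n)) : ℕ :=
  (Finset.univ.filter fun f : W ↪ Fin n => T ⊆ slots H f).card

/-- a spread measure forbids cheap covers. -/
lemma cover_cost (H : SimpleGraph W) (hW : Fintype.card W ≤ n) (w : Finset (EdgeSlot n) → ℝ) (c : ℝ)
    (hspread : ∀ T : Finset (EdgeSlot n),
      c * (cnt H T : ℝ) ≤ w T * (Fintype.card (W ↪ Fin n) : ℝ))
    (hc : 0 ≤ c)
    (G : Finset (Finset (EdgeSlot n))) (hG : ∀ S ∈ copies n H, ∃ T ∈ G, T ⊆ S) :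
    c ≤ ∑ T ∈ G, w T := by
  classical
  have hne : Nonempty (W ↪ Fin n) :=
    Function.Embedding.nonempty_of_card_le (by simpa using hW)
  have hpos : (0 : ℝ) < (Fintype.card (W ↪ Fin n) : ℝ) := by
    exact_mod_cast Fintype.card_pos
  have h1 : (Fintype.card (W ↪ Fin n) : ℝ) ≤ ∑ T ∈ G, (cnt H T : ℝ) := by
    have : Fintype.card (W ↪ Fin n) ≤ ∑ T ∈ G, cnt H T := by
      unfold cnt
      have hcov : (Finset.univ : Finset (W ↪ Fin n)) ⊆
          G.biUnion fun T => Finset.univ.filter fun f : W ↪ Fin n => T ⊆ slots H f := by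
        intro f _
        obtain ⟨T, hT, hsub⟩ := hG (slots H f) (Finset.mem_image.2 ⟨f, Finset.mem_univ _, rfl⟩)
        exact Finset.mem_biUnion.2 ⟨T, hT, Finset.mem_filter.2 ⟨Finset.mem_univ _, hsub⟩⟩
      calc Fintype.card (W ↪ Fin n) = (Finset.univ : Finset (W ↪ Fin n)).card := rfl
        _ ≤ _ := Finset.card_le_card hcov
        _ ≤ _ := Finset.card_biUnion_le
    exact_mod_cast this
  have h2 : c * (Fintype.card (W ↪ Fin n) : ℝ)
      ≤ (∑ T ∈ G, w T) * (Fintype.card (W ↪ Fin n) : ℝ) := by
    calc c * (Fintype.card (W ↪ Fin n) : ℝ) ≤ c * ∑ T ∈ G, (cnt H T : ℝ) :=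
          mul_le_mul_of_nonneg_left h1 hc
      _ = ∑ T ∈ G, c * (cnt H T : ℝ) := Finset.mul_sum _ _ _
      _ ≤ ∑ T ∈ G, w T * (Fintype.card (W ↪ Fin n) : ℝ) :=
          Finset.sum_le_sum fun T _ => hspread T
      _ = _ := (Finset.sum_mul _ _ _).symm
  exact le_of_mul_le_mul_right h2 hpos

lemma cnt_eq_zero (H : SimpleGraph W) [DecidableRel H.Adj] {T : Finset (EdgeSlot n)}
    (hT : H.edgeFinset.card < T.card) : cnt H T = 0 := by
  classical
  unfold cnt
  rw [Finset.card_eq_zero, Finset.filter_eq_empty_iff]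
  intro f _ hsub
  have := (Finset.card_le_card hsub).trans (card_slots_le H f)
  omega

/-- **Scale dependent version with prefactor.** -/
theorem main_scale (n : ℕ) (H : SimpleGraph W) [DecidableRel H.Adj]
    (hW : Fintype.card W ≤ n) (q : ℕ → ℝ) (hq0 : ∀ j, 0 ≤ q j)
    (c : ℝ) (hc : 1 / 2 + 1 / 256 ≤ c) (hc1 : c ≤ 1)
    (hspread : ∀ T : Finset (EdgeSlot n), 1 ≤ T.card → T.card ≤ H.edgeFinset.card →
      c * (cnt H T : ℝ) ≤ (q (Nat.log 2 T.card)) ^ T.card * (Fintype.card (W ↪ Fin n) : ℝ))
    (P : ℝ) (hP : ∑ j ∈ Finset.range (Nat.log 2 H.edgeFinset.card + 1), 2048 * q j ≤ P) :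
    (1 : ℝ) / 2 ≤ gnpProb n (min 1 P) {G | H.IsContained G} := by
  classical
  have hne : Nonempty (W ↪ Fin n) :=
    Function.Embedding.nonempty_of_card_le (by simpa using hW)
  have hcop : (copies n H).Nonempty := by
    obtain ⟨f⟩ := hne
    exact ⟨slots H f, Finset.mem_image.2 ⟨f, Finset.mem_univ _, rfl⟩⟩
  set h := H.edgeFinset.card with hh
  set R := Nat.log 2 h + 1 with hR
  by_cases hP1 : 1 ≤ P
  · rw [min_eq_left hP1]
    have := gnpProb_ge_hit (n := n) H (P := 1) zero_le_one le_rfl
    rw [hit_one hcop] at this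
    linarith
  · push Not at hP1
    rw [min_eq_right hP1.le]
    have hP0 : 0 ≤ P := le_trans (Finset.sum_nonneg fun j _ => by have := hq0 j; positivity) hP
    refine le_trans ?_ (gnpProb_ge_hit (n := n) H hP0 hP1.le)
    -- truncated densities
    let q' : ℕ → ℝ := fun j => if j < R then q j else 0
    have hq'0 : ∀ j, 0 ≤ q' j := by
      intro j
      simp only [q']
      split_ifs
      · exact hq0 j
      · exact le_rfl
    have hq'1 : ∀ j, 2048 * q' j ≤ 1 := by
      intro j
      simp only [q']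
      split_ifs with hj
      · have : 2048 * q j ≤ ∑ j ∈ Finset.range R, 2048 * q j :=
          Finset.single_le_sum (f := fun j => 2048 * q j)
            (fun i _ => by have := hq0 i; positivity) (Finset.mem_range.2 hj)
        linarith
      · norm_num
    have hsum : ∑ j ∈ Finset.range R, 2048 * q' j ≤ P := by
      refine le_trans (le_of_eq ?_) hP
      refine Finset.sum_congr rfl fun j hj => ?_
      simp only [q', if_pos (Finset.mem_range.1 hj)]
    have hsize : ∀ S ∈ copies n H, S.card < 2 ^ R := by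
      intro S hS
      obtain ⟨f, _, rfl⟩ := Finset.mem_image.1 hS
      exact lt_of_le_of_lt (card_slots_le H f) (Nat.lt_pow_succ_log_self (by norm_num) h)
    have hsp : ∀ T : Finset (EdgeSlot n),
        c * (cnt H T : ℝ) ≤ cw q' T * (Fintype.card (W ↪ Fin n) : ℝ) := by
      intro T
      have hcard0 : (0 : ℝ) ≤ (Fintype.card (W ↪ Fin n) : ℝ) := by positivity
      rcases Nat.eq_zero_or_pos T.card with h0 | h0
      · have hcnt : (cnt H T : ℝ) ≤ (Fintype.card (W ↪ Fin n) : ℝ) := by
          unfold cnt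
          exact_mod_cast Finset.card_le_univ _
        unfold cw
        rw [h0, pow_zero, one_mul]
        nlinarith
      · by_cases hle : T.card ≤ h
        · have hlog : Nat.log 2 T.card < R := by
            rw [hR]
            exact Nat.lt_succ_of_le (Nat.log_mono_right hle)
          unfold cw
          simp only [q', if_pos hlog]
          exact hspread T h0 hle
        · rw [cnt_eq_zero H (not_le.1 hle)]
          simp only [Nat.cast_zero, mul_zero]
          exact mul_nonneg (cw_nonneg hq'0 T) hcard0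
    have hpp := park_pham q' 2048 (by norm_num) hq'0 hq'1 R (copies n H) hsize c hc1
      (fun G hG => cover_cost H hW (cw q') c hsp (by linarith) G hG) P hsum hP1.le
    norm_num at hpp ⊢
    linarith

/-- **Uniform version.**  If the uniform measure on labelled copies of `H` is `q`-spread, then
`G(n, min 1 (2048 q (1 + log₂ h)))` contains `H` with probability at least `1/2`. -/
theorem main_uniform (n : ℕ) (H : SimpleGraph W) [DecidableRel H.Adj]
    (hW : Fintype.card W ≤ n) (q : ℝ) (hq0 : 0 ≤ q)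
    (hspread : ∀ T : Finset (EdgeSlot n), 1 ≤ T.card → T.card ≤ H.edgeFinset.card →
      (cnt H T : ℝ) ≤ q ^ T.card * (Fintype.card (W ↪ Fin n) : ℝ)) :
    (1 : ℝ) / 2 ≤ gnpProb n (min 1 (2048 * q * (1 + Real.logb 2 (H.edgeFinset.card : ℝ))))
      {G | H.IsContained G} := by
  refine main_scale n H hW (fun _ => q) (fun _ => hq0) 1 (by norm_num) le_rfl
    (fun T h1 h2 => by rw [one_mul]; exact hspread T h1 h2) _ ?_
  rw [Finset.sum_const, Finset.card_range, nsmul_eq_mul]
  have hlog : ((Nat.log 2 H.edgeFinset.card : ℕ) : ℝ) ≤ Real.logb 2 (H.edgeFinset.card : ℝ) := by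
    exact_mod_cast Real.natLog_le_logb H.edgeFinset.card 2
  push_cast
  nlinarith

end Crest.Agent.S0076Aux.Graph56
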