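import Mathlib
import Crest.Prelude.Def_FinProb
import Crest.Prelude.Def_RandomGraph
import Crest.Agent.S0076Aux.Graph56

/-!
# Glue (helper56): `cnt H T` in terms of injective homomorphisms from the graph spanned by `T`

`cnt_mul : cnt H T * (n)_{v(T)} = injCount H T * #(W ↪ Fin n)`.
-/

set_option autoImplicit false

namespace Crest.Agent.S0076Aux.Glue56

open Finset Crest.CombinatoricsR.RandomGraph Crest.Agent.S0076Aux.Graph56

variable {n : ℕ} {W : Type} [Fintype W] [DecidableEq W]

/-- extensions of the partial inverse `g` -/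
noncomputable def extEquiv (S : Finset (Fin n)) (g : ↥S ↪ W) :
    {f : W ↪ Fin n // ∀ x : ↥S, f (g x) = x.1} ≃
      ({w : W // w ∉ Set.range g} ↪ {y : Fin n // y ∉ S}) where
  toFun f := ⟨fun c => ⟨f.1 c.1, by
      intro hS
      have := f.2 ⟨f.1 c.1, hS⟩
      exact c.2 ⟨_, f.1.injective this⟩⟩, by
      intro a b hab
      have : f.1 a.1 = f.1 b.1 := congrArg Subtype.val hab
      exact Subtype.ext (f.1.injective this)⟩
  invFun h := by
    classical
    refine ⟨⟨fun w => if hw : w ∈ Set.range g then (hw.choose).1 else (h ⟨w, hw⟩).1, ?_⟩, ?_⟩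
    · intro a b hab
      by_cases ha : a ∈ Set.range g <;> by_cases hb : b ∈ Set.range g
      · simp only [dif_pos ha, dif_pos hb] at hab
        have h1 := ha.choose_spec
        have h2 := hb.choose_spec
        rw [← h1, ← h2, Subtype.ext hab]
      · simp only [dif_pos ha, dif_neg hb] at hab
        exact absurd (hab ▸ ha.choose.2) (h ⟨b, hb⟩).2
      · simp only [dif_neg ha, dif_pos hb] at hab
        exact absurd (hab.symm ▸ hb.choose.2) (h ⟨a, ha⟩).2
      · simp only [dif_neg ha, dif_neg hb] at hab
        have := h.injective (Subtype.ext hab)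
        exact congrArg Subtype.val this
    · intro x
      have hx : g x ∈ Set.range g := ⟨x, rfl⟩
      show (if hw : g x ∈ Set.range g then (hw.choose).1 else (h ⟨g x, hw⟩).1) = x.1
      rw [dif_pos hx]
      exact congrArg Subtype.val (g.injective hx.choose_spec)
  left_inv f := by
    classical
    apply Subtype.ext
    apply Function.Embedding.ext
    intro w
    show (if hw : w ∈ Set.range g then (hw.choose).1 else _) = f.1 w
    by_cases hw : w ∈ Set.range g
    · rw [dif_pos hw]
      have h1 := hw.choose_spec
      have h2 := f.2 hw.choose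
      rw [h1] at h2
      exact h2.symm
    · rw [dif_neg hw]
      rfl
  right_inv h := by
    classical
    apply Function.Embedding.ext
    intro c
    apply Subtype.ext
    show (if hw : c.1 ∈ Set.range g then (hw.choose).1 else (h ⟨c.1, hw⟩).1) = (h c).1
    rw [dif_neg c.2]

open Classical in
lemma card_ext (S : Finset (Fin n)) (g : ↥S ↪ W) :
    (Finset.univ.filter fun f : W ↪ Fin n => ∀ x : ↥S, f (g x) = x.1).card
      = (n - S.card).descFactorial (Fintype.card W - S.card) := by
  rw [← Fintype.card_subtype, Fintype.card_congr (extEquiv S g), Fintype.card_embedding_eq]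
  congr 1
  · rw [Fintype.card_subtype_compl]
    simp
  · rw [Fintype.card_subtype_compl]
    congr 1
    have : Fintype.card {w : W // w ∈ Set.range g} = Fintype.card ↥S := by
      rw [← Set.card_range_of_injective g.injective]
    rw [this]
    simp

/-- the vertices touched by `T`. -/
def verts (T : Finset (EdgeSlot n)) : Finset (Fin n) :=
  Finset.univ.filter fun v => ∃ e ∈ T, v ∈ e.1

/-- `g` maps every slot of `T` to an edge of `H`. -/
def IsHomOn (H : SimpleGraph W) (T : Finset (EdgeSlot n)) (g : ↥(verts T) ↪ W) : Prop :=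
  ∀ x y : ↥(verts T), ∀ h : ¬ (s(x.1, y.1) : Sym2 (Fin n)).IsDiag,
    (⟨s(x.1, y.1), h⟩ : EdgeSlot n) ∈ T → H.Adj (g x) (g y)

open Classical in
/-- number of injective homomorphisms from the graph spanned by `T` to `H`. -/
noncomputable def injCount (H : SimpleGraph W) (T : Finset (EdgeSlot n)) : ℕ :=
  (Finset.univ.filter fun g : ↥(verts T) ↪ W => IsHomOn H T g).card

open Classical in
lemma cnt_eq (H : SimpleGraph W) (T : Finset (EdgeSlot n)) :
    cnt H T = injCount H T *
      (n - (verts T).card).descFactorial (Fintype.card W - (verts T).card) := by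
  unfold cnt injCount
  have hU : (Finset.univ.filter fun f : W ↪ Fin n => T ⊆ slots H f)
      = (Finset.univ.filter fun g : ↥(verts T) ↪ W => IsHomOn H T g).biUnion
          fun g => Finset.univ.filter fun f : W ↪ Fin n => ∀ x : ↥(verts T), f (g x) = x.1 := by
    ext f
    simp only [Finset.mem_filter, Finset.mem_univ, true_and, Finset.mem_biUnion]
    constructor
    · intro hf
      -- every vertex of T is in the range of f
      have hr : ∀ x : ↥(verts T), ∃ w : W, f w = x.1 := by
        intro x
        have hx := x.2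
        simp only [verts, Finset.mem_filter, Finset.mem_univ, true_and] at hx
        obtain ⟨e, he, hxe⟩ := hx
        have h1 := mem_slots.1 (hf he)
        rw [SimpleGraph.edgeSet_map] at h1
        obtain ⟨e', _, he'⟩ := h1
        rw [← he'] at hxe
        simp only [Function.Embedding.sym2Map_apply, Sym2.mem_map] at hxe
        obtain ⟨w, _, hw⟩ := hxe
        exact ⟨w, hw⟩
      choose g0 hg0 using hr
      have hinj : Function.Injective g0 := by
        intro a b hab
        apply Subtype.ext
        rw [← hg0 a, ← hg0 b, hab]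
      refine ⟨⟨g0, hinj⟩, ?_, fun x => hg0 x⟩
      intro x y hd hxy
      have h1 := mem_slots.1 (hf hxy)
      simp only [SimpleGraph.mem_edgeSet, SimpleGraph.map_adj] at h1
      obtain ⟨u, v, huv, hu, hv⟩ := h1
      have e1 : g0 x = u := f.injective (by rw [hg0 x, hu])
      have e2 : g0 y = v := f.injective (by rw [hg0 y, hv])
      show H.Adj (g0 x) (g0 y)
      rw [e1, e2]; exact huv
    · rintro ⟨g, hg, hfg⟩
      intro e he
      rw [mem_slots]
      obtain ⟨z, hz⟩ := e
      induction z using Sym2.ind with
      | _ a b =>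
        have ha : a ∈ verts T := by
          simp only [verts, Finset.mem_filter, Finset.mem_univ, true_and]
          exact ⟨_, he, by simp⟩
        have hb : b ∈ verts T := by
          simp only [verts, Finset.mem_filter, Finset.mem_univ, true_and]
          exact ⟨_, he, by simp⟩
        have hadj := hg ⟨a, ha⟩ ⟨b, hb⟩ hz he
        rw [SimpleGraph.mem_edgeSet, SimpleGraph.map_adj]
        exact ⟨_, _, hadj, hfg ⟨a, ha⟩, hfg ⟨b, hb⟩⟩
  rw [hU, Finset.card_biUnion]
  · rw [Finset.sum_congr rfl fun g _ => card_ext (verts T) g, Finset.sum_const, smul_eq_mul]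
  · intro g _ g' _ hne
    show Disjoint _ _
    rw [Finset.disjoint_left]
    intro f hf hf'
    simp only [Finset.mem_filter, Finset.mem_univ, true_and] at hf hf'
    apply hne
    apply Function.Embedding.ext
    intro x
    exact f.injective ((hf x).trans (hf' x).symm)

/-- **Glue.** -/
theorem cnt_mul (H : SimpleGraph W) (T : Finset (EdgeSlot n)) :
    cnt H T * n.descFactorial (verts T).card = injCount H T * Fintype.card (W ↪ Fin n) := by
  classical
  rw [cnt_eq]
  by_cases h0 : injCount H T = 0
  · simp [h0]
  · have hle : (verts T).card ≤ Fintype.card W := by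
      unfold injCount at h0
      obtain ⟨g, _⟩ := Finset.card_pos.1 (Nat.pos_of_ne_zero h0)
      simpa using Fintype.card_le_of_embedding g
    rw [Fintype.card_embedding_eq, Fintype.card_fin, mul_assoc,
      Nat.descFactorial_mul_descFactorial hle]

/-- the form in which (D) can be delivered. -/
theorem cnt_le_of_injCount_le (H : SimpleGraph W) (T : Finset (EdgeSlot n)) (x : ℝ)
    (h : (injCount H T : ℝ) ≤ (n.descFactorial (verts T).card : ℝ) * x) :
    (cnt H T : ℝ) ≤ x * (Fintype.card (W ↪ Fin n) : ℝ) := by
  have hpos : (0 : ℝ) < (n.descFactorial (verts T).card : ℝ) := by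
    have : (verts T).card ≤ n := by simpa using Finset.card_le_univ (verts T)
    exact_mod_cast Nat.descFactorial_pos.2 this
  have h1 : (cnt H T : ℝ) * (n.descFactorial (verts T).card : ℝ)
      = (injCount H T : ℝ) * (Fintype.card (W ↪ Fin n) : ℝ) := by
    exact_mod_cast cnt_mul H T
  have h2 : (cnt H T : ℝ) * (n.descFactorial (verts T).card : ℝ)
      ≤ (x * (Fintype.card (W ↪ Fin n) : ℝ)) * (n.descFactorial (verts T).card : ℝ) := by
    rw [h1]
    have hc : (0 : ℝ) ≤ (Fintype.card (W ↪ Fin n) : ℝ) := by positivity
    nlinarith [mul_le_mul_of_nonneg_right h hc]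
  exact le_of_mul_le_mul_right h2 hpos

/-- The conclusion of S0076 from the deterministic claim (D) in its pure form
`inj(J,H) ≤ (n)_{v_J} (e^50 p)^{e_J}`, `J` the graph spanned by `T`. -/
theorem result_of_injCount (n : ℕ) (H : SimpleGraph W) [DecidableRel H.Adj]
    (hW : Fintype.card W ≤ n) (p : ℝ) (hp0 : 0 ≤ p)
    (hD : ∀ T : Finset (EdgeSlot n), 1 ≤ T.card → T.card ≤ H.edgeFinset.card →
      (injCount H T : ℝ) ≤ (n.descFactorial (verts T).card : ℝ) * (Real.exp 50 * p) ^ T.card) :
    (1 : ℝ) / 2 ≤ gnpProb n
      (min 1 (2048 * Real.exp 50 * p * (1 + Real.logb 2 (H.edgeFinset.card : ℝ))))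
      {G | H.IsContained G} := by
  have := main_uniform n H hW (Real.exp 50 * p) (by positivity)
    (fun T h1 h2 => cnt_le_of_injCount_le H T _ (hD T h1 h2))
  rw [← mul_assoc] at this
  exact this

end Crest.Agent.S0076Aux.Glue56
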