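import Mathlib
import Crest.Prelude.Def_FinProb
import Crest.Prelude.Def_RandomGraph

/-!
# S0076Aux / Hyp65 : the hypothesis layer of S0076 (helper65)

`gnpExpect n p (copyCount F) * #Aut(F) = #(V(F) ↪ Fin n) * p ^ e(F)`.
-/

set_option autoImplicit false

namespace Crest.Agent.S0076Aux.Hyp65

open Crest.CombinatoricsR.RandomGraph Crest.FinProb SimpleGraph

/-- Probability that all coins of `S` show heads. -/
lemma sum_bernoulliWeight_all_true {ι : Type*} [Fintype ι] [DecidableEq ι] (p : ℝ)
    (S : Finset ι) :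
    ∑ ω : ι → Bool, bernoulliWeight p ω * (if ∀ i ∈ S, ω i = true then (1 : ℝ) else 0)
      = p ^ S.card := by
  classical
  have h1 : ∀ ω : ι → Bool,
      bernoulliWeight p ω * (if ∀ i ∈ S, ω i = true then (1 : ℝ) else 0)
        = ∏ i, (if i ∈ S then (if ω i then p else 0) else (if ω i then p else 1 - p)) := by
    intro ω
    unfold bernoulliWeight
    by_cases h : ∀ i ∈ S, ω i = true
    · rw [if_pos h, mul_one]
      refine Finset.prod_congr rfl fun i _ => ?_
      by_cases hi : i ∈ S
      · simp [hi, h i hi]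
      · simp [hi]
    · rw [if_neg h, mul_zero]
      push Not at h
      obtain ⟨i, hi, hω⟩ := h
      symm
      refine Finset.prod_eq_zero (Finset.mem_univ i) ?_
      simp [hi, hω]
  simp_rw [h1]
  have h2 := (Finset.prod_univ_sum (fun _ : ι => (Finset.univ : Finset Bool))
    (fun i b => (if i ∈ S then (if b then p else 0) else (if b then p else 1 - p)))).symm
  rw [Fintype.piFinset_univ] at h2
  rw [h2]
  have h3 : ∀ i : ι, ∑ b : Bool, (if i ∈ S then (if b then p else 0) else (if b then p else 1 - p))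
      = if i ∈ S then p else 1 := by
    intro i
    by_cases hi : i ∈ S <;> simp [hi]
  simp_rw [h3]
  rw [Finset.prod_ite_mem]
  simp

variable {U V : Type*} [Fintype U] [Fintype V] {F : SimpleGraph U} {G : SimpleGraph V}

lemma toSubgraph_adj (f : Copy F G) (u v : U) : f.toSubgraph.Adj (f u) (f v) ↔ F.Adj u v := by
  simp only [Copy.toSubgraph, Subgraph.map_adj, Relation.map_apply, Subgraph.top_adj]
  constructor
  · rintro ⟨a, b, hab, ha, hb⟩
    have ha' : a = u := f.injective ha
    have hb' : b = v := f.injective hb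
    subst ha' hb'
    exact hab
  · intro h
    exact ⟨u, v, h, rfl, rfl⟩

lemma toSubgraph_verts (f : Copy F G) : f.toSubgraph.verts = Set.range f := by
  simp [Copy.toSubgraph, Subgraph.map_verts]

/-- two copies with the same image differ by an automorphism -/
lemma exists_aut_of_toSubgraph_eq (f f' : Copy F G) (h : f'.toSubgraph = f.toSubgraph) :
    ∃ σ : F ≃g F, f.comp σ.toCopy = f' := by
  classical
  have hv : ∀ u, ∃ u', f u' = f' u := by
    intro u
    have : f' u ∈ f'.toSubgraph.verts := by rw [toSubgraph_verts]; exact ⟨u, rfl⟩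
    rw [h, toSubgraph_verts] at this
    exact this
  choose s hs using hv
  have hinj : Function.Injective s := by
    intro a b hab
    apply f'.injective
    show f' a = f' b
    rw [← hs a, ← hs b, hab]
  have hbij : Function.Bijective s := (Finite.injective_iff_bijective).1 hinj
  have hadj : ∀ {a b}, F.Adj (s a) (s b) ↔ F.Adj a b := by
    intro a b
    rw [← toSubgraph_adj f, hs, hs, ← h, toSubgraph_adj]
  refine ⟨⟨Equiv.ofBijective s hbij, hadj⟩, ?_⟩
  ext u
  simp only [Copy.comp_apply]
  exact hs u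

instance : Finite (F ≃g F) :=
  Finite.of_injective (fun σ : F ≃g F => (σ : U → U)) (fun a b h => by
    ext x; exact congrFun h x)

instance : Finite (Copy F G) :=
  Finite.of_injective (fun f : Copy F G => (f : U → V)) DFunLike.coe_injective

lemma card_copy_eq (F : SimpleGraph U) (G : SimpleGraph V) :
    Nat.card (Copy F G) = G.copyCount F * Nat.card (F ≃g F) := by
  classical
  haveI : Fintype (Copy F G) := Fintype.ofFinite _
  haveI : Fintype (F ≃g F) := Fintype.ofFinite _
  rw [copyCount_eq_card_image_copyToSubgraph, Nat.card_eq_fintype_card, Nat.card_eq_fintype_card,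
    ← Finset.card_univ, Finset.card_eq_sum_card_image Copy.toSubgraph Finset.univ]
  have key : ∀ b ∈ (Finset.univ : Finset (Copy F G)).image Copy.toSubgraph,
      (Finset.univ.filter (fun a : Copy F G => a.toSubgraph = b)).card
        = Fintype.card (F ≃g F) := by
    intro b hb
    obtain ⟨f, -, rfl⟩ := Finset.mem_image.1 hb
    rw [← Finset.card_univ]
    symm
    refine Finset.card_bij (fun σ _ => f.comp σ.toCopy) ?_ ?_ ?_
    · intro σ _
      simp only [Finset.mem_filter, Finset.mem_univ, true_and]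
      refine Subgraph.ext ?_ ?_
      · rw [toSubgraph_verts, toSubgraph_verts]
        ext x
        constructor
        · rintro ⟨u, rfl⟩
          exact ⟨σ u, rfl⟩
        · rintro ⟨u, rfl⟩
          exact ⟨σ.symm u, by simp⟩
      · ext a b
        simp only [Copy.toSubgraph, Subgraph.map_adj, Relation.map_apply, Subgraph.top_adj]
        constructor
        · rintro ⟨u, v, huv, rfl, rfl⟩
          exact ⟨σ u, σ v, σ.map_rel_iff.2 huv, rfl, rfl⟩
        · rintro ⟨u, v, huv, rfl, rfl⟩
          exact ⟨σ.symm u, σ.symm v, σ.symm.map_rel_iff.2 huv, by simp, by simp⟩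
    · intro σ _ τ _ hστ
      ext x
      have := DFunLike.congr_fun hστ x
      simp only [Copy.comp_apply] at this
      exact f.injective this
    · intro f' hf'
      simp only [Finset.mem_filter, Finset.mem_univ, true_and] at hf'
      obtain ⟨σ, hσ⟩ := exists_aut_of_toSubgraph_eq f f' hf'
      exact ⟨σ, Finset.mem_univ _, hσ⟩
  rw [Finset.sum_const_nat key]
  congr!

/-- copies as embeddings of the vertex set that preserve adjacency -/
def copyEquiv (F : SimpleGraph U) (G : SimpleGraph V) :
    Copy F G ≃ {φ : U ↪ V // ∀ u v, F.Adj u v → G.Adj (φ u) (φ v)} where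
  toFun f := ⟨f.toEmbedding, fun _ _ h => f.toHom.map_rel h⟩
  invFun φ := ⟨⟨φ.1, fun {a b} h => φ.2 a b h⟩, φ.1.injective⟩
  left_inv f := by ext; rfl
  right_inv φ := by ext; rfl

open Classical in
/-- the coin positions used by the image of `F` under `φ` -/
noncomputable def slots {n : ℕ} (F : SimpleGraph U) (φ : U ↪ Fin n) : Finset (EdgeSlot n) :=
  Finset.univ.filter (fun z => ∃ e ∈ F.edgeSet, Sym2.map φ e = z.1)

lemma card_slots {n : ℕ} (F : SimpleGraph U) (φ : U ↪ Fin n) :
    (slots F φ).card = F.edgeSet.ncard := by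
  classical
  have hnd : ∀ e ∈ F.edgeSet, ¬ (Sym2.map φ e).IsDiag := by
    intro e he
    induction e using Sym2.ind with
    | _ a b =>
      simp only [Sym2.map_mk, Sym2.isDiag_iff_proj_eq]
      intro h
      exact (F.ne_of_adj he) (φ.injective h)
  rw [← Set.ncard_coe_finset]
  symm
  refine Set.ncard_congr (fun e he => (⟨Sym2.map φ e, hnd e he⟩ : EdgeSlot n)) ?_ ?_ ?_
  · intro e he
    simp only [slots, Finset.coe_filter, Finset.mem_univ, true_and, Set.mem_setOf_eq]
    exact ⟨e, he, rfl⟩
  · intro e e' he he' h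
    have := congrArg Subtype.val h
    exact Sym2.map.injective φ.injective this
  · intro z hz
    simp only [slots, Finset.coe_filter, Finset.mem_univ, true_and, Set.mem_setOf_eq] at hz
    obtain ⟨e, he, hez⟩ := hz
    exact ⟨e, he, Subtype.ext hez⟩

lemma hom_iff_slots {n : ℕ} (F : SimpleGraph U) (φ : U ↪ Fin n) (ω : EdgeSlot n → Bool) :
    (∀ u v, F.Adj u v → (graphOf ω).Adj (φ u) (φ v)) ↔ ∀ z ∈ slots F φ, ω z = true := by
  classical
  constructor
  · intro h z hz
    simp only [slots, Finset.mem_filter, Finset.mem_univ, true_and] at hz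
    obtain ⟨e, he, hez⟩ := hz
    induction e using Sym2.ind with
    | _ a b =>
      have := h a b he
      simp only [graphOf, fromEdgeSet_adj, Set.mem_setOf_eq] at this
      obtain ⟨⟨h1, h2⟩, -⟩ := this
      have hz' : z = ⟨s(φ a, φ b), h1⟩ := Subtype.ext (by rw [← hez]; rfl)
      rw [hz']; exact h2
  · intro h u v huv
    have hne : φ u ≠ φ v := fun h' => F.ne_of_adj huv (φ.injective h')
    have hnd : ¬ (s(φ u, φ v)).IsDiag := by simpa using hne
    simp only [graphOf, fromEdgeSet_adj, Set.mem_setOf_eq]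
    refine ⟨⟨hnd, h _ ?_⟩, hne⟩
    simp only [slots, Finset.mem_filter, Finset.mem_univ, true_and]
    exact ⟨s(u, v), huv, rfl⟩


lemma natCard_copy_eq_sum {n : ℕ} (F : SimpleGraph U) (ω : EdgeSlot n → Bool) :
    (Nat.card (Copy F (graphOf ω)) : ℝ)
      = ∑ φ : U ↪ Fin n, (if ∀ z ∈ slots F φ, ω z = true then (1 : ℝ) else 0) := by
  classical
  rw [Nat.card_congr (copyEquiv F (graphOf ω)), Nat.card_eq_fintype_card, Fintype.card_subtype,
    Finset.sum_boole]
  congr 2
  ext φ
  simp only [Finset.mem_filter, Finset.mem_univ, true_and]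
  exact hom_iff_slots F φ ω

/-- expected number of labelled copies -/
theorem gnpExpect_card_copy (n : ℕ) (p : ℝ) (F : SimpleGraph U) :
    gnpExpect n p (fun G => (Nat.card (Copy F G) : ℝ))
      = (Nat.card (U ↪ Fin n) : ℝ) * p ^ F.edgeSet.ncard := by
  classical
  unfold gnpExpect
  simp_rw [natCard_copy_eq_sum, Finset.mul_sum]
  rw [Finset.sum_comm]
  simp_rw [sum_bernoulliWeight_all_true, card_slots]
  rw [Finset.sum_const, Finset.card_univ, Nat.card_eq_fintype_card, nsmul_eq_mul]

/-- **(H1+H2)** expected number of unlabelled copies times the number of automorphisms. -/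
theorem gnpExpect_copyCount_mul_aut (n : ℕ) (p : ℝ) (F : SimpleGraph U) :
    gnpExpect n p (fun G => (G.copyCount F : ℝ)) * (Nat.card (F ≃g F) : ℝ)
      = (Nat.card (U ↪ Fin n) : ℝ) * p ^ F.edgeSet.ncard := by
  rw [← gnpExpect_card_copy]
  unfold gnpExpect
  rw [Finset.sum_mul]
  refine Finset.sum_congr rfl fun ω _ => ?_
  show _ * ((graphOf ω).copyCount F : ℝ) * _ = _ * (Nat.card (Copy F (graphOf ω)) : ℝ)
  rw [card_copy_eq, Nat.cast_mul, mul_assoc]

/-- the hypothesis of S0076 for one graph `F`, in the form `aut(F) ≤ 2 (n)_{v(F)} p^{e(F)}`. -/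
theorem aut_le_of_half_le (n : ℕ) (p : ℝ) (F : SimpleGraph U)
    (h : (1 : ℝ) / 2 ≤ gnpExpect n p (fun G => (G.copyCount F : ℝ))) :
    (Nat.card (F ≃g F) : ℝ)
      ≤ 2 * ((n.descFactorial (Fintype.card U) : ℕ) : ℝ) * p ^ F.edgeSet.ncard := by
  have h1 := gnpExpect_copyCount_mul_aut n p F
  have h2 : (Nat.card (U ↪ Fin n) : ℝ) = ((n.descFactorial (Fintype.card U) : ℕ) : ℝ) := by
    rw [Nat.card_eq_fintype_card, Fintype.card_embedding_eq, Fintype.card_fin]
  rw [h2] at h1
  have h3 : (0 : ℝ) ≤ (Nat.card (F ≃g F) : ℝ) := Nat.cast_nonneg _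
  nlinarith [mul_le_mul_of_nonneg_right h h3]


omit [Fintype U] in
lemma copyCount_congr_iso {U' : Type*} {F : SimpleGraph U} {F' : SimpleGraph U'} (e : F ≃g F')
    (G : SimpleGraph V) : G.copyCount F = G.copyCount F' := by
  classical
  unfold copyCount
  congr 1
  ext G'
  simp only [Finset.mem_filter, Finset.mem_univ, true_and]
  exact ⟨fun ⟨i⟩ => ⟨e.symm.trans i⟩, fun ⟨i⟩ => ⟨e.trans i⟩⟩

/-- **Hypothesis of S0076, normal form A**: for every subgraph `F` of `H`,
`aut(F) ≤ 2 (n)_{v(F)} p^{e(F)}`. -/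
theorem aut_le_of_subgraph {W : Type*} {H : SimpleGraph W} (n : ℕ) (p : ℝ) (F : H.Subgraph)
    [Finite F.verts]
    (h : (1 : ℝ) / 2 ≤ gnpExpect n p (fun G => (G.copyCount F.coe : ℝ))) :
    (Nat.card (F.coe ≃g F.coe) : ℝ)
      ≤ 2 * ((n.descFactorial F.verts.ncard : ℕ) : ℝ) * p ^ F.edgeSet.ncard := by
  classical
  haveI : Fintype F.verts := Fintype.ofFinite _
  have h1 := aut_le_of_half_le n p F.coe h
  have h2 : Fintype.card F.verts = F.verts.ncard := by
    rw [← Nat.card_eq_fintype_card, Nat.card_coe_set_eq]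
  have h3 : F.coe.edgeSet.ncard = F.edgeSet.ncard := by
    rw [← Subgraph.image_coe_edgeSet_coe,
      Set.ncard_image_of_injective _ (Sym2.map.injective Subtype.val_injective)]
  rwa [h2, h3] at h1

/-- **Hypothesis of S0076, normal form B**: for every finite graph `F` contained in `H`
(on any vertex type), `aut(F) ≤ 2 (n)_{v(F)} p^{e(F)}`. -/
theorem aut_le_of_isContained {W : Type*} {H : SimpleGraph W} (n : ℕ) (p : ℝ)
    (hE : ∀ F : H.Subgraph, (1 : ℝ) / 2 ≤ gnpExpect n p (fun G => (G.copyCount F.coe : ℝ)))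
    (F : SimpleGraph U) (hF : F ⊑ H) :
    (Nat.card (F ≃g F) : ℝ)
      ≤ 2 * ((n.descFactorial (Fintype.card U) : ℕ) : ℝ) * p ^ F.edgeSet.ncard := by
  obtain ⟨f⟩ := hF
  refine aut_le_of_half_le n p F ?_
  have := hE f.toSubgraph
  have hc : ∀ G : SimpleGraph (Fin n), G.copyCount F = G.copyCount f.toSubgraph.coe :=
    fun G => copyCount_congr_iso f.isoToSubgraph G
  simpa only [hc] using this

end Crest.Agent.S0076Aux.Hyp65
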