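import Mathlib
import Crest.Prelude.Def_FinProb
import Crest.Prelude.Def_RandomGraph
import Crest.Agent.S0076Aux.Hyp65

/-!
# S0076Aux / Glue65 : from a bound on `inj(J,H)` to the spread condition (helper65)

If `inj(J,H) ≤ c (n)_{v(J)} q^{e(J)}` for all graphs `J` living on subsets of `Fin n`, then the uniformly
random copy of `H` in `K_n` is `q`-spread (with prefactor `c`).
-/

set_option autoImplicit false

namespace Crest.Agent.S0076Aux.Glue65

open Crest.CombinatoricsR.RandomGraph Crest.FinProb SimpleGraph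
open Crest.Agent.S0076Aux.Hyp65

variable {W : Type*} [Fintype W]

/-- number of embeddings `W ↪ Fin n` extending the inverse of a given `ψ : S ↪ W`. -/
lemma card_extensions_le {n : ℕ} (S : Finset (Fin n)) (ψ : S ↪ W) :
    Nat.card {φ : W ↪ Fin n // ∀ x : S, φ (ψ x) = x}
      ≤ (n - S.card).descFactorial (Fintype.card W - S.card) := by
  classical
  have hmem : ∀ (φ : {φ : W ↪ Fin n // ∀ x : S, φ (ψ x) = x}) (w : {w : W // w ∉ Set.range ψ}),
      φ.1 w.1 ∉ S := by
    intro φ w hx
    apply w.2
    refine ⟨⟨φ.1 w.1, hx⟩, ?_⟩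
    apply φ.1.injective
    rw [φ.2 ⟨φ.1 w.1, hx⟩]
  let R : {φ : W ↪ Fin n // ∀ x : S, φ (ψ x) = x} →
      ({w : W // w ∉ Set.range ψ} ↪ {x : Fin n // x ∉ S}) := fun φ =>
    ⟨fun w => ⟨φ.1 w.1, hmem φ w⟩, fun a b hab => by
      have := congrArg Subtype.val hab
      exact Subtype.ext (φ.1.injective this)⟩
  have hR : Function.Injective R := by
    intro φ φ' h
    apply Subtype.ext
    ext w
    by_cases hw : w ∈ Set.range ψ
    · obtain ⟨x, rfl⟩ := hw
      rw [φ.2 x, φ'.2 x]
    · have := congrArg (fun g => ((g ⟨w, hw⟩ : {x : Fin n // x ∉ S}) : Fin n)) h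
      exact congrArg Fin.val this
  have h1 := Nat.card_le_card_of_injective R hR
  refine h1.trans (le_of_eq ?_)
  rw [Nat.card_eq_fintype_card, Fintype.card_embedding_eq]
  congr 1
  · rw [Fintype.card_subtype_compl, Fintype.card_fin]
    simp
  · rw [Fintype.card_subtype_compl]
    congr 1
    rw [← Nat.card_eq_fintype_card, Nat.card_coe_set_eq, Set.ncard_range_of_injective ψ.injective]
    simp


open Classical in
/-- the vertices touched by a set of edge slots -/
noncomputable def vset {n : ℕ} (T : Finset (EdgeSlot n)) : Finset (Fin n) :=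
  Finset.univ.filter (fun x => ∃ z ∈ T, x ∈ z.1)

/-- the graph spanned by a set of edge slots, on the vertex set `vset T` -/
def spanned {n : ℕ} (T : Finset (EdgeSlot n)) : SimpleGraph (vset T) where
  Adj a b := ∃ h : ¬ (s(a.1, b.1)).IsDiag, (⟨s(a.1, b.1), h⟩ : EdgeSlot n) ∈ T
  symm := ⟨fun a b => by
    rintro ⟨h, hT⟩
    have e : s(b.1, a.1) = s(a.1, b.1) := Sym2.eq_swap
    refine ⟨by rw [e]; exact h, ?_⟩
    have : (⟨s(b.1, a.1), by rw [e]; exact h⟩ : EdgeSlot n) = ⟨s(a.1, b.1), h⟩ := Subtype.ext e
    rw [this]; exact hT⟩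
  loopless := ⟨fun a ⟨h, _⟩ => h (by simp)⟩

lemma spanned_adj {n : ℕ} (T : Finset (EdgeSlot n)) (a b : vset T) :
    (spanned T).Adj a b ↔ ∃ h : ¬ (s(a.1, b.1)).IsDiag, (⟨s(a.1, b.1), h⟩ : EdgeSlot n) ∈ T :=
  Iff.rfl

lemma mem_vset {n : ℕ} {T : Finset (EdgeSlot n)} {z : EdgeSlot n} (hz : z ∈ T) {x : Fin n}
    (hx : x ∈ z.1) : x ∈ vset T := by
  classical
  simp only [vset, Finset.mem_filter, Finset.mem_univ, true_and]
  exact ⟨z, hz, hx⟩

lemma ncard_edgeSet_spanned {n : ℕ} (T : Finset (EdgeSlot n)) :
    (spanned T).edgeSet.ncard = T.card := by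
  classical
  rw [← Set.ncard_coe_finset]
  have hnd : ∀ e ∈ (spanned T).edgeSet, ¬ (Sym2.map Subtype.val e).IsDiag := by
    intro e he
    induction e using Sym2.ind with
    | _ a b => exact ((spanned_adj T a b).1 he).1
  refine Set.ncard_congr
    (fun e he => (⟨Sym2.map Subtype.val e, hnd e he⟩ : EdgeSlot n)) ?_ ?_ ?_
  · intro e he
    induction e using Sym2.ind with
    | _ a b => exact ((spanned_adj T a b).1 he).2
  · intro e e' _ _ h
    exact Sym2.map.injective Subtype.val_injective (congrArg Subtype.val h)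
  · intro z hz
    obtain ⟨z, hzd⟩ := z
    induction z using Sym2.ind with
    | _ a b =>
      have ha : a ∈ vset T := mem_vset hz (by simp)
      have hb : b ∈ vset T := mem_vset hz (by simp)
      exact ⟨s(⟨a, ha⟩, ⟨b, hb⟩), (spanned_adj T ⟨a, ha⟩ ⟨b, hb⟩).2 ⟨hzd, hz⟩, rfl⟩

/-- a good embedding has a partial inverse which is a copy of the spanned graph in `H` -/
lemma exists_copy_of_subset_slots {n : ℕ} (H : SimpleGraph W) (T : Finset (EdgeSlot n))
    (φ : W ↪ Fin n) (h : T ⊆ slots H φ) :
    ∃ ψ : Copy (spanned T) H, ∀ x : vset T, φ (ψ x) = x := by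
  classical
  have hex : ∀ x : vset T, ∃ w : W, φ w = x := by
    rintro ⟨x, hx⟩
    simp only [vset, Finset.mem_filter, Finset.mem_univ, true_and] at hx
    obtain ⟨z, hz, hxz⟩ := hx
    have := h hz
    simp only [slots, Finset.mem_filter, Finset.mem_univ, true_and] at this
    obtain ⟨e, -, hez⟩ := this
    rw [← hez, Sym2.mem_map] at hxz
    obtain ⟨w, -, hw⟩ := hxz
    exact ⟨w, hw⟩
  choose g hg using hex
  have hinj : Function.Injective g := by
    intro a b hab
    apply Subtype.ext
    rw [← hg a, ← hg b, hab]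
  refine ⟨⟨⟨g, ?_⟩, hinj⟩, hg⟩
  intro a b hab
  obtain ⟨hd, hT⟩ := (spanned_adj T a b).1 hab
  have := h hT
  simp only [slots, Finset.mem_filter, Finset.mem_univ, true_and] at this
  obtain ⟨e, he, hez⟩ := this
  induction e using Sym2.ind with
  | _ u v =>
    simp only [Sym2.map_mk, Sym2.eq_iff] at hez
    rcases hez with ⟨h1, h2⟩ | ⟨h1, h2⟩
    · have hu : u = g a := φ.injective (by rw [h1, hg])
      have hv : v = g b := φ.injective (by rw [h2, hg])
      subst hu hv
      exact he
    · have hu : u = g b := φ.injective (by rw [h1, hg])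
      have hv : v = g a := φ.injective (by rw [h2, hg])
      subst hu hv
      exact H.adj_symm he


/-- **(G1)** counting form: the number of embeddings whose image of `H` contains `T`. -/
theorem card_good_le {n : ℕ} (H : SimpleGraph W) (T : Finset (EdgeSlot n)) :
    Nat.card {φ : W ↪ Fin n // T ⊆ slots H φ}
      ≤ Nat.card (Copy (spanned T) H)
        * (n - (vset T).card).descFactorial (Fintype.card W - (vset T).card) := by
  classical
  haveI : Fintype (Copy (spanned T) H) := Fintype.ofFinite _
  have h1 : (Finset.univ.filter (fun φ : W ↪ Fin n => T ⊆ slots H φ))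
      ⊆ (Finset.univ : Finset (Copy (spanned T) H)).biUnion
        (fun ψ => Finset.univ.filter (fun φ : W ↪ Fin n => ∀ x : vset T, φ (ψ x) = x)) := by
    intro φ hφ
    simp only [Finset.mem_filter, Finset.mem_univ, true_and] at hφ
    obtain ⟨ψ, hψ⟩ := exists_copy_of_subset_slots H T φ hφ
    simp only [Finset.mem_biUnion, Finset.mem_univ, Finset.mem_filter, true_and]
    exact ⟨ψ, hψ⟩
  rw [Nat.card_eq_fintype_card, Fintype.card_subtype]
  refine (Finset.card_le_card h1).trans (Finset.card_biUnion_le.trans ?_)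
  rw [Nat.card_eq_fintype_card, ← Finset.card_univ, ← smul_eq_mul]
  refine Finset.sum_le_card_nsmul _ _ _ ?_
  intro ψ _
  have := card_extensions_le (vset T) ψ.toEmbedding
  rw [Nat.card_eq_fintype_card, Fintype.card_subtype] at this
  exact this

/-- **(G1)** spread form.  If `inj(J,H) ≤ c (n)_{v(J)} q^{e(J)}` for every graph `J` spanned by a set of
edge slots of `K_n`, then the uniform random copy of `H` is `q`-spread with prefactor `c`. -/
theorem spread_of_copy_bound {n : ℕ} (H : SimpleGraph W) (c q : ℝ)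
    (hD : ∀ T : Finset (EdgeSlot n), (Nat.card (Copy (spanned T) H) : ℝ)
      ≤ c * ((n.descFactorial (vset T).card : ℕ) : ℝ) * q ^ T.card)
    (T : Finset (EdgeSlot n)) :
    (Nat.card {φ : W ↪ Fin n // T ⊆ slots H φ} : ℝ)
      ≤ c * q ^ T.card * (Nat.card (W ↪ Fin n) : ℝ) := by
  classical
  by_cases hne : Nonempty (Copy (spanned T) H)
  · obtain ⟨ψ⟩ := hne
    have hv : (vset T).card ≤ Fintype.card W := by
      have := Fintype.card_le_of_injective ψ ψ.injective
      simpa using this
    have h1 : (Nat.card {φ : W ↪ Fin n // T ⊆ slots H φ} : ℝ)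
        ≤ (Nat.card (Copy (spanned T) H) : ℝ)
          * (((n - (vset T).card).descFactorial (Fintype.card W - (vset T).card) : ℕ) : ℝ) := by
      exact_mod_cast card_good_le H T
    have h2 : (Nat.card (W ↪ Fin n) : ℝ)
        = (((n - (vset T).card).descFactorial (Fintype.card W - (vset T).card) : ℕ) : ℝ)
          * ((n.descFactorial (vset T).card : ℕ) : ℝ) := by
      rw [Nat.card_eq_fintype_card, Fintype.card_embedding_eq, Fintype.card_fin,
        ← Nat.descFactorial_mul_descFactorial hv, Nat.cast_mul]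
    rw [h2]
    refine h1.trans ?_
    have h3 := mul_le_mul_of_nonneg_right (hD T)
      (Nat.cast_nonneg ((n - (vset T).card).descFactorial (Fintype.card W - (vset T).card)))
    refine h3.trans (le_of_eq ?_)
    ring
  · have h0 : Nat.card {φ : W ↪ Fin n // T ⊆ slots H φ} = 0 := by
      have := card_good_le H T
      have hz : Nat.card (Copy (spanned T) H) = 0 := by
        haveI : IsEmpty (Copy (spanned T) H) := not_nonempty_iff.1 hne
        exact Nat.card_of_isEmpty
      rw [hz, zero_mul] at this
      exact Nat.le_zero.1 this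
    have hz : Nat.card (Copy (spanned T) H) = 0 := by
      haveI : IsEmpty (Copy (spanned T) H) := not_nonempty_iff.1 hne
      exact Nat.card_of_isEmpty
    have hD' := hD T
    rw [hz] at hD'
    rw [h0]
    have hvn : (vset T).card ≤ n := by
      have := Finset.card_le_univ (vset T)
      simpa using this
    have hpos : (0 : ℝ) < ((n.descFactorial (vset T).card : ℕ) : ℝ) := by
      have : n.descFactorial (vset T).card ≠ 0 := by
        rw [Ne, Nat.descFactorial_eq_zero_iff_lt]
        omega
      exact_mod_cast Nat.pos_of_ne_zero this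
    have hcq : 0 ≤ c * q ^ T.card := by
      have h5 : (0 : ℝ) ≤ (c * q ^ T.card) * ((n.descFactorial (vset T).card : ℕ) : ℝ) := by
        have : c * ((n.descFactorial (vset T).card : ℕ) : ℝ) * q ^ T.card
            = (c * q ^ T.card) * ((n.descFactorial (vset T).card : ℕ) : ℝ) := by ring
        rw [← this]
        exact_mod_cast hD'
      exact nonneg_of_mul_nonneg_left h5 hpos
    simpa using mul_nonneg hcq (Nat.cast_nonneg (Nat.card (W ↪ Fin n)))

end Crest.Agent.S0076Aux.Glue65
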