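import Mathlib
import Crest.Prelude.Def_FinProb
import Crest.Agent.S0076Aux.Weights60

/-!
# S0076Aux.ParkPham

The Park–Pham theorem (Kahn–Kalai conjecture) in the binomial model, with explicit constants:
a family of sets of size `≤ ℓ` which is not `q`-small is hit by the random set of density
`min 1 (2048 q (1 + log₂ ℓ))` with probability at least `1/2`.
-/

set_option autoImplicit false
set_option linter.unusedSectionVars false

namespace Crest.Agent.S0076Aux.H60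

open Finset
open scoped Classical

variable {ι : Type*} [Fintype ι] [DecidableEq ι]

/-- cost of a family at density `q`. -/
noncomputable def cost (q : ℝ) (𝒢 : Finset (Finset ι)) : ℝ := ∑ T ∈ 𝒢, q ^ #T

/-- `𝒢` covers `𝓗`: every member of `𝓗` contains a member of `𝒢`. -/
def Covers (𝒢 𝓗 : Finset (Finset ι)) : Prop := ∀ S ∈ 𝓗, ∃ T ∈ 𝒢, T ⊆ S

/-- `W` contains a member of `𝓗`. -/
def Hits (𝓗 : Finset (Finset ι)) (W : Finset ι) : Prop := ∃ S ∈ 𝓗, S ⊆ W

/-- probability that the `ρ`-random set contains no member of `𝓗`. -/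
noncomputable def missP (ρ : ℝ) (𝓗 : Finset (Finset ι)) : ℝ :=
  ∑ W : Finset ι, wt ρ W * (if Hits 𝓗 W then 0 else 1)

omit [Fintype ι] in
lemma sdiff_subset_iff' {s t u : Finset ι} : s \ t ⊆ u ↔ s ⊆ t ∪ u :=
  sdiff_le_iff

lemma cost_nonneg {q : ℝ} (hq : 0 ≤ q) (𝒢 : Finset (Finset ι)) : 0 ≤ cost q 𝒢 :=
  Finset.sum_nonneg (fun _ _ => pow_nonneg hq _)

lemma cost_union_le {q : ℝ} (hq : 0 ≤ q) (𝒢₁ 𝒢₂ : Finset (Finset ι)) :
    cost q (𝒢₁ ∪ 𝒢₂) ≤ cost q 𝒢₁ + cost q 𝒢₂ := by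
  unfold cost
  rw [← Finset.sum_union_inter]
  have : 0 ≤ ∑ T ∈ 𝒢₁ ∩ 𝒢₂, q ^ #T := Finset.sum_nonneg (fun _ _ => pow_nonneg hq _)
  linarith

lemma missP_nonneg {ρ : ℝ} (h0 : 0 ≤ ρ) (h1 : ρ ≤ 1) (𝓗 : Finset (Finset ι)) :
    0 ≤ missP ρ 𝓗 := by
  unfold missP
  apply Finset.sum_nonneg
  intro W _
  apply mul_nonneg (wt_nonneg h0 h1 W)
  split_ifs <;> norm_num

lemma missP_le_one {ρ : ℝ} (h0 : 0 ≤ ρ) (h1 : ρ ≤ 1) (𝓗 : Finset (Finset ι)) :
    missP ρ 𝓗 ≤ 1 := by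
  unfold missP
  calc ∑ W : Finset ι, wt ρ W * (if Hits 𝓗 W then 0 else 1) ≤ ∑ W : Finset ι, wt ρ W := by
        apply Finset.sum_le_sum
        intro W _
        have := wt_nonneg h0 h1 W
        split_ifs <;> simp [this]
    _ = 1 := sum_wt ρ

lemma missP_anti {ρ : ℝ} (h0 : 0 ≤ ρ) (h1 : ρ ≤ 1) {𝓗 𝓗' : Finset (Finset ι)} (h : 𝓗' ⊆ 𝓗) :
    missP ρ 𝓗 ≤ missP ρ 𝓗' := by
  unfold missP
  apply Finset.sum_le_sum
  intro W _
  apply mul_le_mul_of_nonneg_left _ (wt_nonneg h0 h1 W)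
  by_cases h' : Hits 𝓗' W
  · have : Hits 𝓗 W := by
      obtain ⟨S, hS, hSW⟩ := h'
      exact ⟨S, h hS, hSW⟩
    simp [h', this]
  · simp only [h', if_false]
    split_ifs <;> norm_num

lemma missP_of_empty_mem {ρ : ℝ} {𝓗 : Finset (Finset ι)} (h : ∅ ∈ 𝓗) : missP ρ 𝓗 = 0 := by
  unfold missP
  apply Finset.sum_eq_zero
  intro W _
  have : Hits 𝓗 W := ⟨∅, h, Finset.empty_subset _⟩
  simp [this]

/-- two-round decomposition of the miss probability -/
lemma missP_split (a b : ℝ) (𝓗 : Finset (Finset ι)) :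
    missP (a + b - a * b) 𝓗 = ∑ W : Finset ι, wt a W * missP b (𝓗.image (· \ W)) := by
  unfold missP
  rw [← union_wt a b (fun W => if Hits 𝓗 W then (0 : ℝ) else 1)]
  apply Finset.sum_congr rfl
  intro W₁ _
  rw [Finset.mul_sum]
  apply Finset.sum_congr rfl
  intro W₂ _
  have : Hits 𝓗 (W₁ ∪ W₂) ↔ Hits (𝓗.image (· \ W₁)) W₂ := by
    unfold Hits
    constructor
    · rintro ⟨S, hS, hSW⟩
      refine ⟨S \ W₁, Finset.mem_image_of_mem _ hS, ?_⟩
      rw [sdiff_subset_iff']; exact hSW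
    · rintro ⟨S', hS', hSW⟩
      obtain ⟨S, hS, rfl⟩ := Finset.mem_image.mp hS'
      refine ⟨S, hS, ?_⟩
      rw [sdiff_subset_iff'] at hSW; exact hSW
  simp only [this]
  ring

/-- monotonicity of the miss probability in the density -/
lemma missP_mono_density {a c : ℝ} (ha : 0 ≤ a) (hac : a ≤ c) (hc : c ≤ 1)
    (𝓗 : Finset (Finset ι)) : missP c 𝓗 ≤ missP a 𝓗 := by
  rcases eq_or_lt_of_le (hac.trans hc) with h1 | h1
  · have : c = a := le_antisymm (by linarith) hac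
    rw [this]
  · set b : ℝ := (c - a) / (1 - a) with hb
    have h1a : 0 < 1 - a := by linarith
    have hb0 : 0 ≤ b := div_nonneg (by linarith) h1a.le
    have hb1 : b ≤ 1 := by rw [hb, div_le_one h1a]; linarith
    have hcab : c = a + b - a * b := by
      rw [hb]; field_simp; ring
    rw [hcab, missP_split]
    unfold missP
    apply Finset.sum_le_sum
    intro W _
    apply mul_le_mul_of_nonneg_left _ (wt_nonneg ha (hac.trans hc) W)
    by_cases h : Hits 𝓗 W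
    · obtain ⟨S, hS, hSW⟩ := h
      have hmem : (∅ : Finset ι) ∈ 𝓗.image (· \ W) := by
        rw [Finset.mem_image]
        exact ⟨S, hS, Finset.sdiff_eq_empty_iff_subset.mpr hSW⟩
      have := missP_of_empty_mem (ρ := b) hmem
      unfold missP at this
      rw [this]
      split_ifs <;> norm_num
    · simp only [h, if_false]
      exact missP_le_one hb0 hb1 _

/-! ### minimum fragments -/

/-- `T` is a minimum fragment (of some member `S` of `𝓗`) with respect to `W`. -/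
def IsMF (𝓗 : Finset (Finset ι)) (W T : Finset ι) : Prop :=
  ∃ S ∈ 𝓗, (∃ S' ∈ 𝓗, S' ⊆ W ∪ S ∧ T = S' \ W) ∧ ∀ S'' ∈ 𝓗, S'' ⊆ W ∪ S → #T ≤ #(S'' \ W)

lemma exists_isMF {𝓗 : Finset (Finset ι)} (W : Finset ι) {S : Finset ι} (hS : S ∈ 𝓗) :
    ∃ T, IsMF 𝓗 W T ∧ T ⊆ S := by
  have hne : (𝓗.filter (· ⊆ W ∪ S)).Nonempty :=
    ⟨S, Finset.mem_filter.mpr ⟨hS, Finset.subset_union_right⟩⟩
  obtain ⟨S', hS', hmin⟩ := Finset.exists_min_image _ (fun S' => #(S' \ W)) hne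
  rw [Finset.mem_filter] at hS'
  refine ⟨S' \ W, ⟨S, hS, ⟨S', hS'.1, hS'.2, rfl⟩, ?_⟩, ?_⟩
  · intro S'' hS'' hsub
    exact hmin S'' (Finset.mem_filter.mpr ⟨hS'', hsub⟩)
  · rw [sdiff_subset_iff']; exact hS'.2

lemma IsMF.mem_image {𝓗 : Finset (Finset ι)} {W T : Finset ι} (h : IsMF 𝓗 W T) :
    T ∈ 𝓗.image (· \ W) := by
  obtain ⟨S, _, ⟨S', hS', _, rfl⟩, _⟩ := h
  exact Finset.mem_image_of_mem _ hS'

lemma IsMF.disjoint {𝓗 : Finset (Finset ι)} {W T : Finset ι} (h : IsMF 𝓗 W T) :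
    Disjoint W T := by
  obtain ⟨S, _, ⟨S', _, _, rfl⟩, _⟩ := h
  exact Finset.disjoint_sdiff

lemma IsMF.exists_subset {𝓗 : Finset (Finset ι)} {W T : Finset ι} (h : IsMF 𝓗 W T) :
    ∃ S ∈ 𝓗, S ⊆ W ∪ T := by
  obtain ⟨S, _, ⟨S', hS', _, rfl⟩, _⟩ := h
  refine ⟨S', hS', ?_⟩
  rw [Finset.union_sdiff_self_eq_union]
  exact Finset.subset_union_right

lemma IsMF.subset_of {𝓗 : Finset (Finset ι)} {W T : Finset ι} (h : IsMF 𝓗 W T)
    {S₁ : Finset ι} (h₁ : S₁ ∈ 𝓗) (hsub : S₁ ⊆ W ∪ T) : T ⊆ S₁ := by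
  obtain ⟨S, _, ⟨S', _, hS'sub, hT⟩, hmin⟩ := h
  have hTS : T ⊆ S := by
    rw [hT, sdiff_subset_iff']; exact hS'sub
  have h2 : S₁ ⊆ W ∪ S := hsub.trans (Finset.union_subset_union_right hTS)
  have h3 : #T ≤ #(S₁ \ W) := hmin S₁ h₁ h2
  have h4 : S₁ \ W ⊆ T := by rw [sdiff_subset_iff']; exact hsub
  have h5 : S₁ \ W = T := Finset.eq_of_subset_of_card_le h4 h3
  rw [← h5]
  exact Finset.sdiff_subset

/-- the large minimum fragments -/
noncomputable def big (𝓗 : Finset (Finset ι)) (W : Finset ι) (t : ℕ) : Finset (Finset ι) :=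
  univ.filter (fun T => IsMF 𝓗 W T ∧ t ≤ #T)

/-- the small minimum fragments -/
noncomputable def small (𝓗 : Finset (Finset ι)) (W : Finset ι) (t : ℕ) : Finset (Finset ι) :=
  univ.filter (fun T => IsMF 𝓗 W T ∧ #T < t)

lemma small_subset_image (𝓗 : Finset (Finset ι)) (W : Finset ι) (t : ℕ) :
    small 𝓗 W t ⊆ 𝓗.image (· \ W) := by
  intro T hT
  exact (Finset.mem_filter.mp hT).2.1.mem_image

lemma covers_big_union {𝓗 𝒢' : Finset (Finset ι)} {W : Finset ι} {t : ℕ}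
    (h : Covers 𝒢' (small 𝓗 W t)) : Covers (big 𝓗 W t ∪ 𝒢') 𝓗 := by
  intro S hS
  obtain ⟨T, hT, hTS⟩ := exists_isMF W hS
  by_cases hc : t ≤ #T
  · exact ⟨T, Finset.mem_union_left _ (Finset.mem_filter.mpr ⟨Finset.mem_univ _, hT, hc⟩), hTS⟩
  · obtain ⟨T', hT', hsub⟩ := h T (Finset.mem_filter.mpr ⟨Finset.mem_univ _, hT, not_le.mp hc⟩)
    exact ⟨T', Finset.mem_union_right _ hT', hsub.trans hTS⟩

/-- The key counting bound of Park–Pham in the binomial model. -/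
lemma expected_big_cost (𝓗 : Finset (Finset ι)) (ℓ t : ℕ) (hℓ : ∀ S ∈ 𝓗, #S ≤ ℓ)
    {L q : ℝ} (hL : 1 ≤ L) (hq : 0 ≤ q) (hρ : L * q ≤ 1) :
    ∑ W : Finset ι, wt (L * q) W * cost q (big 𝓗 W t) ≤ 2 ^ ℓ * (1 / L) ^ t := by
  have hL0 : 0 < L := by linarith
  have hρ0 : 0 ≤ L * q := mul_nonneg hL0.le hq
  -- canonical member contained in `Z`
  let χ : Finset ι → Finset ι := fun Z => if h : ∃ S ∈ 𝓗, S ⊆ Z then h.choose else ∅
  have hχ : ∀ Z, (∃ S ∈ 𝓗, S ⊆ Z) → χ Z ∈ 𝓗 ∧ χ Z ⊆ Z := by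
    intro Z h
    simp only [χ, dif_pos h]
    exact h.choose_spec
  have hχcard : ∀ Z, #(χ Z) ≤ ℓ := by
    intro Z
    by_cases h : ∃ S ∈ 𝓗, S ⊆ Z
    · exact hℓ _ (hχ Z h).1
    · simp [χ, dif_neg h]
  -- termwise bound
  have hterm : ∀ W : Finset ι, ∀ T ∈ big 𝓗 W t,
      wt (L * q) W * q ^ #T ≤ wt (L * q) (W ∪ T) * (1 / L) ^ t := by
    intro W T hT
    obtain ⟨-, hMF, htT⟩ := Finset.mem_filter.mp hT
    have h1 : wt (L * q) W * (L * q) ^ #T = wt (L * q) (W ∪ T) * (1 - L * q) ^ #T :=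
      wt_mul_pow_of_disjoint _ hMF.disjoint
    have h2 : q ^ #T = (L * q) ^ #T * (1 / L) ^ #T := by
      rw [← mul_pow]; congr 1; field_simp
    rw [h2, ← mul_assoc, h1, mul_assoc]
    apply mul_le_mul_of_nonneg_left _ (wt_nonneg hρ0 hρ _)
    have h3 : (1 - L * q) ^ #T ≤ 1 := pow_le_one₀ (by linarith) (by linarith)
    have h4 : (1 / L) ^ #T ≤ (1 / L) ^ t :=
      pow_le_pow_of_le_one (by positivity) (by rw [div_le_one hL0]; exact hL) htT
    calc (1 - L * q) ^ #T * (1 / L) ^ #T ≤ 1 * (1 / L) ^ t :=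
          mul_le_mul h3 h4 (by positivity) (by norm_num)
      _ = (1 / L) ^ t := one_mul _
  calc ∑ W : Finset ι, wt (L * q) W * cost q (big 𝓗 W t)
      = ∑ W : Finset ι, ∑ T ∈ big 𝓗 W t, wt (L * q) W * q ^ #T := by
        apply Finset.sum_congr rfl; intro W _; unfold cost; rw [Finset.mul_sum]
    _ ≤ ∑ W : Finset ι, ∑ T ∈ big 𝓗 W t, wt (L * q) (W ∪ T) * (1 / L) ^ t :=
        Finset.sum_le_sum (fun W _ => Finset.sum_le_sum (hterm W))
    _ = ∑ x ∈ (univ : Finset (Finset ι)).sigma (fun W => big 𝓗 W t),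
          wt (L * q) (x.1 ∪ x.2) * (1 / L) ^ t := by
        rw [Finset.sum_sigma']
    _ = ∑ y ∈ ((univ : Finset (Finset ι)).sigma (fun W => big 𝓗 W t)).image
          (fun x => (⟨x.1 ∪ x.2, x.2⟩ : Σ _ : Finset ι, Finset ι)),
          wt (L * q) y.1 * (1 / L) ^ t := by
        rw [Finset.sum_image]
        intro x hx y hy hxy
        simp only [Finset.coe_sigma, Set.mem_sigma_iff, Finset.mem_coe] at hx hy
        obtain ⟨W₁, T₁⟩ := x
        obtain ⟨W₂, T₂⟩ := y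
        simp only [Sigma.mk.injEq, heq_eq_eq] at hxy
        obtain ⟨hU, hT⟩ := hxy
        subst hT
        have d₁ : Disjoint W₁ T₁ := (Finset.mem_filter.mp hx.2).2.1.disjoint
        have d₂ : Disjoint W₂ T₁ := (Finset.mem_filter.mp hy.2).2.1.disjoint
        have : W₁ = W₂ := by
          have e₁ : (W₁ ∪ T₁) \ T₁ = W₁ := Finset.union_sdiff_cancel_right d₁
          have e₂ : (W₂ ∪ T₁) \ T₁ = W₂ := Finset.union_sdiff_cancel_right d₂
          rw [← e₁, ← e₂, hU]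
        subst this
        rfl
    _ ≤ ∑ y ∈ (univ : Finset (Finset ι)).sigma (fun Z => (χ Z).powerset),
          wt (L * q) y.1 * (1 / L) ^ t := by
        apply Finset.sum_le_sum_of_subset_of_nonneg
        · intro y hy
          obtain ⟨x, hx, rfl⟩ := Finset.mem_image.mp hy
          rw [Finset.mem_sigma] at hx ⊢
          refine ⟨Finset.mem_univ _, ?_⟩
          have hMF := (Finset.mem_filter.mp hx.2).2.1
          rw [Finset.mem_powerset]
          have hex := hχ (x.1 ∪ x.2) hMF.exists_subset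
          exact hMF.subset_of hex.1 hex.2
        · intro y _ _
          exact mul_nonneg (wt_nonneg hρ0 hρ _) (by positivity)
    _ = ∑ Z : Finset ι, ∑ T ∈ (χ Z).powerset, wt (L * q) Z * (1 / L) ^ t := by
        rw [Finset.sum_sigma']
    _ = ∑ Z : Finset ι, wt (L * q) Z * (2 ^ #(χ Z) * (1 / L) ^ t) := by
        apply Finset.sum_congr rfl; intro Z _
        rw [Finset.sum_const, Finset.card_powerset, nsmul_eq_mul]
        push_cast; ring
    _ ≤ ∑ Z : Finset ι, wt (L * q) Z * (2 ^ ℓ * (1 / L) ^ t) := by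
        apply Finset.sum_le_sum; intro Z _
        apply mul_le_mul_of_nonneg_left _ (wt_nonneg hρ0 hρ _)
        apply mul_le_mul_of_nonneg_right _ (by positivity)
        exact pow_le_pow_right₀ (by norm_num) (hχcard Z)
    _ = 2 ^ ℓ * (1 / L) ^ t := by
        rw [← Finset.sum_mul, sum_wt, one_mul]

/-! ### the rounds -/

/-- density of the union of `r` independent `ρ`-random sets -/
noncomputable def dens (ρ : ℝ) : ℕ → ℝ
  | 0 => 0
  | r + 1 => ρ + dens ρ r - ρ * dens ρ r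

/-- accumulated expected cost -/
noncomputable def eps : ℕ → ℝ
  | 0 => 0
  | r + 1 => eps r + (1 / 512) ^ (2 ^ r)

lemma dens_bounds {ρ : ℝ} (h0 : 0 ≤ ρ) (h1 : ρ ≤ 1) (r : ℕ) :
    0 ≤ dens ρ r ∧ dens ρ r ≤ 1 ∧ dens ρ r ≤ r * ρ := by
  induction r with
  | zero => simp [dens]
  | succ r ih =>
    obtain ⟨a, b, c⟩ := ih
    simp only [dens]
    refine ⟨by nlinarith, by nlinarith, ?_⟩
    push_cast
    nlinarith

lemma eps_nonneg (r : ℕ) : 0 ≤ eps r := by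
  induction r with
  | zero => simp [eps]
  | succ r ih => simp only [eps]; positivity

lemma eps_le (r : ℕ) : eps r ≤ 1 / 4 * (1 - (1 / 2) ^ r) := by
  induction r with
  | zero => simp [eps]
  | succ r ih =>
    simp only [eps]
    have h1 : ((1 : ℝ) / 512) ^ (2 ^ r) ≤ (1 / 2) ^ (r + 3) := by
      have : ((1 : ℝ) / 512) = (1 / 2) ^ 9 := by norm_num
      rw [this, ← pow_mul]
      apply pow_le_pow_of_le_one (by norm_num) (by norm_num)
      have := @Nat.lt_two_pow_self r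
      omega
    have h2 : ((1 : ℝ) / 2) ^ (r + 3) = 1 / 8 * (1 / 2) ^ r := by
      rw [pow_add]; norm_num; ring
    have h3 : ((1 : ℝ) / 2) ^ (r + 1) = 1 / 2 * (1 / 2) ^ r := by
      rw [pow_succ]; ring
    rw [h3]
    linarith

lemma eps_le_quarter (r : ℕ) : eps r ≤ 1 / 4 := by
  have h := eps_le r
  have : (0 : ℝ) ≤ (1 / 2) ^ r := by positivity
  linarith

lemma exists_min_cover (q : ℝ) (𝓗 : Finset (Finset ι)) :
    ∃ 𝒢, Covers 𝒢 𝓗 ∧ ∀ 𝒢', Covers 𝒢' 𝓗 → cost q 𝒢 ≤ cost q 𝒢' := by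
  have hne : ((univ : Finset (Finset (Finset ι))).filter (fun 𝒢 => Covers 𝒢 𝓗)).Nonempty :=
    ⟨𝓗, Finset.mem_filter.mpr ⟨Finset.mem_univ _, fun S hS => ⟨S, hS, Finset.Subset.refl _⟩⟩⟩
  obtain ⟨𝒢, h𝒢, hmin⟩ := Finset.exists_min_image _ (cost q) hne
  refine ⟨𝒢, (Finset.mem_filter.mp h𝒢).2, ?_⟩
  intro 𝒢' h'
  exact hmin 𝒢' (Finset.mem_filter.mpr ⟨Finset.mem_univ _, h'⟩)

/-- The multi-round induction. -/
theorem rounds {q : ℝ} (hq : 0 ≤ q) (hρ : 2048 * q ≤ 1) :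
    ∀ (r : ℕ) (𝓗 : Finset (Finset ι)), (∀ S ∈ 𝓗, #S < 2 ^ r) →
      ∀ κ : ℝ, (∀ 𝒢, Covers 𝒢 𝓗 → κ ≤ cost q 𝒢) →
        κ * missP (dens (2048 * q) r) 𝓗 ≤ eps r := by
  have hρ0 : 0 ≤ 2048 * q := by positivity
  intro r
  induction r with
  | zero =>
    intro 𝓗 h κ hκ
    by_cases hemp : ∅ ∈ 𝓗
    · rw [missP_of_empty_mem hemp]; simp [eps]
    · have h𝓗 : 𝓗 = ∅ := by
        apply Finset.eq_empty_of_forall_notMem
        intro S hS
        have h1 := h S hS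
        simp only [pow_zero, Nat.lt_one_iff, Finset.card_eq_zero] at h1
        exact hemp (h1 ▸ hS)
      have hk : κ ≤ 0 := by
        have := hκ ∅ (by intro S hS; rw [h𝓗] at hS; simp at hS)
        simpa [cost] using this
      have hm := missP_nonneg (le_refl (0 : ℝ)) zero_le_one 𝓗
      simp only [dens, eps]
      exact mul_nonpos_of_nonpos_of_nonneg hk hm
  | succ r ih =>
    intro 𝓗 h κ hκ
    obtain ⟨hd0, hd1, -⟩ := dens_bounds hρ0 hρ r
    obtain ⟨hd0', hd1', -⟩ := dens_bounds hρ0 hρ (r + 1)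
    rcases le_or_gt κ 0 with hκ0 | hκ0
    · exact (mul_nonpos_of_nonpos_of_nonneg hκ0 (missP_nonneg hd0' hd1' 𝓗)).trans
        (eps_nonneg _)
    · have hmin : ∀ W : Finset ι, ∃ 𝒢', Covers 𝒢' (small 𝓗 W (2 ^ r)) ∧
          ∀ 𝒢'', Covers 𝒢'' (small 𝓗 W (2 ^ r)) → cost q 𝒢' ≤ cost q 𝒢'' :=
        fun W => exists_min_cover q _
      choose G hG1 hG2 using hmin
      have hstep : ∀ W : Finset ι, κ * missP (dens (2048 * q) r) (𝓗.image (· \ W)) ≤
          cost q (big 𝓗 W (2 ^ r)) + eps r := by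
        intro W
        have hIH := ih (small 𝓗 W (2 ^ r))
          (fun S hS => (Finset.mem_filter.mp hS).2.2) (cost q (G W)) (hG2 W)
        have hκW : κ ≤ cost q (big 𝓗 W (2 ^ r)) + cost q (G W) :=
          (hκ _ (covers_big_union (hG1 W))).trans (cost_union_le hq _ _)
        have hm0 := missP_nonneg hd0 hd1 (small 𝓗 W (2 ^ r))
        have hm1 := missP_le_one hd0 hd1 (small 𝓗 W (2 ^ r))
        have hanti := missP_anti hd0 hd1 (small_subset_image 𝓗 W (2 ^ r))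
        have hb := cost_nonneg hq (big 𝓗 W (2 ^ r))
        calc κ * missP (dens (2048 * q) r) (𝓗.image (· \ W))
            ≤ κ * missP (dens (2048 * q) r) (small 𝓗 W (2 ^ r)) :=
              mul_le_mul_of_nonneg_left hanti hκ0.le
          _ ≤ (cost q (big 𝓗 W (2 ^ r)) + cost q (G W)) *
                missP (dens (2048 * q) r) (small 𝓗 W (2 ^ r)) :=
              mul_le_mul_of_nonneg_right hκW hm0
          _ = cost q (big 𝓗 W (2 ^ r)) * missP (dens (2048 * q) r) (small 𝓗 W (2 ^ r)) +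
                cost q (G W) * missP (dens (2048 * q) r) (small 𝓗 W (2 ^ r)) := by ring
          _ ≤ cost q (big 𝓗 W (2 ^ r)) * 1 + eps r :=
              add_le_add (mul_le_mul_of_nonneg_left hm1 hb) hIH
          _ = cost q (big 𝓗 W (2 ^ r)) + eps r := by ring
      have hcost := expected_big_cost 𝓗 (2 ^ (r + 1)) (2 ^ r) (fun S hS => (h S hS).le)
        (L := 2048) (q := q) (by norm_num) hq hρ
      have hnum : (2 : ℝ) ^ (2 ^ (r + 1)) * (1 / 2048) ^ (2 ^ r) = (1 / 512) ^ (2 ^ r) := by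
        have : (2 : ℕ) ^ (r + 1) = 2 * 2 ^ r := by rw [pow_succ]; ring
        rw [this, pow_mul, ← mul_pow]
        norm_num
      simp only [dens, eps]
      rw [missP_split, Finset.mul_sum]
      calc ∑ W : Finset ι, κ * (wt (2048 * q) W * missP (dens (2048 * q) r) (𝓗.image (· \ W)))
          = ∑ W : Finset ι, wt (2048 * q) W *
              (κ * missP (dens (2048 * q) r) (𝓗.image (· \ W))) := by
            apply Finset.sum_congr rfl; intro W _; ring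
        _ ≤ ∑ W : Finset ι, wt (2048 * q) W * (cost q (big 𝓗 W (2 ^ r)) + eps r) :=
            Finset.sum_le_sum (fun W _ =>
              mul_le_mul_of_nonneg_left (hstep W) (wt_nonneg hρ0 hρ W))
        _ = ∑ W : Finset ι, wt (2048 * q) W * cost q (big 𝓗 W (2 ^ r)) +
              (∑ W : Finset ι, wt (2048 * q) W) * eps r := by
            rw [Finset.sum_mul, ← Finset.sum_add_distrib]
            apply Finset.sum_congr rfl; intro W _; ring
        _ ≤ (1 / 512) ^ (2 ^ r) + 1 * eps r := by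
            rw [sum_wt, ← hnum]
            exact add_le_add hcost le_rfl
        _ = eps r + (1 / 512) ^ (2 ^ r) := by ring

lemma missP_one {𝓗 : Finset (Finset ι)} (h : 𝓗.Nonempty) : missP 1 𝓗 = 0 := by
  obtain ⟨S, hS⟩ := h
  unfold missP
  apply Finset.sum_eq_zero
  intro W _
  by_cases hW : Hits 𝓗 W
  · simp [hW]
  · have hne : W ≠ univ := by
      rintro rfl
      exact hW ⟨S, hS, Finset.subset_univ _⟩
    have hc : #Wᶜ ≠ 0 := by
      rw [Finset.card_ne_zero, Finset.nonempty_iff_ne_empty]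
      intro h0
      exact hne (Finset.compl_eq_empty_iff W |>.mp h0)
    rw [wt_eq_pow]
    simp [hc]

/-- **Park–Pham theorem**, binomial model, explicit constants (miss-probability form). -/
theorem parkPham_missP (𝓗 : Finset (Finset ι)) (ℓ : ℕ) (hℓ : ∀ S ∈ 𝓗, #S ≤ ℓ)
    {q : ℝ} (hq : 0 ≤ q) (hns : ∀ 𝒢, Covers 𝒢 𝓗 → 1 / 2 < cost q 𝒢) :
    missP (min 1 (2048 * q * (1 + Real.logb 2 (ℓ : ℝ)))) 𝓗 ≤ 1 / 2 := by
  have hlog : (Nat.log 2 ℓ : ℝ) ≤ Real.logb 2 (ℓ : ℝ) := by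
    have := Real.natLog_le_logb ℓ 2
    simpa using this
  have hlog0 : (0 : ℝ) ≤ Real.logb 2 (ℓ : ℝ) := le_trans (by positivity) hlog
  rcases le_or_gt (2048 * q) 1 with hρ | hρ
  · have hρ0 : 0 ≤ 2048 * q := by positivity
    set r := Nat.log 2 ℓ + 1 with hr
    have hsz : ∀ S ∈ 𝓗, #S < 2 ^ r := fun S hS =>
      lt_of_le_of_lt (hℓ S hS) (Nat.lt_pow_succ_log_self (by norm_num) ℓ)
    have hR := rounds hq hρ r 𝓗 hsz (1 / 2) (fun 𝒢 h𝒢 => (hns 𝒢 h𝒢).le)
    have hE := eps_le_quarter r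
    obtain ⟨hd0, hd1, hd2⟩ := dens_bounds hρ0 hρ r
    have hle : dens (2048 * q) r ≤ min 1 (2048 * q * (1 + Real.logb 2 (ℓ : ℝ))) := by
      apply le_min hd1
      refine hd2.trans ?_
      rw [hr]; push_cast
      nlinarith
    have hmono := missP_mono_density hd0 hle (min_le_left _ _) 𝓗
    linarith
  · have hc : min 1 (2048 * q * (1 + Real.logb 2 (ℓ : ℝ))) = 1 := by
      apply min_eq_left
      nlinarith
    rw [hc]
    have hne : 𝓗.Nonempty := by
      rw [Finset.nonempty_iff_ne_empty]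
      rintro rfl
      have := hns ∅ (by intro S hS; simp at hS)
      simp [cost] at this
      linarith
    rw [missP_one hne]
    norm_num

/-- **Park–Pham theorem**, in the `bernoulliProb` model of the Prelude. -/
theorem parkPham_bernoulli (𝓗 : Finset (Finset ι)) (ℓ : ℕ)
    (hℓ : ∀ S ∈ 𝓗, #S ≤ ℓ) {q : ℝ} (hq : 0 ≤ q)
    (hns : ∀ 𝒢, Covers 𝒢 𝓗 → 1 / 2 < cost q 𝒢) :
    (1 : ℝ) / 2 ≤ Crest.FinProb.bernoulliProb (min 1 (2048 * q * (1 + Real.logb 2 (ℓ : ℝ))))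
      {ω : ι → Bool | ∃ S ∈ 𝓗, ∀ x ∈ S, ω x = true} := by
  have h := parkPham_missP 𝓗 ℓ hℓ hq hns
  set c := min 1 (2048 * q * (1 + Real.logb 2 (ℓ : ℝ))) with hc
  rw [bernoulliProb_eq_sum]
  have hsum : ∑ W : Finset ι, wt c W *
      (if boolEquiv.symm W ∈ {ω : ι → Bool | ∃ S ∈ 𝓗, ∀ x ∈ S, ω x = true} then (1 : ℝ) else 0) =
      1 - missP c 𝓗 := by
    rw [eq_sub_iff_add_eq]
    unfold missP
    rw [← Finset.sum_add_distrib]
    refine Eq.trans ?_ (sum_wt (ι := ι) c)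
    apply Finset.sum_congr rfl
    intro W _
    have hiff : boolEquiv.symm W ∈ {ω : ι → Bool | ∃ S ∈ 𝓗, ∀ x ∈ S, ω x = true} ↔
        Hits 𝓗 W := by
      simp only [Set.mem_ofPred_eq, Hits, boolEquiv, Equiv.coe_fn_symm_mk, decide_eq_true_eq]
      rfl
    by_cases hW : Hits 𝓗 W
    · simp [hiff, hW]
    · simp [hiff, hW]
  rw [hsum]
  linarith

end Crest.Agent.S0076Aux.H60
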