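import Mathlib
import Crest.Prelude.Def_FinProb
import Crest.Prelude.Def_RandomGraph
import Crest.Agent.S0076Aux.ParkPham60

/-!
# S0076Aux.Graph

Transfer of the Park–Pham theorem to `gnpProb`: if the uniformly random copy of `H` in `K_n` is
`q`-spread, then `G(n, min 1 (2048 q (1 + log₂ e(H))))` contains `H` with probability `≥ 1/2`.
-/

set_option autoImplicit false
set_option linter.unusedSectionVars false

namespace Crest.Agent.S0076Aux.H60

open Finset
open Crest.CombinatoricsR.RandomGraph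
open scoped Classical

lemma bernoulliWeight_nonneg {ι : Type*} [Fintype ι] {p : ℝ} (h0 : 0 ≤ p) (h1 : p ≤ 1)
    (ω : ι → Bool) : 0 ≤ Crest.FinProb.bernoulliWeight p ω := by
  unfold Crest.FinProb.bernoulliWeight
  apply Finset.prod_nonneg
  intro i _
  split_ifs <;> linarith

lemma bernoulliProb_mono {ι : Type*} [Fintype ι] [DecidableEq ι] {p : ℝ} (h0 : 0 ≤ p)
    (h1 : p ≤ 1) {E E' : Set (ι → Bool)} (h : E ⊆ E') :
    Crest.FinProb.bernoulliProb p E ≤ Crest.FinProb.bernoulliProb p E' := by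
  unfold Crest.FinProb.bernoulliProb
  apply Finset.sum_le_sum_of_subset_of_nonneg
  · intro ω hω
    rw [Finset.mem_filter] at hω ⊢
    exact ⟨hω.1, h hω.2⟩
  · intro ω _ _
    exact bernoulliWeight_nonneg h0 h1 ω

variable {n : ℕ} {W : Type} [Fintype W] [DecidableEq W] (H : SimpleGraph W) [DecidableRel H.Adj]

/-- The set of edge slots of `K_n` used by the copy `f(H)`. -/
noncomputable def slots (f : W ↪ Fin n) : Finset (EdgeSlot n) :=
  univ.filter (fun z => ∃ e ∈ H.edgeFinset, Sym2.map f e = z.1)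

lemma mem_slots (f : W ↪ Fin n) (z : EdgeSlot n) :
    z ∈ slots H f ↔ ∃ e ∈ H.edgeFinset, Sym2.map f e = z.1 := by
  simp [slots]

lemma card_slots_le (f : W ↪ Fin n) : #(slots H f) ≤ #H.edgeFinset := by
  calc #(slots H f) = #((slots H f).image Subtype.val) :=
        (Finset.card_image_of_injective _ Subtype.val_injective).symm
    _ ≤ #(H.edgeFinset.image (Sym2.map f)) := by
        apply Finset.card_le_card
        intro z hz
        obtain ⟨z', hz', rfl⟩ := Finset.mem_image.mp hz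
        obtain ⟨e, he, hez⟩ := (mem_slots H f z').mp hz'
        exact Finset.mem_image.mpr ⟨e, he, hez⟩
    _ ≤ #H.edgeFinset := Finset.card_image_le

lemma isContained_of_slots (f : W ↪ Fin n) (ω : EdgeSlot n → Bool)
    (h : ∀ z ∈ slots H f, ω z = true) : H.IsContained (graphOf ω) := by
  refine ⟨⟨⟨f, ?_⟩, f.injective⟩⟩
  intro u v huv
  have hne : f u ≠ f v := fun he => huv.ne (f.injective he)
  unfold graphOf
  rw [SimpleGraph.fromEdgeSet_adj]
  refine ⟨?_, hne⟩
  have hd : ¬ (s(f u, f v) : Sym2 (Fin n)).IsDiag := by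
    simpa using hne
  refine ⟨hd, h _ ?_⟩
  rw [mem_slots]
  exact ⟨s(u, v), by simpa using huv, by simp⟩

/-- **Spread ⇒ containment.**  If the uniformly random copy of `H` is `q`-spread then
`G(n, min 1 (2048 q (1 + log₂ e(H))))` contains a copy of `H` with probability at least `1/2`. -/
theorem gnpProb_isContained_of_spread (hW : Fintype.card W ≤ n) (hH : 1 ≤ #H.edgeFinset)
    {q : ℝ} (hq : 0 ≤ q)
    (hspread : ∀ T : Finset (EdgeSlot n), T.Nonempty →
      (#(univ.filter (fun f : W ↪ Fin n => T ⊆ slots H f)) : ℝ) ≤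
        q ^ #T * (Fintype.card (W ↪ Fin n) : ℝ)) :
    (1 : ℝ) / 2 ≤ gnpProb n (min 1 (2048 * q * (1 + Real.logb 2 (#H.edgeFinset : ℝ))))
      {G | H.IsContained G} := by
  set 𝓗 : Finset (Finset (EdgeSlot n)) := (univ : Finset (W ↪ Fin n)).image (slots H) with h𝓗
  have hcard : 0 < Fintype.card (W ↪ Fin n) := by
    rw [Fintype.card_pos_iff]
    exact Function.Embedding.nonempty_of_card_le (by simpa using hW)
  have hcardR : (0 : ℝ) < (Fintype.card (W ↪ Fin n) : ℝ) := by exact_mod_cast hcard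
  have hbd : ∀ S ∈ 𝓗, #S ≤ #H.edgeFinset := by
    intro S hS
    obtain ⟨f, _, rfl⟩ := Finset.mem_image.mp hS
    exact card_slots_le H f
  have hns : ∀ 𝒢, Covers 𝒢 𝓗 → 1 / 2 < cost q 𝒢 := by
    intro 𝒢 h𝒢
    have h1 : (univ : Finset (W ↪ Fin n)) ⊆
        𝒢.biUnion (fun T => univ.filter (fun f : W ↪ Fin n => T ⊆ slots H f)) := by
      intro f _
      obtain ⟨T, hT, hTf⟩ := h𝒢 (slots H f) (Finset.mem_image_of_mem _ (Finset.mem_univ f))
      exact Finset.mem_biUnion.mpr ⟨T, hT, Finset.mem_filter.mpr ⟨Finset.mem_univ _, hTf⟩⟩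
    have h2 : Fintype.card (W ↪ Fin n) ≤
        ∑ T ∈ 𝒢, #(univ.filter (fun f : W ↪ Fin n => T ⊆ slots H f)) := by
      calc Fintype.card (W ↪ Fin n) = #(univ : Finset (W ↪ Fin n)) := rfl
        _ ≤ _ := Finset.card_le_card h1
        _ ≤ _ := Finset.card_biUnion_le
    have h3 : (Fintype.card (W ↪ Fin n) : ℝ) ≤ cost q 𝒢 * (Fintype.card (W ↪ Fin n) : ℝ) := by
      calc (Fintype.card (W ↪ Fin n) : ℝ)
          ≤ ((∑ T ∈ 𝒢, #(univ.filter (fun f : W ↪ Fin n => T ⊆ slots H f)) : ℕ) : ℝ) := by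
            exact_mod_cast h2
        _ = ∑ T ∈ 𝒢, (#(univ.filter (fun f : W ↪ Fin n => T ⊆ slots H f)) : ℝ) := by
            push_cast; rfl
        _ ≤ ∑ T ∈ 𝒢, q ^ #T * (Fintype.card (W ↪ Fin n) : ℝ) := by
            apply Finset.sum_le_sum
            intro T _
            rcases T.eq_empty_or_nonempty with rfl | hne
            · simp only [Finset.card_empty, pow_zero, one_mul]
              exact_mod_cast Finset.card_le_univ _
            · exact hspread T hne
        _ = cost q 𝒢 * (Fintype.card (W ↪ Fin n) : ℝ) := by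
            unfold cost; rw [Finset.sum_mul]
    have h4 : 1 ≤ cost q 𝒢 := by
      by_contra hlt
      push Not at hlt
      nlinarith
    linarith
  have hPP := parkPham_bernoulli 𝓗 #H.edgeFinset hbd hq hns
  refine hPP.trans ?_
  unfold gnpProb
  have hlog : 0 ≤ Real.logb 2 (#H.edgeFinset : ℝ) :=
    Real.logb_nonneg (by norm_num) (by exact_mod_cast hH)
  apply bernoulliProb_mono (le_min zero_le_one (by positivity)) (min_le_left _ _)
  rintro ω ⟨S, hS, hω⟩
  obtain ⟨f, _, rfl⟩ := Finset.mem_image.mp hS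
  exact isContained_of_slots H f ω hω

end Crest.Agent.S0076Aux.H60
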