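import Mathlib
import Crest.Prelude.Def_FinProb

/-!
# Product (Bernoulli) weights on finite sets  (helper35, insurance for S0076)

`wt p A = ∏ i, if i ∈ A then p else 1 - p`.  Total mass, union identity, monotonicity of
"failure" events, change of measure, bridge to `Crest.FinProb.bernoulliProb`.
-/

set_option autoImplicit false

namespace Crest.Agent.S0076Aux

open Finset

variable {ι : Type*} [Fintype ι] [DecidableEq ι]

/-- weight of the finite set `A` under the product measure of density `p`. -/
noncomputable def wt (p : ℝ) (A : Finset ι) : ℝ := ∏ i, if i ∈ A then p else 1 - p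

lemma wt_nonneg {p : ℝ} (h0 : 0 ≤ p) (h1 : p ≤ 1) (A : Finset ι) : 0 ≤ wt p A := by
  unfold wt
  refine Finset.prod_nonneg fun i _ => ?_
  split_ifs
  · exact h0
  · linarith

/-- the equivalence between outcomes and finite sets. -/
def outEquiv : (ι → Bool) ≃ Finset ι where
  toFun ω := Finset.univ.filter fun i => ω i = true
  invFun A := fun i => decide (i ∈ A)
  left_inv ω := by
    funext i
    simp
  right_inv A := by
    ext i
    simp

lemma mem_outEquiv (ω : ι → Bool) (i : ι) : i ∈ outEquiv ω ↔ ω i = true := by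
  simp [outEquiv]

lemma bernoulliWeight_eq_wt (p : ℝ) (ω : ι → Bool) :
    Crest.FinProb.bernoulliWeight p ω = wt p (outEquiv ω) := by
  unfold Crest.FinProb.bernoulliWeight wt
  refine Finset.prod_congr rfl fun i _ => ?_
  simp [mem_outEquiv]

/-- sums over outcomes are sums over finite sets. -/
lemma sum_outcomes (p : ℝ) (f : Finset ι → ℝ) :
    ∑ ω : ι → Bool, Crest.FinProb.bernoulliWeight p ω * f (outEquiv ω)
      = ∑ A : Finset ι, wt p A * f A := by
  rw [← Equiv.sum_comp (outEquiv (ι := ι)) (fun A => wt p A * f A)]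
  refine Finset.sum_congr rfl fun ω _ => ?_
  rw [bernoulliWeight_eq_wt]

/-- the union identity at the level of outcomes. -/
lemma union_identity_out (p₁ p₂ : ℝ) (f : (ι → Bool) → ℝ) :
    ∑ ω₁ : ι → Bool, ∑ ω₂ : ι → Bool,
        Crest.FinProb.bernoulliWeight p₁ ω₁ * Crest.FinProb.bernoulliWeight p₂ ω₂ *
          f (fun i => ω₁ i || ω₂ i)
      = ∑ ω : ι → Bool, Crest.FinProb.bernoulliWeight (1 - (1 - p₁) * (1 - p₂)) ω * f ω := by
  classical
  -- pass to functions into `Bool × Bool`
  set g : Bool × Bool → ℝ := fun y => (if y.1 then p₁ else 1 - p₁) * (if y.2 then p₂ else 1 - p₂)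
    with hg
  have h1 : ∑ ω₁ : ι → Bool, ∑ ω₂ : ι → Bool,
        Crest.FinProb.bernoulliWeight p₁ ω₁ * Crest.FinProb.bernoulliWeight p₂ ω₂ *
          f (fun i => ω₁ i || ω₂ i)
      = ∑ x : ι → Bool × Bool, (∏ i, g (x i)) * f (fun i => (x i).1 || (x i).2) := by
    rw [← Finset.sum_product' (s := Finset.univ) (t := Finset.univ)
      (f := fun ω₁ ω₂ : ι → Bool => Crest.FinProb.bernoulliWeight p₁ ω₁ *
        Crest.FinProb.bernoulliWeight p₂ ω₂ * f (fun i => ω₁ i || ω₂ i))]
    rw [Finset.univ_product_univ]
    rw [← Equiv.sum_comp (Equiv.arrowProdEquivProdArrow ι (fun _ => Bool) (fun _ => Bool))]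
    refine Finset.sum_congr rfl fun x _ => ?_
    simp only [Equiv.arrowProdEquivProdArrow, Equiv.coe_fn_mk, hg,
      Crest.FinProb.bernoulliWeight, Finset.prod_mul_distrib]
    rfl
  rw [h1]
  rw [← Finset.sum_fiberwise (s := Finset.univ)
    (g := fun x : ι → Bool × Bool => (fun i => (x i).1 || (x i).2))]
  refine Finset.sum_congr rfl fun ω _ => ?_
  have h2 : (Finset.univ.filter fun x : ι → Bool × Bool => (fun i => (x i).1 || (x i).2) = ω)
      = Fintype.piFinset (fun i => Finset.univ.filter fun y : Bool × Bool => (y.1 || y.2) = ω i) := by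
    ext x
    simp only [Finset.mem_filter, Finset.mem_univ, true_and, Fintype.mem_piFinset]
    constructor
    · intro h i
      exact congrFun h i
    · intro h
      funext i
      exact h i
  have h3 : ∑ x ∈ Finset.univ.filter
        (fun x : ι → Bool × Bool => (fun i => (x i).1 || (x i).2) = ω),
        (∏ i, g (x i)) * f (fun i => (x i).1 || (x i).2)
      = (∑ x ∈ Finset.univ.filter
        (fun x : ι → Bool × Bool => (fun i => (x i).1 || (x i).2) = ω), ∏ i, g (x i)) * f ω := by
    rw [Finset.sum_mul]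
    refine Finset.sum_congr rfl fun x hx => ?_
    rw [(Finset.mem_filter.1 hx).2]
  rw [h3, h2, ← Finset.prod_univ_sum]
  congr 1
  unfold Crest.FinProb.bernoulliWeight
  refine Finset.prod_congr rfl fun i _ => ?_
  have hu : (Finset.univ : Finset (Bool × Bool))
      = {(true, true), (true, false), (false, true), (false, false)} := by decide
  cases hω : ω i
  · have : (Finset.univ.filter fun y : Bool × Bool => (y.1 || y.2) = false)
        = {(false, false)} := by decide
    rw [this]
    simp [hg]
  · have : (Finset.univ.filter fun y : Bool × Bool => (y.1 || y.2) = true)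
        = {(true, true), (true, false), (false, true)} := by decide
    rw [this]
    simp [hg]
    ring

lemma outEquiv_or (ω₁ ω₂ : ι → Bool) :
    outEquiv (fun i => ω₁ i || ω₂ i) = outEquiv ω₁ ∪ outEquiv ω₂ := by
  ext i
  simp [mem_outEquiv]

/-- the union identity: the union of independent `p₁`- and `p₂`-random sets is
`1 - (1 - p₁)(1 - p₂)`-random. -/
lemma union_identity (p₁ p₂ : ℝ) (f : Finset ι → ℝ) :
    ∑ A : Finset ι, ∑ B : Finset ι, wt p₁ A * wt p₂ B * f (A ∪ B)
      = ∑ C : Finset ι, wt (1 - (1 - p₁) * (1 - p₂)) C * f C := by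
  rw [← sum_outcomes, ← union_identity_out]
  rw [← Equiv.sum_comp (outEquiv (ι := ι))]
  refine Finset.sum_congr rfl fun ω₁ _ => ?_
  rw [← Equiv.sum_comp (outEquiv (ι := ι))]
  refine Finset.sum_congr rfl fun ω₂ _ => ?_
  rw [bernoulliWeight_eq_wt, bernoulliWeight_eq_wt, outEquiv_or]

lemma sum_wt (p : ℝ) : ∑ A : Finset ι, wt p A = 1 := by
  have h := sum_outcomes (ι := ι) p (fun _ => 1)
  simp only [mul_one] at h
  rw [← h]
  unfold Crest.FinProb.bernoulliWeight
  have h2 := Finset.prod_univ_sum (fun _ : ι => (Finset.univ : Finset Bool))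
    (fun _ b => if b = true then p else 1 - p)
  rw [Fintype.piFinset_univ] at h2
  rw [← h2]
  simp

/-- change of measure. -/
lemma wt_mul_pow_of_disjoint (r : ℝ) {W T : Finset ι} (h : Disjoint W T) :
    wt r W * r ^ T.card = wt r (W ∪ T) * (1 - r) ^ T.card := by
  have e1 : r ^ T.card = ∏ i : ι, if i ∈ T then r else 1 := by
    rw [Finset.prod_ite_mem, Finset.univ_inter, Finset.prod_const]
  have e2 : (1 - r) ^ T.card = ∏ i : ι, if i ∈ T then (1 - r) else 1 := by
    rw [Finset.prod_ite_mem, Finset.univ_inter, Finset.prod_const]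
  rw [e1, e2]
  unfold wt
  rw [← Finset.prod_mul_distrib, ← Finset.prod_mul_distrib]
  refine Finset.prod_congr rfl fun i _ => ?_
  by_cases hT : i ∈ T
  · have hW : i ∉ W := fun hW => (Finset.disjoint_left.1 h hW) hT
    simp [hT, hW, mul_comm]
  · by_cases hW : i ∈ W <;> simp [hT, hW]

/-- expectation of an antitone function decreases with the density. -/
lemma sum_wt_antitone {p p' : ℝ} (h0 : 0 ≤ p) (hpp : p ≤ p') (h1 : p' ≤ 1)
    (f : Finset ι → ℝ) (hf : ∀ A B : Finset ι, A ⊆ B → f B ≤ f A) :
    ∑ A : Finset ι, wt p' A * f A ≤ ∑ A : Finset ι, wt p A * f A := by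
  rcases eq_or_lt_of_le (hpp.trans h1) with hp1 | hp1
  · have : p' = p := le_antisymm (by linarith) hpp
    rw [this]
  · set r : ℝ := (p' - p) / (1 - p) with hr
    have hpos : 0 < 1 - p := by linarith
    have hr0 : 0 ≤ r := div_nonneg (by linarith) hpos.le
    have hr1 : r ≤ 1 := by
      rw [hr, div_le_one hpos]; linarith
    have hp' : p' = 1 - (1 - p) * (1 - r) := by
      rw [hr]; field_simp; ring
    rw [hp', ← union_identity]
    refine Finset.sum_le_sum fun A _ => ?_
    calc ∑ B : Finset ι, wt p A * wt r B * f (A ∪ B)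
        ≤ ∑ B : Finset ι, wt p A * wt r B * f A := by
          refine Finset.sum_le_sum fun B _ => ?_
          exact mul_le_mul_of_nonneg_left (hf _ _ Finset.subset_union_left)
            (mul_nonneg (wt_nonneg h0 (hpp.trans h1) A) (wt_nonneg hr0 hr1 B))
      _ = wt p A * f A := by
          have : ∀ B : Finset ι, wt p A * wt r B * f A = (wt p A * f A) * wt r B := by
            intro B; ring
          simp_rw [this]
          rw [← Finset.mul_sum, sum_wt, mul_one]

/-- bridge to `bernoulliProb`. -/
lemma bernoulliProb_eq (p : ℝ) (E : Set (ι → Bool)) [DecidablePred fun A : Finset ι => outEquiv.symm A ∈ E] :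
    Crest.FinProb.bernoulliProb p E
      = ∑ A : Finset ι, wt p A * (if outEquiv.symm A ∈ E then 1 else 0) := by
  classical
  unfold Crest.FinProb.bernoulliProb
  rw [← sum_outcomes, Finset.sum_filter]
  refine Finset.sum_congr rfl fun ω _ => ?_
  simp only [Equiv.symm_apply_apply]
  split_ifs <;> simp

end Crest.Agent.S0076Aux
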