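import Mathlib
import Crest.Agent.S0076Aux.H35_Bern

/-!
# One Park–Pham round: minimum fragments and their cost  (helper35, insurance for S0076)
-/

set_option autoImplicit false
set_option linter.unusedSectionVars false

namespace Crest.Agent.S0076Aux

open Finset

variable {ι : Type*} [Fintype ι] [DecidableEq ι] {α : Type*}

lemma frag_aux (Φ : Finset α) (E : α → Finset ι) (W : Finset ι) (a : α) (h : a ∈ Φ) :
    ∃ b ∈ Φ.filter (fun b => E b ⊆ W ∪ E a),
      ∀ b' ∈ Φ.filter (fun b => E b ⊆ W ∪ E a), (E b \ W).card ≤ (E b' \ W).card :=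
  Finset.exists_min_image _ (fun b => (E b \ W).card)
    ⟨a, Finset.mem_filter.2 ⟨h, Finset.subset_union_right⟩⟩

open Classical in
/-- the minimum fragment of `E a` with respect to `W` (inside the family `E b`, `b ∈ Φ`). -/
noncomputable def frag (Φ : Finset α) (E : α → Finset ι) (W : Finset ι) (a : α) : Finset ι :=
  if h : a ∈ Φ then E (Classical.choose (frag_aux Φ E W a h)) \ W else ∅

lemma frag_spec (Φ : Finset α) (E : α → Finset ι) (W : Finset ι) {a : α} (h : a ∈ Φ) :
    ∃ b ∈ Φ, E b ⊆ W ∪ E a ∧ frag Φ E W a = E b \ W ∧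
      ∀ b' ∈ Φ, E b' ⊆ W ∪ E a → (E b \ W).card ≤ (E b' \ W).card := by
  have hs := Classical.choose_spec (frag_aux Φ E W a h)
  refine ⟨Classical.choose (frag_aux Φ E W a h), (Finset.mem_filter.1 hs.1).1,
    (Finset.mem_filter.1 hs.1).2, ?_, ?_⟩
  · simp [frag, h]
  · intro b' hb' hsub
    exact hs.2 b' (Finset.mem_filter.2 ⟨hb', hsub⟩)

lemma frag_subset (Φ : Finset α) (E : α → Finset ι) (W : Finset ι) {a : α} (h : a ∈ Φ) :
    frag Φ E W a ⊆ E a := by
  obtain ⟨b, _, hsub, he, _⟩ := frag_spec Φ E W h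
  rw [he]
  intro i hi
  rw [Finset.mem_sdiff] at hi
  rcases Finset.mem_union.1 (hsub hi.1) with h1 | h1
  · exact absurd h1 hi.2
  · exact h1

lemma frag_disjoint (Φ : Finset α) (E : α → Finset ι) (W : Finset ι) {a : α} (h : a ∈ Φ) :
    Disjoint W (frag Φ E W a) := by
  obtain ⟨b, _, _, he, _⟩ := frag_spec Φ E W h
  rw [he]
  exact Finset.disjoint_sdiff

lemma frag_exists (Φ : Finset α) (E : α → Finset ι) (W : Finset ι) {a : α} (h : a ∈ Φ) :
    ∃ b ∈ Φ, frag Φ E W a = E b \ W := by
  obtain ⟨b, hb, _, he, _⟩ := frag_spec Φ E W h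
  exact ⟨b, hb, he⟩

lemma frag_unique (Φ : Finset α) (E : α → Finset ι) (W : Finset ι) {a : α} (h : a ∈ Φ)
    {b' : α} (hb' : b' ∈ Φ) (hsub : E b' ⊆ W ∪ frag Φ E W a) :
    E b' \ W = frag Φ E W a := by
  obtain ⟨b, _, _, he, hmin⟩ := frag_spec Φ E W h
  have h1 : E b' ⊆ W ∪ E a :=
    hsub.trans (Finset.union_subset_union_right (frag_subset Φ E W h))
  have h2 : E b' \ W ⊆ frag Φ E W a := by
    intro i hi
    rw [Finset.mem_sdiff] at hi
    rcases Finset.mem_union.1 (hsub hi.1) with h3 | h3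
    · exact absurd h3 hi.2
    · exact h3
  refine Finset.eq_of_subset_of_card_le h2 ?_
  rw [he]
  exact hmin b' hb' h1

open Classical in
/-- the family of large fragments. -/
noncomputable def bigFrags (Φ : Finset α) (E : α → Finset ι) (m : ℕ) (W : Finset ι) :
    Finset (Finset ι) :=
  (Φ.filter fun a => m ≤ (frag Φ E W a).card).image (frag Φ E W)

lemma mem_bigFrags {Φ : Finset α} {E : α → Finset ι} {m : ℕ} {W T : Finset ι} :
    T ∈ bigFrags Φ E m W ↔ ∃ a ∈ Φ, m ≤ (frag Φ E W a).card ∧ frag Φ E W a = T := by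
  classical
  simp [bigFrags, and_assoc]

/-- number of pairs `(W, T)` with `T` a big fragment for `W` and `W ∪ T = Z`. -/
lemma card_fiber_le (Φ : Finset α) (E : α → Finset ι) (m ℓ : ℕ)
    (hℓ : ∀ a ∈ Φ, (E a).card ≤ ℓ) (Z : Finset ι) :
    (((Finset.univ : Finset (Finset ι)).sigma (fun W => bigFrags Φ E m W)).filter
      (fun x => x.1 ∪ x.2 = Z)).card ≤ 2 ^ ℓ := by
  classical
  set F := ((Finset.univ : Finset (Finset ι)).sigma (fun W => bigFrags Φ E m W)).filter
      (fun x => x.1 ∪ x.2 = Z) with hF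
  by_cases hne : F.Nonempty
  · obtain ⟨x0, hx0⟩ := hne
    rw [hF, Finset.mem_filter, Finset.mem_sigma] at hx0
    obtain ⟨a0, ha0, _, hT0⟩ := mem_bigFrags.1 hx0.1.2
    obtain ⟨b0, hb0, hb0e⟩ := frag_exists Φ E x0.1 ha0
    have hb0Z : E b0 ⊆ Z := by
      rw [← hx0.2, ← hT0, hb0e]
      intro i hi
      by_cases hiW : i ∈ x0.1
      · exact Finset.mem_union_left _ hiW
      · exact Finset.mem_union_right _ (Finset.mem_sdiff.2 ⟨hi, hiW⟩)
    calc F.card ≤ (E b0).powerset.card := by
          refine Finset.card_le_card_of_injOn (fun x => x.2) ?_ ?_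
          · intro x hx
            have hx' := hx
            rw [Finset.mem_coe, hF, Finset.mem_filter, Finset.mem_sigma] at hx'
            obtain ⟨a, ha, _, hT⟩ := mem_bigFrags.1 hx'.1.2
            have : E b0 \ x.1 = frag Φ E x.1 a := by
              apply frag_unique Φ E x.1 ha hb0
              rw [hT, hx'.2]
              exact hb0Z
            rw [Finset.mem_coe, Finset.mem_powerset]
            show x.2 ⊆ E b0
            rw [← hT, ← this]
            exact Finset.sdiff_subset
          · intro x hx y hy hxy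
            have hx' := hx
            have hy' := hy
            rw [Finset.mem_coe, hF, Finset.mem_filter, Finset.mem_sigma] at hx' hy'
            obtain ⟨a, ha, _, hT⟩ := mem_bigFrags.1 hx'.1.2
            obtain ⟨a', ha', _, hT'⟩ := mem_bigFrags.1 hy'.1.2
            have d1 : Disjoint x.1 x.2 := hT ▸ frag_disjoint Φ E x.1 ha
            have d2 : Disjoint y.1 y.2 := hT' ▸ frag_disjoint Φ E y.1 ha'
            have e1 : x.1 = Z \ x.2 := by
              rw [← hx'.2, Finset.union_sdiff_cancel_right d1]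
            have e2 : y.1 = Z \ y.2 := by
              rw [← hy'.2, Finset.union_sdiff_cancel_right d2]
            have hxy' : x.2 = y.2 := hxy
            have e3 : x.1 = y.1 := by rw [e1, e2, hxy']
            cases x; cases y
            simp only at e3 hxy'
            subst e3; subst hxy'
            rfl
      _ = 2 ^ (E b0).card := Finset.card_powerset _
      _ ≤ 2 ^ ℓ := Nat.pow_le_pow_right (by norm_num) (hℓ b0 hb0)
  · rw [Finset.not_nonempty_iff_eq_empty] at hne
    rw [hne]
    simp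

/-- expected cost of the big fragments. -/
lemma cost_bigFrags (Φ : Finset α) (E : α → Finset ι) (m ℓ : ℕ)
    (hℓ : ∀ a ∈ Φ, (E a).card ≤ ℓ) {q r K : ℝ} (hq : 0 ≤ q) (hK : 1 ≤ K) (hqr : K * q ≤ r)
    (hr1 : r ≤ 1) :
    ∑ W : Finset ι, wt r W * ∑ T ∈ bigFrags Φ E m W, q ^ T.card ≤ 2 ^ ℓ * (1 / K) ^ m := by
  classical
  have hK0 : 0 < K := by linarith
  have hr0 : 0 ≤ r := le_trans (mul_nonneg hK0.le hq) hqr
  have hKinv0 : 0 ≤ 1 / K := by positivity
  have hKinv1 : 1 / K ≤ 1 := by
    rw [div_le_one hK0]; exact hK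
  -- termwise bound
  have hterm : ∀ W : Finset ι, ∀ T ∈ bigFrags Φ E m W,
      wt r W * q ^ T.card ≤ (1 / K) ^ m * wt r (W ∪ T) := by
    intro W T hT
    obtain ⟨a, ha, hm, hTe⟩ := mem_bigFrags.1 hT
    have hd : Disjoint W T := hTe ▸ frag_disjoint Φ E W ha
    have hm' : m ≤ T.card := hTe ▸ hm
    have hq' : q ≤ (1 / K) * r := by
      rw [one_div, le_inv_mul_iff₀ hK0]; exact hqr
    have h1 : q ^ T.card ≤ (1 / K) ^ T.card * r ^ T.card := by
      rw [← mul_pow]
      exact pow_le_pow_left₀ hq hq' _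
    have hw := wt_nonneg hr0 hr1 W
    have hw2 := wt_nonneg hr0 hr1 (W ∪ T)
    calc wt r W * q ^ T.card ≤ wt r W * ((1 / K) ^ T.card * r ^ T.card) :=
          mul_le_mul_of_nonneg_left h1 hw
      _ = (1 / K) ^ T.card * (wt r W * r ^ T.card) := by ring
      _ = (1 / K) ^ T.card * (wt r (W ∪ T) * (1 - r) ^ T.card) := by
          rw [wt_mul_pow_of_disjoint r hd]
      _ ≤ (1 / K) ^ m * (wt r (W ∪ T) * 1) := by
          apply mul_le_mul
          · exact pow_le_pow_of_le_one hKinv0 hKinv1 hm'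
          · apply mul_le_mul_of_nonneg_left _ hw2
            exact pow_le_one₀ (by linarith) (by linarith)
          · exact mul_nonneg hw2 (pow_nonneg (by linarith) _)
          · exact pow_nonneg hKinv0 _
      _ = (1 / K) ^ m * wt r (W ∪ T) := by ring
  calc ∑ W : Finset ι, wt r W * ∑ T ∈ bigFrags Φ E m W, q ^ T.card
      = ∑ W : Finset ι, ∑ T ∈ bigFrags Φ E m W, wt r W * q ^ T.card := by
        refine Finset.sum_congr rfl fun W _ => ?_
        rw [Finset.mul_sum]
    _ ≤ ∑ W : Finset ι, ∑ T ∈ bigFrags Φ E m W, (1 / K) ^ m * wt r (W ∪ T) :=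
        Finset.sum_le_sum fun W _ => Finset.sum_le_sum fun T hT => hterm W T hT
    _ = ∑ x ∈ (Finset.univ : Finset (Finset ι)).sigma (fun W => bigFrags Φ E m W),
          (1 / K) ^ m * wt r (x.1 ∪ x.2) := by
        rw [Finset.sum_sigma']
    _ = ∑ Z : Finset ι, ∑ x ∈ ((Finset.univ : Finset (Finset ι)).sigma
          (fun W => bigFrags Φ E m W)).filter (fun x => x.1 ∪ x.2 = Z),
          (1 / K) ^ m * wt r (x.1 ∪ x.2) := by
        rw [Finset.sum_fiberwise]
    _ ≤ ∑ Z : Finset ι, (2 ^ ℓ * (1 / K) ^ m) * wt r Z := by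
        refine Finset.sum_le_sum fun Z _ => ?_
        have hc := card_fiber_le Φ E m ℓ hℓ Z
        calc ∑ x ∈ ((Finset.univ : Finset (Finset ι)).sigma
              (fun W => bigFrags Φ E m W)).filter (fun x => x.1 ∪ x.2 = Z),
              (1 / K) ^ m * wt r (x.1 ∪ x.2)
            = ∑ x ∈ ((Finset.univ : Finset (Finset ι)).sigma
              (fun W => bigFrags Φ E m W)).filter (fun x => x.1 ∪ x.2 = Z),
              (1 / K) ^ m * wt r Z := by
              refine Finset.sum_congr rfl fun x hx => ?_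
              rw [(Finset.mem_filter.1 hx).2]
          _ = ((((Finset.univ : Finset (Finset ι)).sigma
              (fun W => bigFrags Φ E m W)).filter (fun x => x.1 ∪ x.2 = Z)).card : ℝ) *
              ((1 / K) ^ m * wt r Z) := by
              rw [Finset.sum_const, nsmul_eq_mul]
          _ ≤ (2 ^ ℓ : ℝ) * ((1 / K) ^ m * wt r Z) := by
              apply mul_le_mul_of_nonneg_right
              · exact_mod_cast hc
              · exact mul_nonneg (pow_nonneg hKinv0 _) (wt_nonneg hr0 hr1 Z)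
          _ = (2 ^ ℓ * (1 / K) ^ m) * wt r Z := by ring
    _ = 2 ^ ℓ * (1 / K) ^ m := by
        rw [← Finset.mul_sum, sum_wt, mul_one]

end Crest.Agent.S0076Aux
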