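import Mathlib
import Crest.Agent.S0076Aux.H35_Round

/-!
# Park–Pham for spread weights, binomial model  (helper35, insurance for S0076)

`pp_main`: if `w ≥ 0` is a weight of total mass one on an indexed family `E a` (`a ∈ Φ`) of sets of
size `≤ h` with `∑_{a : I ⊆ E a} w a ≤ q ^ |I|` for all `I`, then a random set of density
`min 1 (2048 q (1 + log₂ h))` contains some `E a` with probability at least `1/2`.
-/

set_option autoImplicit false
set_option linter.unusedSectionVars false

namespace Crest.Agent.S0076Aux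

open Finset

variable {ι : Type*} [Fintype ι] [DecidableEq ι] {α : Type*}

open Classical in
/-- indicator of failure. -/
noncomputable def failInd (Φ : Finset α) (E : α → Finset ι) (W : Finset ι) : ℝ :=
  if ∃ a ∈ Φ, E a ⊆ W then 0 else 1

lemma failInd_nonneg (Φ : Finset α) (E : α → Finset ι) (W : Finset ι) : 0 ≤ failInd Φ E W := by
  unfold failInd; split_ifs <;> norm_num

lemma failInd_le_one (Φ : Finset α) (E : α → Finset ι) (W : Finset ι) : failInd Φ E W ≤ 1 := by
  unfold failInd; split_ifs <;> norm_num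

lemma failInd_antitone (Φ : Finset α) (E : α → Finset ι) (A B : Finset ι) (h : A ⊆ B) :
    failInd Φ E B ≤ failInd Φ E A := by
  unfold failInd
  by_cases hA : ∃ a ∈ Φ, E a ⊆ A
  · have hB : ∃ a ∈ Φ, E a ⊆ B := by
      obtain ⟨a, ha, hs⟩ := hA
      exact ⟨a, ha, hs.trans h⟩
    simp [hA, hB]
  · rw [if_neg hA]
    split_ifs <;> norm_num

/-- failure probability. -/
noncomputable def Fail (p : ℝ) (Φ : Finset α) (E : α → Finset ι) : ℝ :=
  ∑ W : Finset ι, wt p W * failInd Φ E W

lemma Fail_nonneg {p : ℝ} (h0 : 0 ≤ p) (h1 : p ≤ 1) (Φ : Finset α) (E : α → Finset ι) :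
    0 ≤ Fail p Φ E :=
  Finset.sum_nonneg fun W _ => mul_nonneg (wt_nonneg h0 h1 W) (failInd_nonneg Φ E W)

lemma Fail_le_one {p : ℝ} (h0 : 0 ≤ p) (h1 : p ≤ 1) (Φ : Finset α) (E : α → Finset ι) :
    Fail p Φ E ≤ 1 := by
  unfold Fail
  calc ∑ W : Finset ι, wt p W * failInd Φ E W ≤ ∑ W : Finset ι, wt p W * 1 :=
        Finset.sum_le_sum fun W _ =>
          mul_le_mul_of_nonneg_left (failInd_le_one Φ E W) (wt_nonneg h0 h1 W)
    _ = 1 := by simp [sum_wt]

open Classical in
/-- weight of the indices with a big fragment is at most the cost of the big fragments. -/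
lemma weight_big_le (Φ : Finset α) (E : α → Finset ι) (w : α → ℝ) (q : ℝ) (m : ℕ) (W : Finset ι)
    (hw : ∀ a ∈ Φ, 0 ≤ w a)
    (hsp : ∀ I : Finset ι, ∑ a ∈ Φ.filter (fun a => I ⊆ E a), w a ≤ q ^ I.card) :
    ∑ a ∈ Φ.filter (fun a => m ≤ (frag Φ E W a).card), w a
      ≤ ∑ T ∈ bigFrags Φ E m W, q ^ T.card := by
  have hmaps : ∀ a ∈ Φ.filter (fun a => m ≤ (frag Φ E W a).card),
      frag Φ E W a ∈ bigFrags Φ E m W := by
    intro a ha
    rw [Finset.mem_filter] at ha
    exact mem_bigFrags.2 ⟨a, ha.1, ha.2, rfl⟩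
  rw [← Finset.sum_fiberwise_of_maps_to hmaps]
  refine Finset.sum_le_sum fun T _ => ?_
  refine le_trans ?_ (hsp T)
  refine Finset.sum_le_sum_of_subset_of_nonneg ?_ ?_
  · intro a ha
    rw [Finset.mem_filter, Finset.mem_filter] at ha
    rw [Finset.mem_filter]
    refine ⟨ha.1.1, ?_⟩
    rw [← ha.2]
    exact frag_subset Φ E W ha.1.1
  · intro a ha _
    exact hw a (Finset.mem_filter.1 ha).1

open Classical in
theorem pp_induct {q r : ℝ} (hq : 0 ≤ q) (hqr : 2048 * q ≤ r) (hr1 : r ≤ 1) :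
    ∀ j : ℕ, ∀ (Φ : Finset α) (E : α → Finset ι) (w : α → ℝ),
      (∀ a ∈ Φ, 0 ≤ w a) → (∀ a ∈ Φ, (E a).card < 2 ^ j) →
      (∀ I : Finset ι, ∑ a ∈ Φ.filter (fun a => I ⊆ E a), w a ≤ q ^ I.card) →
      (∑ a ∈ Φ, w a) * Fail (1 - (1 - r) ^ j) Φ E ≤ ∑ i ∈ Finset.range j, (1 / 512 : ℝ) ^ (2 ^ i) := by
  have hr0 : 0 ≤ r := le_trans (by positivity) hqr
  intro j
  induction j with
  | zero =>
    intro Φ E w hw hsz _
    simp only [Finset.range_zero, Finset.sum_empty]
    rcases Φ.eq_empty_or_nonempty with hΦ | ⟨a, ha⟩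
    · simp [hΦ]
    · have hE : E a = ∅ := by
        have := hsz a ha
        simpa using this
      have : Fail (1 - (1 - r) ^ 0) Φ E = 0 := by
        unfold Fail
        refine Finset.sum_eq_zero fun W _ => ?_
        have : failInd Φ E W = 0 := by
          unfold failInd
          rw [if_pos ⟨a, ha, by rw [hE]; exact Finset.empty_subset _⟩]
        rw [this, mul_zero]
      rw [this, mul_zero]
  | succ j ih =>
    intro Φ E w hw hsz hsp
    set pj : ℝ := 1 - (1 - r) ^ j with hpj
    have h1r0 : 0 ≤ 1 - r := by linarith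
    have h1r1 : 1 - r ≤ 1 := by linarith
    have hpj0 : 0 ≤ pj := by
      have := pow_le_one₀ (n := j) h1r0 h1r1
      linarith
    have hpj1 : pj ≤ 1 := by
      have := pow_nonneg h1r0 j
      linarith
    have hp : (1 - (1 - r) ^ (j + 1) : ℝ) = 1 - (1 - r) * (1 - pj) := by
      rw [hpj]; ring
    set m : ℕ := 2 ^ j with hm
    set M : ℝ := ∑ a ∈ Φ, w a with hM
    have hM0 : 0 ≤ M := Finset.sum_nonneg hw
    -- bound for a fixed first round
    have hfix : ∀ W₁ : Finset ι,
        M * ∑ W' : Finset ι, wt pj W' * failInd Φ E (W₁ ∪ W')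
          ≤ (∑ i ∈ Finset.range j, (1 / 512 : ℝ) ^ (2 ^ i))
            + ∑ T ∈ bigFrags Φ E m W₁, q ^ T.card := by
      intro W₁
      set Φs := Φ.filter (fun a => (frag Φ E W₁ a).card < m) with hΦs
      set Φl := Φ.filter (fun a => m ≤ (frag Φ E W₁ a).card) with hΦl
      have hsplit : M = ∑ a ∈ Φs, w a + ∑ a ∈ Φl, w a := by
        rw [hM, hΦs, hΦl, ← Finset.sum_filter_add_sum_filter_not Φ
          (fun a => (frag Φ E W₁ a).card < m)]
        congr 1
        refine Finset.sum_congr ?_ fun _ _ => rfl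
        ext a
        simp
      have hle : ∑ W' : Finset ι, wt pj W' * failInd Φ E (W₁ ∪ W')
          ≤ Fail pj Φs (frag Φ E W₁) := by
        unfold Fail
        refine Finset.sum_le_sum fun W' _ => ?_
        refine mul_le_mul_of_nonneg_left ?_ (wt_nonneg hpj0 hpj1 W')
        unfold failInd
        by_cases hex : ∃ a ∈ Φs, frag Φ E W₁ a ⊆ W'
        · obtain ⟨a, ha, hsub⟩ := hex
          have haΦ : a ∈ Φ := (Finset.mem_filter.1 ha).1
          obtain ⟨b, hb, hbe⟩ := frag_exists Φ E W₁ haΦ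
          have : ∃ b ∈ Φ, E b ⊆ W₁ ∪ W' := by
            refine ⟨b, hb, ?_⟩
            intro i hi
            by_cases hiW : i ∈ W₁
            · exact Finset.mem_union_left _ hiW
            · refine Finset.mem_union_right _ (hsub ?_)
              rw [hbe]
              exact Finset.mem_sdiff.2 ⟨hi, hiW⟩
          rw [if_pos this]
          split_ifs <;> norm_num
        · rw [if_neg hex]
          split_ifs <;> norm_num
      have hih := ih Φs (frag Φ E W₁) w
        (fun a ha => hw a (Finset.mem_filter.1 ha).1)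
        (fun a ha => (Finset.mem_filter.1 ha).2)
        (by
          intro I
          refine le_trans ?_ (hsp I)
          refine Finset.sum_le_sum_of_subset_of_nonneg ?_ ?_
          · intro a ha
            rw [Finset.mem_filter] at ha
            have haΦ : a ∈ Φ := (Finset.mem_filter.1 ha.1).1
            exact Finset.mem_filter.2 ⟨haΦ, ha.2.trans (frag_subset Φ E W₁ haΦ)⟩
          · intro a ha _
            exact hw a (Finset.mem_filter.1 ha).1)
      have hbig := weight_big_le Φ E w q m W₁ hw hsp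
      have hF0 := Fail_nonneg hpj0 hpj1 Φs (frag Φ E W₁)
      have hF1 := Fail_le_one hpj0 hpj1 Φs (frag Φ E W₁)
      have hl0 : 0 ≤ ∑ a ∈ Φl, w a :=
        Finset.sum_nonneg fun a ha => hw a (Finset.mem_filter.1 ha).1
      calc M * ∑ W' : Finset ι, wt pj W' * failInd Φ E (W₁ ∪ W')
          ≤ M * Fail pj Φs (frag Φ E W₁) := mul_le_mul_of_nonneg_left hle hM0
        _ = (∑ a ∈ Φs, w a) * Fail pj Φs (frag Φ E W₁)
            + (∑ a ∈ Φl, w a) * Fail pj Φs (frag Φ E W₁) := by rw [hsplit]; ring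
        _ ≤ (∑ i ∈ Finset.range j, (1 / 512 : ℝ) ^ (2 ^ i)) + (∑ a ∈ Φl, w a) * 1 :=
            add_le_add hih (mul_le_mul_of_nonneg_left hF1 hl0)
        _ ≤ _ := by
            rw [mul_one]
            exact add_le_add le_rfl hbig
    have hcost := cost_bigFrags Φ E m (2 * m)
      (fun a ha => by
        have := hsz a ha
        rw [pow_succ] at this
        omega) hq (by norm_num : (1 : ℝ) ≤ 2048) hqr hr1
    have hconst : (2 : ℝ) ^ (2 * m) * (1 / 2048) ^ m = (1 / 512) ^ m := by
      rw [pow_mul, ← mul_pow]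
      norm_num
    rw [hp]
    unfold Fail
    rw [← union_identity]
    calc M * ∑ A : Finset ι, ∑ B : Finset ι, wt r A * wt pj B * failInd Φ E (A ∪ B)
        = ∑ A : Finset ι, wt r A * (M * ∑ B : Finset ι, wt pj B * failInd Φ E (A ∪ B)) := by
          rw [Finset.mul_sum]
          refine Finset.sum_congr rfl fun A _ => ?_
          rw [Finset.mul_sum, Finset.mul_sum, Finset.mul_sum]
          refine Finset.sum_congr rfl fun B _ => ?_
          ring
      _ ≤ ∑ A : Finset ι, wt r A * ((∑ i ∈ Finset.range j, (1 / 512 : ℝ) ^ (2 ^ i))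
            + ∑ T ∈ bigFrags Φ E m A, q ^ T.card) :=
          Finset.sum_le_sum fun A _ =>
            mul_le_mul_of_nonneg_left (hfix A) (wt_nonneg hr0 hr1 A)
      _ = (∑ i ∈ Finset.range j, (1 / 512 : ℝ) ^ (2 ^ i))
            + ∑ A : Finset ι, wt r A * ∑ T ∈ bigFrags Φ E m A, q ^ T.card := by
          simp_rw [mul_add]
          rw [Finset.sum_add_distrib, ← Finset.sum_mul, sum_wt, one_mul]
      _ ≤ (∑ i ∈ Finset.range j, (1 / 512 : ℝ) ^ (2 ^ i)) + (1 / 512) ^ m := by
          rw [← hconst]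
          exact add_le_add le_rfl hcost
      _ = ∑ i ∈ Finset.range (j + 1), (1 / 512 : ℝ) ^ (2 ^ i) := by
          rw [Finset.sum_range_succ]

lemma eps_bound (j : ℕ) : ∑ i ∈ Finset.range j, (1 / 512 : ℝ) ^ (2 ^ i) ≤ 1 / 511 := by
  have h1 : ∀ j : ℕ, ∑ i ∈ Finset.range j, (1 / 512 : ℝ) ^ (i + 1)
      ≤ (1 - (1 / 512 : ℝ) ^ j) / 511 := by
    intro j
    induction j with
    | zero => simp
    | succ j ih =>
      rw [Finset.sum_range_succ]
      have : (1 / 512 : ℝ) ^ (j + 1) = (1 / 512) ^ j * (1 / 512) := pow_succ _ _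
      rw [this] at *
      nlinarith [pow_nonneg (by norm_num : (0 : ℝ) ≤ 1 / 512) j]
  calc ∑ i ∈ Finset.range j, (1 / 512 : ℝ) ^ (2 ^ i)
      ≤ ∑ i ∈ Finset.range j, (1 / 512 : ℝ) ^ (i + 1) := by
        refine Finset.sum_le_sum fun i _ => ?_
        exact pow_le_pow_of_le_one (by norm_num) (by norm_num) (Nat.succ_le_of_lt Nat.lt_two_pow_self)
    _ ≤ (1 - (1 / 512 : ℝ) ^ j) / 511 := h1 j
    _ ≤ 1 / 511 := by
        have := pow_nonneg (by norm_num : (0 : ℝ) ≤ 1 / 512) j
        rw [div_le_div_iff_of_pos_right (by norm_num)]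
        linarith

lemma wt_one (A : Finset ι) : wt 1 A = if A = Finset.univ then 1 else 0 := by
  unfold wt
  by_cases h : A = Finset.univ
  · simp [h]
  · rw [if_neg h]
    have : ∃ i, i ∉ A := by
      by_contra hc
      push Not at hc
      exact h (Finset.eq_univ_iff_forall.2 hc)
    obtain ⟨i, hi⟩ := this
    refine Finset.prod_eq_zero (Finset.mem_univ i) ?_
    simp [hi]

open Classical in
/-- **Park–Pham / spread lemma in the binomial model.** -/
theorem pp_main (Φ : Finset α) (E : α → Finset ι) (w : α → ℝ) (h : ℕ) (hh : 1 ≤ h) {q : ℝ}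
    (hq : 0 ≤ q) (hw : ∀ a ∈ Φ, 0 ≤ w a) (hsz : ∀ a ∈ Φ, (E a).card ≤ h)
    (hsp : ∀ I : Finset ι, ∑ a ∈ Φ.filter (fun a => I ⊆ E a), w a ≤ q ^ I.card)
    (htot : ∑ a ∈ Φ, w a = 1) :
    Fail (min 1 (2048 * q * (1 + Real.logb 2 (h : ℝ)))) Φ E ≤ 1 / 2 := by
  have hlog0 : 0 ≤ Real.logb 2 (h : ℝ) :=
    Real.logb_nonneg (by norm_num) (by exact_mod_cast hh)
  have hne : Φ.Nonempty := by
    by_contra hc
    rw [Finset.not_nonempty_iff_eq_empty] at hc
    rw [hc] at htot
    simp at htot
  by_cases hbig : 1 ≤ 2048 * q * (1 + Real.logb 2 (h : ℝ))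
  · rw [min_eq_left hbig]
    obtain ⟨a, ha⟩ := hne
    have : Fail 1 Φ E = 0 := by
      unfold Fail
      refine Finset.sum_eq_zero fun W _ => ?_
      rw [wt_one]
      by_cases hW : W = Finset.univ
      · have : failInd Φ E W = 0 := by
          unfold failInd
          rw [if_pos ⟨a, ha, by rw [hW]; exact Finset.subset_univ _⟩]
        rw [this, mul_zero]
      · rw [if_neg hW, zero_mul]
    rw [this]; norm_num
  · push Not at hbig
    rw [min_eq_right hbig.le]
    set r : ℝ := 2048 * q with hr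
    have hr0 : 0 ≤ r := by positivity
    have hr1 : r ≤ 1 := by
      have : r * 1 ≤ r * (1 + Real.logb 2 (h : ℝ)) :=
        mul_le_mul_of_nonneg_left (by linarith) hr0
      linarith
    set j : ℕ := Nat.log 2 h + 1 with hj
    have hlt : h < 2 ^ j := Nat.lt_pow_succ_log_self (by norm_num) h
    have hind := pp_induct (ι := ι) hq (le_refl r) hr1 j Φ E w hw
      (fun a ha => lt_of_le_of_lt (hsz a ha) hlt) hsp
    rw [htot, one_mul] at hind
    have hjle : (j : ℝ) ≤ 1 + Real.logb 2 (h : ℝ) := by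
      rw [hj]
      push_cast
      have := Real.natLog_le_logb h 2
      push_cast at this
      linarith
    have hbern : 1 - (1 - r) ^ j ≤ r * (1 + Real.logb 2 (h : ℝ)) := by
      have h1 := one_add_mul_le_pow (a := -r) (by linarith) j
      have h2 : (j : ℝ) * r ≤ (1 + Real.logb 2 (h : ℝ)) * r :=
        mul_le_mul_of_nonneg_right hjle hr0
      have h3 : (1 + -r) = 1 - r := by ring
      rw [h3] at h1
      nlinarith
    have hpj0 : 0 ≤ 1 - (1 - r) ^ j := by
      have := pow_le_one₀ (n := j) (by linarith : 0 ≤ 1 - r) (by linarith)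
      linarith
    have hmono := sum_wt_antitone hpj0 hbern hbig.le (failInd Φ E) (failInd_antitone Φ E)
    have heps := eps_bound j
    unfold Fail at *
    calc _ ≤ _ := hmono
      _ ≤ _ := hind
      _ ≤ 1 / 511 := heps
      _ ≤ 1 / 2 := by norm_num

end Crest.Agent.S0076Aux
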