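import Mathlib
import Crest.Prelude.Def_RandomGraph
import Crest.Agent.S0076Aux.H35_PP

/-!
# Graph layer: spread of the uniform random copy of `H` gives containment in `G(n,p')`
(helper35, insurance for S0076)
-/

set_option autoImplicit false
set_option linter.unusedSectionVars false

namespace Crest.Agent.S0076Aux

open Finset Crest.CombinatoricsR.RandomGraph

variable {n : ℕ} {W : Type} [Fintype W] [DecidableEq W]

open Classical in
/-- the set of edge slots of `K_n` used by the copy `f(H)`. -/
noncomputable def edgeImg (H : SimpleGraph W) (f : W ↪ Fin n) : Finset (EdgeSlot n) :=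
  Finset.univ.filter fun z : EdgeSlot n => z.1 ∈ (H.map f).edgeSet

lemma mem_edgeImg (H : SimpleGraph W) (f : W ↪ Fin n) (z : EdgeSlot n) :
    z ∈ edgeImg H f ↔ z.1 ∈ (H.map f).edgeSet := by
  classical
  simp [edgeImg]

lemma card_edgeImg_le (H : SimpleGraph W) [DecidableRel H.Adj] (f : W ↪ Fin n) :
    (edgeImg H f).card ≤ H.edgeFinset.card := by
  classical
  rw [← SimpleGraph.card_edgeFinset_map f H]
  refine Finset.card_le_card_of_injOn (fun z => z.1) ?_ ?_
  · intro z hz
    rw [Finset.mem_coe, mem_edgeImg] at hz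
    rw [Finset.mem_coe, SimpleGraph.mem_edgeFinset]
    exact hz
  · intro z _ z' _ h
    exact Subtype.ext h

lemma isContained_of_edgeImg_subset (H : SimpleGraph W) (f : W ↪ Fin n) (ω : EdgeSlot n → Bool)
    (h : edgeImg H f ⊆ outEquiv ω) : H.IsContained (graphOf ω) := by
  refine ⟨⟨⟨f, ?_⟩, f.injective⟩⟩
  intro u v huv
  have hne : f u ≠ f v := fun he => huv.ne (f.injective he)
  have hadj : (H.map f).Adj (f u) (f v) := by
    rw [SimpleGraph.map_adj]
    exact ⟨u, v, huv, rfl, rfl⟩
  have hnd : ¬ (s(f u, f v) : Sym2 (Fin n)).IsDiag := by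
    simpa using hne
  have hz : (⟨s(f u, f v), hnd⟩ : EdgeSlot n) ∈ edgeImg H f := by
    rw [mem_edgeImg]
    exact hadj
  have hω := (mem_outEquiv ω _).1 (h hz)
  unfold graphOf
  rw [SimpleGraph.fromEdgeSet_adj]
  exact ⟨⟨hnd, hω⟩, hne⟩

open Classical in
/-- **Graph form of Park–Pham.** If the uniformly random labelled copy of `H` in `K_n` is
`q`-spread then `G(n, min 1 (2048 q (1 + log₂ e(H))))` contains `H` with probability `≥ 1/2`. -/
theorem gnp_of_spread (H : SimpleGraph W) [DecidableRel H.Adj] (hW : Fintype.card W ≤ n)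
    (hH : 1 ≤ H.edgeFinset.card) {q : ℝ} (hq : 0 ≤ q)
    (hsp : ∀ I : Finset (EdgeSlot n),
      (((Finset.univ : Finset (W ↪ Fin n)).filter fun f => I ⊆ edgeImg H f).card : ℝ)
        ≤ q ^ I.card * (Fintype.card (W ↪ Fin n) : ℝ)) :
    (1 : ℝ) / 2 ≤ gnpProb n (min 1 (2048 * q * (1 + Real.logb 2 (H.edgeFinset.card : ℝ))))
      {G | H.IsContained G} := by
  set p' : ℝ := min 1 (2048 * q * (1 + Real.logb 2 (H.edgeFinset.card : ℝ))) with hp'
  have hlog0 : 0 ≤ Real.logb 2 (H.edgeFinset.card : ℝ) :=
    Real.logb_nonneg (by norm_num) (by exact_mod_cast hH)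
  have hp'0 : 0 ≤ p' := le_min (by norm_num) (by positivity)
  have hp'1 : p' ≤ 1 := min_le_left _ _
  have hne : Nonempty (W ↪ Fin n) := by
    apply Function.Embedding.nonempty_of_card_le
    simpa using hW
  set N : ℝ := (Fintype.card (W ↪ Fin n) : ℝ) with hN
  have hNpos : 0 < N := by
    rw [hN]
    exact_mod_cast Fintype.card_pos
  have hmain := pp_main (ι := EdgeSlot n) (Finset.univ : Finset (W ↪ Fin n)) (edgeImg H)
    (fun _ => 1 / N) H.edgeFinset.card hH hq
    (fun _ _ => by positivity) (fun f _ => card_edgeImg_le H f)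
    (by
      intro I
      rw [Finset.sum_const, nsmul_eq_mul, mul_one_div, div_le_iff₀ hNpos]
      exact hsp I)
    (by
      rw [Finset.sum_const, nsmul_eq_mul, Finset.card_univ, mul_one_div, div_self hNpos.ne'])
  unfold gnpProb
  rw [bernoulliProb_eq]
  have hsum : ∑ A : Finset (EdgeSlot n), wt p' A * (1 - failInd Finset.univ (edgeImg H) A)
      = 1 - Fail p' (Finset.univ : Finset (W ↪ Fin n)) (edgeImg H) := by
    unfold Fail
    simp_rw [mul_sub, mul_one]
    rw [Finset.sum_sub_distrib, sum_wt]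
  have hle : ∑ A : Finset (EdgeSlot n), wt p' A * (1 - failInd Finset.univ (edgeImg H) A)
      ≤ ∑ A : Finset (EdgeSlot n), wt p' A *
        (if outEquiv.symm A ∈ {ω : EdgeSlot n → Bool | graphOf ω ∈ {G | H.IsContained G}}
          then 1 else 0) := by
    refine Finset.sum_le_sum fun A _ => ?_
    refine mul_le_mul_of_nonneg_left ?_ (wt_nonneg hp'0 hp'1 A)
    unfold failInd
    by_cases hex : ∃ f ∈ (Finset.univ : Finset (W ↪ Fin n)), edgeImg H f ⊆ A
    · obtain ⟨f, _, hf⟩ := hex
      have : outEquiv.symm A ∈ {ω : EdgeSlot n → Bool | graphOf ω ∈ {G | H.IsContained G}} := by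
        show H.IsContained (graphOf (outEquiv.symm A))
        apply isContained_of_edgeImg_subset H f
        rw [Equiv.apply_symm_apply]
        exact hf
      rw [if_pos this]
      split_ifs <;> norm_num
    · rw [if_neg hex]
      split_ifs <;> norm_num
  linarith

end Crest.Agent.S0076Aux
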