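import Mathlib
import Crest.Prelude.Def_RandomGraph
import Crest.Agent.S0076Aux.H35_Graph

/-!
# S0076 reduced to the deterministic spread claim (D')   (helper35, insurance for S0076)

`result_of_spread` has exactly the conclusion of S0076; its only extra hypothesis is (D'):
the uniformly random labelled copy of `H` in `K_n` is `(e^50 p)`-spread.
-/

set_option autoImplicit false

namespace Crest.Agent.S0076Aux

open Finset Crest.CombinatoricsR.RandomGraph

open Classical in
theorem result_of_spread (n : ℕ) (W : Type) [Fintype W] [DecidableEq W] (H : SimpleGraph W)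
    [DecidableRel H.Adj] (hW : Fintype.card W ≤ n) (hH : 1 ≤ H.edgeFinset.card)
    (p : ℝ) (hp0 : 0 ≤ p)
    (hD : ∀ I : Finset (EdgeSlot n),
      (((Finset.univ : Finset (W ↪ Fin n)).filter fun f => I ⊆ edgeImg H f).card : ℝ)
        ≤ (Real.exp 50 * p) ^ I.card * (Fintype.card (W ↪ Fin n) : ℝ)) :
    (1 : ℝ) / 2 ≤ Crest.CombinatoricsR.RandomGraph.gnpProb n
      (min 1 (2048 * Real.exp 50 * p * (1 + Real.logb 2 (H.edgeFinset.card : ℝ))))
      {G | H.IsContained G} := by
  have h := gnp_of_spread H hW hH (q := Real.exp 50 * p) (by positivity) hD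
  have e : 2048 * (Real.exp 50 * p) = 2048 * Real.exp 50 * p := by ring
  rw [e] at h
  exact h

end Crest.Agent.S0076Aux
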