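import Crest.Agent.S0076Aux.PP21Bern

/-!
# Park–Pham (Kahn–Kalai) in the binomial model, fragments halved per round (helper21, S0076Aux)
-/

set_option autoImplicit false
set_option linter.unusedSectionVars false

namespace Crest.Agent.S0076Aux.PP21

open Finset

variable {ι : Type*} [Fintype ι] [DecidableEq ι]

/-- `G` covers `HH`: every member of `HH` contains a member of `G`. -/
def Covers (G HH : Finset (Finset ι)) : Prop := ∀ S ∈ HH, ∃ T ∈ G, T ⊆ S

/-- cost of a family at density `q` -/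
def cost (q : ℝ) (G : Finset (Finset ι)) : ℝ := ∑ T ∈ G, q ^ T.card

/-- `W` contains no member of `HH` -/
def Fails (HH : Finset (Finset ι)) (W : Finset ι) : Prop := ∀ S ∈ HH, ¬ S ⊆ W

instance (HH : Finset (Finset ι)) (W : Finset ι) : Decidable (Fails HH W) :=
  inferInstanceAs (Decidable (∀ S ∈ HH, ¬ S ⊆ W))

/-- probability that an `r`-random set contains no member of `HH` -/
noncomputable def failP (r : ℝ) (HH : Finset (Finset ι)) : ℝ :=
  ∑ W : Finset ι, wt r W * (if Fails HH W then 1 else 0)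

lemma cost_nonneg {q : ℝ} (hq : 0 ≤ q) (G : Finset (Finset ι)) : 0 ≤ cost q G :=
  Finset.sum_nonneg (fun _ _ => pow_nonneg hq _)

lemma cost_union_le {q : ℝ} (hq : 0 ≤ q) (G G' : Finset (Finset ι)) :
    cost q (G ∪ G') ≤ cost q G + cost q G' := by
  unfold cost
  rw [← Finset.sum_union_inter]
  have : 0 ≤ ∑ T ∈ G ∩ G', q ^ T.card := Finset.sum_nonneg (fun _ _ => pow_nonneg hq _)
  linarith

lemma failP_nonneg {r : ℝ} (h0 : 0 ≤ r) (h1 : r ≤ 1) (HH : Finset (Finset ι)) :
    0 ≤ failP r HH := by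
  unfold failP
  refine Finset.sum_nonneg (fun W _ => mul_nonneg (wt_nonneg h0 h1 W) ?_)
  split_ifs <;> norm_num

lemma failP_le_one {r : ℝ} (h0 : 0 ≤ r) (h1 : r ≤ 1) (HH : Finset (Finset ι)) :
    failP r HH ≤ 1 := by
  unfold failP
  calc ∑ W : Finset ι, wt r W * (if Fails HH W then 1 else 0)
      ≤ ∑ W : Finset ι, wt r W * 1 := by
        refine Finset.sum_le_sum (fun W _ => mul_le_mul_of_nonneg_left ?_ (wt_nonneg h0 h1 W))
        split_ifs <;> norm_num
    _ = 1 := by simp [sum_wt]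

/-! ### minimal fragments -/

lemma exists_frag (HH : Finset (Finset ι)) (W S : Finset ι) (hS : S ∈ HH) :
    ∃ T : Finset ι, (∃ S' ∈ HH, S' ⊆ S ∪ W ∧ T = S' \ W) ∧
      ∀ S'' ∈ HH, S'' ⊆ S ∪ W → T.card ≤ (S'' \ W).card := by
  have hne : (HH.filter (fun S' => S' ⊆ S ∪ W)).Nonempty :=
    ⟨S, Finset.mem_filter.mpr ⟨hS, Finset.subset_union_left⟩⟩
  obtain ⟨S', hS', hmin⟩ := Finset.exists_min_image _ (fun S' => (S' \ W).card) hne
  refine ⟨S' \ W, ⟨S', (Finset.mem_filter.mp hS').1, (Finset.mem_filter.mp hS').2, rfl⟩, ?_⟩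
  intro S'' h1 h2
  exact hmin S'' (Finset.mem_filter.mpr ⟨h1, h2⟩)

open Classical in
/-- a minimal fragment of `S` with respect to `W` -/
noncomputable def frag (HH : Finset (Finset ι)) (W S : Finset ι) : Finset ι :=
  if h : S ∈ HH then Classical.choose (exists_frag HH W S h) else ∅

lemma frag_spec (HH : Finset (Finset ι)) (W S : Finset ι) (hS : S ∈ HH) :
    (∃ S' ∈ HH, S' ⊆ S ∪ W ∧ frag HH W S = S' \ W) ∧
      ∀ S'' ∈ HH, S'' ⊆ S ∪ W → (frag HH W S).card ≤ (S'' \ W).card := by
  unfold frag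
  rw [dif_pos hS]
  exact Classical.choose_spec (exists_frag HH W S hS)

lemma frag_subset (HH : Finset (Finset ι)) (W S : Finset ι) (hS : S ∈ HH) :
    frag HH W S ⊆ S := by
  obtain ⟨⟨S', _, h2, h3⟩, _⟩ := frag_spec HH W S hS
  rw [h3]
  intro i hi
  rw [Finset.mem_sdiff] at hi
  rcases Finset.mem_union.mp (h2 hi.1) with h | h
  · exact h
  · exact absurd h hi.2

lemma frag_disjoint (HH : Finset (Finset ι)) (W S : Finset ι) (hS : S ∈ HH) :
    Disjoint (frag HH W S) W := by
  obtain ⟨⟨S', _, _, h3⟩, _⟩ := frag_spec HH W S hS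
  rw [h3]
  exact Finset.sdiff_disjoint

/-- small fragments -/
noncomputable def small (HH : Finset (Finset ι)) (l : ℕ) (W : Finset ι) : Finset (Finset ι) :=
  (HH.image (frag HH W)).filter (fun T => T.card ≤ l / 2)

/-- big fragments -/
noncomputable def big (HH : Finset (Finset ι)) (l : ℕ) (W : Finset ι) : Finset (Finset ι) :=
  (HH.image (frag HH W)).filter (fun T => l / 2 < T.card)

open Classical in
/-- a canonical member of `HH` inside `Z` -/
noncomputable def chi (HH : Finset (Finset ι)) (Z : Finset ι) : Finset ι :=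
  if h : ∃ S ∈ HH, S ⊆ Z then Classical.choose h else ∅

lemma chi_spec (HH : Finset (Finset ι)) (Z : Finset ι) (h : ∃ S ∈ HH, S ⊆ Z) :
    chi HH Z ∈ HH ∧ chi HH Z ⊆ Z := by
  unfold chi
  rw [dif_pos h]
  exact Classical.choose_spec h

lemma chi_card_le (HH : Finset (Finset ι)) (l : ℕ) (hb : ∀ S ∈ HH, S.card ≤ l) (Z : Finset ι) :
    (chi HH Z).card ≤ l := by
  by_cases h : ∃ S ∈ HH, S ⊆ Z
  · exact hb _ (chi_spec HH Z h).1
  · unfold chi
    rw [dif_neg h]
    simp

lemma frag_subset_chi (HH : Finset (Finset ι)) (W S : Finset ι) (hS : S ∈ HH) :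
    frag HH W S ⊆ chi HH (W ∪ frag HH W S) := by
  obtain ⟨⟨S', h1, h2, h3⟩, hmin⟩ := frag_spec HH W S hS
  set U := frag HH W S with hU
  have hS'Z : S' ⊆ W ∪ U := by
    intro i hi
    by_cases hiW : i ∈ W
    · exact Finset.mem_union_left _ hiW
    · refine Finset.mem_union_right _ ?_
      rw [h3]
      exact Finset.mem_sdiff.mpr ⟨hi, hiW⟩
  obtain ⟨hc1, hc2⟩ := chi_spec HH (W ∪ U) ⟨S', h1, hS'Z⟩
  have hUS : U ⊆ S := frag_subset HH W S hS
  have hc3 : chi HH (W ∪ U) ⊆ S ∪ W := by
    intro i hi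
    rcases Finset.mem_union.mp (hc2 hi) with h | h
    · exact Finset.mem_union_right _ h
    · exact Finset.mem_union_left _ (hUS h)
  have hcard := hmin _ hc1 hc3
  have hsub : chi HH (W ∪ U) \ W ⊆ U := by
    intro i hi
    rw [Finset.mem_sdiff] at hi
    rcases Finset.mem_union.mp (hc2 hi.1) with h | h
    · exact absurd h hi.2
    · exact h
  have heq : chi HH (W ∪ U) \ W = U := Finset.eq_of_subset_of_card_le hsub hcard
  intro i hi
  rw [← heq] at hi
  exact (Finset.mem_sdiff.mp hi).1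

lemma fails_small_of_fails (HH : Finset (Finset ι)) (l : ℕ) (W₁ W₂ : Finset ι)
    (h : Fails HH (W₁ ∪ W₂)) : Fails (small HH l W₁) W₂ := by
  intro T hT hTW
  obtain ⟨hT1, _⟩ := Finset.mem_filter.mp hT
  obtain ⟨S, hS, rfl⟩ := Finset.mem_image.mp hT1
  obtain ⟨⟨S', h1, _, h3⟩, _⟩ := frag_spec HH W₁ S hS
  refine h S' h1 ?_
  intro i hi
  by_cases hiW : i ∈ W₁
  · exact Finset.mem_union_left _ hiW
  · refine Finset.mem_union_right _ (hTW ?_)
    rw [h3]
    exact Finset.mem_sdiff.mpr ⟨hi, hiW⟩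

lemma covers_union_big (HH : Finset (Finset ι)) (l : ℕ) (W : Finset ι) (G : Finset (Finset ι))
    (hG : Covers G (small HH l W)) : Covers (G ∪ big HH l W) HH := by
  intro S hS
  have hmem : frag HH W S ∈ HH.image (frag HH W) := Finset.mem_image_of_mem _ hS
  by_cases hc : (frag HH W S).card ≤ l / 2
  · obtain ⟨T, hT, hTs⟩ := hG _ (Finset.mem_filter.mpr ⟨hmem, hc⟩)
    exact ⟨T, Finset.mem_union_left _ hT, hTs.trans (frag_subset HH W S hS)⟩
  · exact ⟨_, Finset.mem_union_right _ (Finset.mem_filter.mpr ⟨hmem, not_le.mp hc⟩),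
      frag_subset HH W S hS⟩

/-! ### cost of one round -/

lemma wt_union_disjoint (ρ : ℝ) (W U : Finset ι) (h : Disjoint U W) :
    ρ ^ U.card * wt ρ W = (1 - ρ) ^ U.card * wt ρ (W ∪ U) := by
  rw [wt_eq_pow, wt_eq_pow]
  have h1 : (W ∪ U).card = W.card + U.card := Finset.card_union_of_disjoint h.symm
  have h2 : Wᶜ.card = (W ∪ U)ᶜ.card + U.card := by
    have h3 : Wᶜ = (W ∪ U)ᶜ ∪ U := by
      ext i
      simp only [Finset.mem_compl, Finset.mem_union, not_or]
      constructor
      · intro hi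
        by_cases hU : i ∈ U
        · exact Or.inr hU
        · exact Or.inl ⟨hi, hU⟩
      · rintro (hi | hi)
        · exact hi.1
        · exact fun hW => (Finset.disjoint_left.mp h hi) hW
    rw [h3, Finset.card_union_of_disjoint]
    rw [Finset.disjoint_left]
    intro i hi hU
    simp only [Finset.mem_compl, Finset.mem_union, not_or] at hi
    exact hi.2 hU
  rw [h1, h2, pow_add, pow_add]
  ring

theorem round_cost (HH : Finset (Finset ι)) (l : ℕ) (hb : ∀ S ∈ HH, S.card ≤ l)
    (L q : ℝ) (hL : 1 ≤ L) (hq : 0 ≤ q) (hρ : L * q ≤ 1) :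
    ∑ W : Finset ι, wt (L * q) W * cost q (big HH l W) ≤ 2 ^ l * (1 / L) ^ (l / 2 + 1) := by
  have hL0 : 0 < L := by linarith
  have hρ0 : 0 ≤ L * q := mul_nonneg hL0.le hq
  set ρ := L * q with hρdef
  -- pointwise bound
  have hpt : ∀ W U : Finset ι, U ∈ big HH l W →
      wt ρ W * q ^ U.card ≤ wt ρ (W ∪ U) * (1 / L) ^ U.card := by
    intro W U hU
    obtain ⟨hU1, _⟩ := Finset.mem_filter.mp hU
    obtain ⟨S, hS, rfl⟩ := Finset.mem_image.mp hU1
    have hd := frag_disjoint HH W S hS
    set U := frag HH W S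
    have h1 := wt_union_disjoint ρ W U hd
    have h2 : q ^ U.card = (1 / L) ^ U.card * ρ ^ U.card := by
      rw [← mul_pow, hρdef]
      congr 1
      field_simp
    have h3 : (1 - ρ) ^ U.card ≤ 1 := pow_le_one₀ (by linarith) (by linarith)
    have h4 : 0 ≤ wt ρ (W ∪ U) := wt_nonneg hρ0 hρ _
    have h5 : 0 ≤ (1 / L) ^ U.card := by positivity
    calc wt ρ W * q ^ U.card = (1 / L) ^ U.card * (ρ ^ U.card * wt ρ W) := by rw [h2]; ring
      _ = (1 / L) ^ U.card * ((1 - ρ) ^ U.card * wt ρ (W ∪ U)) := by rw [h1]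
      _ ≤ (1 / L) ^ U.card * (1 * wt ρ (W ∪ U)) := by
          refine mul_le_mul_of_nonneg_left ?_ h5
          exact mul_le_mul_of_nonneg_right h3 h4
      _ = wt ρ (W ∪ U) * (1 / L) ^ U.card := by ring
  -- the two index sets
  let A : Finset (Finset ι × Finset ι) := univ.filter (fun x => x.2 ∈ big HH l x.1)
  let B : Finset (Finset ι × Finset ι) :=
    univ.filter (fun x => x.2 ∈ (chi HH x.1).powerset.filter (fun U => l / 2 < U.card))
  let φ : Finset ι × Finset ι → Finset ι × Finset ι := fun x => (x.1 ∪ x.2, x.2)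
  let f : Finset ι × Finset ι → ℝ := fun y => wt ρ y.1 * (1 / L) ^ y.2.card
  have hA : ∑ W : Finset ι, wt ρ W * cost q (big HH l W)
      = ∑ x ∈ A, wt ρ x.1 * q ^ x.2.card := by
    rw [Finset.sum_finset_product A univ (fun W => big HH l W)]
    · refine Finset.sum_congr rfl (fun W _ => ?_)
      unfold cost
      rw [Finset.mul_sum]
    · intro x
      simp [A]
  have hB : ∑ y ∈ B, f y
      = ∑ Z : Finset ι, ∑ U ∈ (chi HH Z).powerset.filter (fun U => l / 2 < U.card),
          wt ρ Z * (1 / L) ^ U.card := by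
    rw [Finset.sum_finset_product B univ
      (fun Z => (chi HH Z).powerset.filter (fun U => l / 2 < U.card))]
    intro x
    simp [B]
  have hinj : Set.InjOn φ (A : Set (Finset ι × Finset ι)) := by
    intro x hx y hy hxy
    have hx' : x.2 ∈ big HH l x.1 := (Finset.mem_filter.mp (Finset.mem_coe.mp hx)).2
    have hy' : y.2 ∈ big HH l y.1 := (Finset.mem_filter.mp (Finset.mem_coe.mp hy)).2
    have dis : ∀ z : Finset ι × Finset ι, z.2 ∈ big HH l z.1 → Disjoint z.2 z.1 := by
      intro z hz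
      obtain ⟨hz1, _⟩ := Finset.mem_filter.mp hz
      obtain ⟨S, hS, hSz⟩ := Finset.mem_image.mp hz1
      rw [← hSz]
      exact frag_disjoint HH z.1 S hS
    have hxy' : (x.1 ∪ x.2, x.2) = (y.1 ∪ y.2, y.2) := hxy
    have h2 : x.2 = y.2 := (Prod.mk.inj hxy').2
    have h1 : x.1 ∪ x.2 = y.1 ∪ y.2 := (Prod.mk.inj hxy').1
    have hx1 : x.1 = (x.1 ∪ x.2) \ x.2 := by
      rw [Finset.union_sdiff_right]
      exact (Finset.sdiff_eq_self_of_disjoint (dis x hx').symm).symm
    have hy1 : y.1 = (y.1 ∪ y.2) \ y.2 := by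
      rw [Finset.union_sdiff_right]
      exact (Finset.sdiff_eq_self_of_disjoint (dis y hy').symm).symm
    refine Prod.ext ?_ h2
    rw [hx1, hy1, h1, h2]
  have hsub : A.image φ ⊆ B := by
    intro y hy
    obtain ⟨x, hx, rfl⟩ := Finset.mem_image.mp hy
    have hx' : x.2 ∈ big HH l x.1 := (Finset.mem_filter.mp hx).2
    obtain ⟨hx1, hx2⟩ := Finset.mem_filter.mp hx'
    obtain ⟨S, hS, hSx⟩ := Finset.mem_image.mp hx1
    refine Finset.mem_filter.mpr ⟨Finset.mem_univ _, ?_⟩
    refine Finset.mem_filter.mpr ⟨Finset.mem_powerset.mpr ?_, hx2⟩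
    show x.2 ⊆ chi HH (x.1 ∪ x.2)
    rw [← hSx]
    exact frag_subset_chi HH x.1 S hS
  have hf0 : ∀ y, 0 ≤ f y := fun y => mul_nonneg (wt_nonneg hρ0 hρ _) (by positivity)
  have hinv : (1 / L) ≤ 1 := by
    rw [div_le_one hL0]
    exact hL
  calc ∑ W : Finset ι, wt ρ W * cost q (big HH l W)
      = ∑ x ∈ A, wt ρ x.1 * q ^ x.2.card := hA
    _ ≤ ∑ x ∈ A, f (φ x) := by
        refine Finset.sum_le_sum (fun x hx => ?_)
        exact hpt x.1 x.2 (Finset.mem_filter.mp hx).2
    _ = ∑ y ∈ A.image φ, f y := (Finset.sum_image (fun x hx y hy h => hinj hx hy h)).symm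
    _ ≤ ∑ y ∈ B, f y := Finset.sum_le_sum_of_subset_of_nonneg hsub (fun y _ _ => hf0 y)
    _ = ∑ Z : Finset ι, ∑ U ∈ (chi HH Z).powerset.filter (fun U => l / 2 < U.card),
          wt ρ Z * (1 / L) ^ U.card := hB
    _ ≤ ∑ Z : Finset ι, wt ρ Z * (2 ^ l * (1 / L) ^ (l / 2 + 1)) := by
        refine Finset.sum_le_sum (fun Z _ => ?_)
        rw [← Finset.mul_sum]
        refine mul_le_mul_of_nonneg_left ?_ (wt_nonneg hρ0 hρ Z)
        calc ∑ U ∈ (chi HH Z).powerset.filter (fun U => l / 2 < U.card), (1 / L) ^ U.card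
            ≤ ∑ U ∈ (chi HH Z).powerset.filter (fun U => l / 2 < U.card),
                (1 / L) ^ (l / 2 + 1) := by
              refine Finset.sum_le_sum (fun U hU => ?_)
              exact pow_le_pow_of_le_one (by positivity) hinv (Finset.mem_filter.mp hU).2
          _ = (((chi HH Z).powerset.filter (fun U => l / 2 < U.card)).card : ℝ)
                * (1 / L) ^ (l / 2 + 1) := by
              rw [Finset.sum_const, nsmul_eq_mul]
          _ ≤ 2 ^ l * (1 / L) ^ (l / 2 + 1) := by
              refine mul_le_mul_of_nonneg_right ?_ (by positivity)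
              have h1 : ((chi HH Z).powerset.filter (fun U => l / 2 < U.card)).card
                  ≤ 2 ^ l := by
                calc ((chi HH Z).powerset.filter (fun U => l / 2 < U.card)).card
                    ≤ (chi HH Z).powerset.card := Finset.card_filter_le _ _
                  _ = 2 ^ (chi HH Z).card := Finset.card_powerset _
                  _ ≤ 2 ^ l := Nat.pow_le_pow_right (by norm_num) (chi_card_le HH l hb Z)
              exact_mod_cast h1
    _ = 2 ^ l * (1 / L) ^ (l / 2 + 1) := by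
        rw [← Finset.sum_mul, sum_wt, one_mul]

/-! ### the induction on rounds -/

/-- accumulated error bound -/
noncomputable def Bd (L : ℝ) (l : ℕ) : ℝ := (1 / 2) * ∑ a ∈ Finset.range l, (4 / L) ^ (a + 1)

lemma Bd_nonneg {L : ℝ} (hL : 1 ≤ L) (l : ℕ) : 0 ≤ Bd L l := by
  unfold Bd
  have : 0 ≤ 4 / L := by positivity
  positivity

lemma Bd_step {L : ℝ} (hL : 1 ≤ L) (l : ℕ) (hl : 0 < l) :
    Bd L (l / 2) + 2 ^ l * (1 / L) ^ (l / 2 + 1) ≤ Bd L l := by
  have hy : 0 ≤ 4 / L := by positivity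
  have h1 : (2 : ℝ) ^ l * (1 / L) ^ (l / 2 + 1) ≤ (1 / 2) * (4 / L) ^ (l / 2 + 1) := by
    have h2 : (2 : ℝ) ^ l ≤ (1 / 2) * 4 ^ (l / 2 + 1) := by
      have h3 : l ≤ 2 * (l / 2) + 1 := by omega
      calc (2 : ℝ) ^ l ≤ 2 ^ (2 * (l / 2) + 1) := pow_le_pow_right₀ (by norm_num) h3
        _ = (1 / 2) * 4 ^ (l / 2 + 1) := by
            rw [pow_succ, pow_mul, pow_succ]
            norm_num
            ring
    calc (2 : ℝ) ^ l * (1 / L) ^ (l / 2 + 1)
        ≤ ((1 / 2) * 4 ^ (l / 2 + 1)) * (1 / L) ^ (l / 2 + 1) :=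
          mul_le_mul_of_nonneg_right h2 (by positivity)
      _ = (1 / 2) * (4 / L) ^ (l / 2 + 1) := by
          rw [mul_assoc, ← mul_pow]
          congr 2
          ring
  have h4 : Bd L (l / 2) + (1 / 2) * (4 / L) ^ (l / 2 + 1) = Bd L (l / 2 + 1) := by
    unfold Bd
    rw [Finset.sum_range_succ]
    ring
  have h5 : Bd L (l / 2 + 1) ≤ Bd L l := by
    unfold Bd
    refine mul_le_mul_of_nonneg_left ?_ (by norm_num)
    refine Finset.sum_le_sum_of_subset_of_nonneg ?_ (fun a _ _ => pow_nonneg hy _)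
    intro a ha
    rw [Finset.mem_range] at ha ⊢
    omega
  linarith

lemma base_case (HH : Finset (Finset ι)) (hb : ∀ S ∈ HH, S.card ≤ 0) (q r c : ℝ)
    (h0 : 0 ≤ r) (h1 : r ≤ 1) (hc : ∀ G, Covers G HH → c ≤ cost q G) :
    c * failP r HH ≤ 0 := by
  rcases HH.eq_empty_or_nonempty with he | ⟨S, hS⟩
  · have hc0 : c ≤ 0 := by
      have := hc ∅ (by intro S hS; rw [he] at hS; simp at hS)
      simpa [cost] using this
    exact mul_nonpos_of_nonpos_of_nonneg hc0 (failP_nonneg h0 h1 HH)
  · have hS0 : S = ∅ := Finset.card_eq_zero.mp (Nat.le_zero.mp (hb S hS))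
    have : failP r HH = 0 := by
      unfold failP
      refine Finset.sum_eq_zero (fun W _ => ?_)
      have : ¬ Fails HH W := fun h => h S hS (by rw [hS0]; exact Finset.empty_subset _)
      rw [if_neg this, mul_zero]
    rw [this, mul_zero]

theorem pp_rounds (L q : ℝ) (hL : 1 ≤ L) (hq : 0 ≤ q) (hρ : L * q ≤ 1) :
    ∀ (j l : ℕ), l < 2 ^ j → ∀ HH : Finset (Finset ι), (∀ S ∈ HH, S.card ≤ l) →
      ∀ c : ℝ, (∀ G, Covers G HH → c ≤ cost q G) →
        c * failP (1 - (1 - L * q) ^ j) HH ≤ Bd L l := by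
  have hL0 : 0 < L := by linarith
  have hρ0 : 0 ≤ L * q := mul_nonneg hL0.le hq
  have hr0 : ∀ j : ℕ, 0 ≤ 1 - (1 - L * q) ^ j := fun j => by
    have : (1 - L * q) ^ j ≤ 1 := pow_le_one₀ (by linarith) (by linarith)
    linarith
  have hr1 : ∀ j : ℕ, 1 - (1 - L * q) ^ j ≤ 1 := fun j => by
    have : 0 ≤ (1 - L * q) ^ j := pow_nonneg (by linarith) _
    linarith
  intro j
  induction j with
  | zero =>
    intro l hl HH hb c hc
    have hl0 : l = 0 := by simpa using hl
    subst hl0
    exact (base_case HH hb q _ c (hr0 0) (hr1 0) hc).trans (Bd_nonneg hL 0)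
  | succ j ih =>
    intro l hl HH hb c hc
    rcases Nat.eq_zero_or_pos l with hl0 | hlpos
    · subst hl0
      exact (base_case HH hb q _ c (hr0 _) (hr1 _) hc).trans (Bd_nonneg hL 0)
    · by_cases hc0 : c ≤ 0
      · exact (mul_nonpos_of_nonpos_of_nonneg hc0 (failP_nonneg (hr0 _) (hr1 _) HH)).trans
          (Bd_nonneg hL l)
      · have hc0 : 0 < c := not_le.mp hc0
        set ρ := L * q with hρdef
        set r := 1 - (1 - ρ) ^ j with hrdef
        have hrr : 1 - (1 - ρ) ^ (j + 1) = ρ + r - ρ * r := by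
          rw [hrdef, pow_succ]
          ring
        have key : failP (1 - (1 - ρ) ^ (j + 1)) HH
            ≤ ∑ W₁ : Finset ι, wt ρ W₁ * failP r (small HH l W₁) := by
          rw [hrr]
          unfold failP
          rw [← sum_union ρ r (fun W => if Fails HH W then (1 : ℝ) else 0)]
          refine Finset.sum_le_sum (fun W₁ _ => ?_)
          rw [Finset.mul_sum]
          refine Finset.sum_le_sum (fun W₂ _ => ?_)
          rw [mul_assoc]
          refine mul_le_mul_of_nonneg_left ?_ (wt_nonneg hρ0 hρ W₁)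
          refine mul_le_mul_of_nonneg_left ?_ (wt_nonneg (hr0 j) (hr1 j) W₂)
          by_cases hf : Fails HH (W₁ ∪ W₂)
          · rw [if_pos hf, if_pos (fails_small_of_fails HH l W₁ W₂ hf)]
          · rw [if_neg hf]
            split_ifs <;> norm_num
        have each : ∀ W₁ : Finset ι,
            c * failP r (small HH l W₁) ≤ Bd L (l / 2) + cost q (big HH l W₁) := by
          intro W₁
          have hl2 : l / 2 < 2 ^ j := by
            rw [Nat.div_lt_iff_lt_mul (by norm_num)]
            rw [pow_succ] at hl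
            exact hl
          have hb' : ∀ S ∈ small HH l W₁, S.card ≤ l / 2 :=
            fun S hS => (Finset.mem_filter.mp hS).2
          have hc' : ∀ G, Covers G (small HH l W₁) → c - cost q (big HH l W₁) ≤ cost q G := by
            intro G hG
            have h1 := hc _ (covers_union_big HH l W₁ G hG)
            have h2 := cost_union_le hq G (big HH l W₁)
            linarith
          have h3 := ih (l / 2) hl2 (small HH l W₁) hb' _ hc'
          have h4 : cost q (big HH l W₁) * failP r (small HH l W₁)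
              ≤ cost q (big HH l W₁) * 1 :=
            mul_le_mul_of_nonneg_left (failP_le_one (hr0 j) (hr1 j) _) (cost_nonneg hq _)
          nlinarith [h3, h4]
        calc c * failP (1 - (1 - ρ) ^ (j + 1)) HH
            ≤ c * ∑ W₁ : Finset ι, wt ρ W₁ * failP r (small HH l W₁) :=
              mul_le_mul_of_nonneg_left key hc0.le
          _ = ∑ W₁ : Finset ι, wt ρ W₁ * (c * failP r (small HH l W₁)) := by
              rw [Finset.mul_sum]
              refine Finset.sum_congr rfl (fun W₁ _ => ?_)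
              ring
          _ ≤ ∑ W₁ : Finset ι, wt ρ W₁ * (Bd L (l / 2) + cost q (big HH l W₁)) :=
              Finset.sum_le_sum (fun W₁ _ =>
                mul_le_mul_of_nonneg_left (each W₁) (wt_nonneg hρ0 hρ W₁))
          _ = Bd L (l / 2) + ∑ W₁ : Finset ι, wt ρ W₁ * cost q (big HH l W₁) := by
              simp only [mul_add]
              rw [Finset.sum_add_distrib, ← Finset.sum_mul, sum_wt, one_mul]
          _ ≤ Bd L (l / 2) + 2 ^ l * (1 / L) ^ (l / 2 + 1) := by
              have := round_cost HH l hb L q hL hq hρ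
              linarith
          _ ≤ Bd L l := Bd_step hL l hlpos

/-! ### final abstract statement -/

lemma Bd_le (l : ℕ) : Bd 2048 l ≤ 1 / 1000 := by
  unfold Bd
  have hy : (4 : ℝ) / 2048 = 1 / 512 := by norm_num
  rw [hy]
  have h1 : ∑ a ∈ Finset.range l, ((1 : ℝ) / 512) ^ (a + 1)
      = (1 / 512) * ∑ a ∈ Finset.range l, ((1 : ℝ) / 512) ^ a := by
    rw [Finset.mul_sum]
    refine Finset.sum_congr rfl (fun a _ => ?_)
    rw [pow_succ]
    ring
  have h2 : ∑ a ∈ Finset.range l, ((1 : ℝ) / 512) ^ a ≤ 512 / 511 := by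
    rw [geom_sum_eq (by norm_num)]
    have h3 : 0 ≤ ((1 : ℝ) / 512) ^ l := by positivity
    rw [div_le_iff_of_neg (by norm_num)]
    linarith
  rw [h1]
  linarith

lemma sum_succ_eq (r : ℝ) (HH : Finset (Finset ι)) :
    ∑ W : Finset ι, wt r W * (if Fails HH W then (0 : ℝ) else 1) = 1 - failP r HH := by
  unfold failP
  have h1 : ∑ W : Finset ι, wt r W * (if Fails HH W then (0 : ℝ) else 1)
      + ∑ W : Finset ι, wt r W * (if Fails HH W then (1 : ℝ) else 0) = 1 := by
    rw [← Finset.sum_add_distrib]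
    calc ∑ W : Finset ι, (wt r W * (if Fails HH W then (0 : ℝ) else 1)
          + wt r W * (if Fails HH W then (1 : ℝ) else 0))
        = ∑ W : Finset ι, wt r W := by
          refine Finset.sum_congr rfl (fun W _ => ?_)
          split_ifs <;> ring
      _ = 1 := sum_wt r
  linarith

/-- **Park–Pham, binomial model.** If every cover of the `h`-bounded family `HH` costs at least
`c > 0` at density `q`, a random set of density `min 1 (2048 q (1 + log₂ h))` contains a member
of `HH` with probability at least `1 - 1/(1000 c)`. -/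
theorem pp_abs (HH : Finset (Finset ι)) (h : ℕ) (h1 : 1 ≤ h) (hb : ∀ S ∈ HH, S.card ≤ h)
    (q : ℝ) (hq : 0 ≤ q) (c : ℝ) (hc0 : 0 < c) (hc : ∀ G, Covers G HH → c ≤ cost q G) :
    1 - 1 / (1000 * c) ≤
      ∑ W : Finset ι, wt (min 1 (2048 * q * (1 + Real.logb 2 h))) W *
        (if Fails HH W then (0 : ℝ) else 1) := by
  have hlog0 : 0 ≤ Real.logb 2 (h : ℝ) :=
    Real.logb_nonneg (by norm_num) (by exact_mod_cast h1)
  have hP0 : 0 ≤ min 1 (2048 * q * (1 + Real.logb 2 h)) :=
    le_min (by norm_num) (by positivity)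
  have hP1 : min 1 (2048 * q * (1 + Real.logb 2 h)) ≤ 1 := min_le_left _ _
  have hmono : ∀ W W' : Finset ι, W ⊆ W' →
      (if Fails HH W then (0 : ℝ) else 1) ≤ (if Fails HH W' then (0 : ℝ) else 1) := by
    intro W W' hWW
    by_cases hf : Fails HH W'
    · have : Fails HH W := fun S hS hSW => hf S hS (hSW.trans hWW)
      rw [if_pos hf, if_pos this]
    · rw [if_neg hf]
      split_ifs <;> norm_num
  by_cases hρ : 2048 * q ≤ 1
  · set j := Nat.log 2 h + 1 with hj
    have hlt : h < 2 ^ j := Nat.lt_pow_succ_log_self (by norm_num) h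
    have hmain := pp_rounds (ι := ι) 2048 q (by norm_num) hq hρ j h hlt HH hb c hc
    have hBd := Bd_le h
    set r := 1 - (1 - 2048 * q) ^ j with hr
    have hr0 : 0 ≤ r := by
      have : (1 - 2048 * q) ^ j ≤ 1 := pow_le_one₀ (by linarith) (by linarith [mul_nonneg (by norm_num : (0:ℝ) ≤ 2048) hq])
      linarith
    have hr1 : r ≤ 1 := by
      have : 0 ≤ (1 - 2048 * q) ^ j := pow_nonneg (by linarith) _
      linarith
    have hrP : r ≤ min 1 (2048 * q * (1 + Real.logb 2 h)) := by
      refine le_min hr1 ?_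
      have hbern : 1 + (j : ℝ) * (-(2048 * q)) ≤ (1 + (-(2048 * q))) ^ j :=
        one_add_mul_le_pow (by linarith) j
      have hjlog : (j : ℝ) ≤ 1 + Real.logb 2 h := by
        have := Real.natLog_le_logb h 2
        rw [hj]
        push_cast
        push_cast at this
        linarith
      have h5 : r ≤ (j : ℝ) * (2048 * q) := by
        rw [hr]
        have : (1 + (-(2048 * q))) = 1 - 2048 * q := by ring
        rw [this] at hbern
        linarith
      have h6 : (j : ℝ) * (2048 * q) ≤ (1 + Real.logb 2 h) * (2048 * q) :=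
        mul_le_mul_of_nonneg_right hjlog (by positivity)
      linarith
    have hfail : failP r HH ≤ 1 / (1000 * c) := by
      rw [le_div_iff₀ (by positivity)]
      nlinarith [hmain, hBd]
    calc 1 - 1 / (1000 * c) ≤ 1 - failP r HH := by linarith
      _ = ∑ W : Finset ι, wt r W * (if Fails HH W then (0 : ℝ) else 1) := (sum_succ_eq r HH).symm
      _ ≤ _ := sum_wt_mono hr0 hrP hP1 _ hmono
  · have hρ' : 1 < 2048 * q := not_le.mp hρ
    have hP : min 1 (2048 * q * (1 + Real.logb 2 h)) = 1 := by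
      refine min_eq_left ?_
      nlinarith
    rw [hP]
    have hne : HH.Nonempty := by
      by_contra hne
      rw [Finset.not_nonempty_iff_eq_empty] at hne
      have := hc ∅ (by intro S hS; rw [hne] at hS; simp at hS)
      simp [cost] at this
      linarith
    obtain ⟨S, hS⟩ := hne
    have hnf : ¬ Fails HH (univ : Finset ι) := fun hf => hf S hS (Finset.subset_univ _)
    have hterm : wt 1 (univ : Finset ι) * (if Fails HH (univ : Finset ι) then (0 : ℝ) else 1) = 1 := by
      rw [if_neg hnf, wt_eq_pow]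
      simp
    have hle : wt 1 (univ : Finset ι) * (if Fails HH (univ : Finset ι) then (0 : ℝ) else 1)
        ≤ ∑ W : Finset ι, wt 1 W * (if Fails HH W then (0 : ℝ) else 1) := by
      refine Finset.single_le_sum (f := fun W : Finset ι => wt 1 W * (if Fails HH W then (0 : ℝ) else 1))
        (fun W _ => mul_nonneg (wt_nonneg (by norm_num) (by norm_num) W) ?_) (Finset.mem_univ _)
      split_ifs <;> norm_num
    have hpos : 0 ≤ 1 / (1000 * c) := by positivity
    linarith

end Crest.Agent.S0076Aux.PP21
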