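import Mathlib

/-!
# Bernoulli product weights on finite sets (helper21, S0076Aux)

`wt p W` is the probability that a `p`-random subset of the finite type `ι` equals `W`.
Main facts: total mass one, the union of two independent samples is again a sample,
monotonicity in `p` of the expectation of a monotone function.
-/

set_option autoImplicit false

namespace Crest.Agent.S0076Aux.PP21

open Finset

variable {ι : Type*} [Fintype ι] [DecidableEq ι]

/-- weight of one coin -/
def bw (p : ℝ) (b : Bool) : ℝ := if b then p else 1 - p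

/-- weight of the set `W` under the product measure of density `p` -/
def wt (p : ℝ) (W : Finset ι) : ℝ := ∏ i, bw p (decide (i ∈ W))

/-- the equivalence between Boolean outcomes and finite sets -/
def setEquiv : (ι → Bool) ≃ Finset ι where
  toFun ω := univ.filter (fun i => ω i = true)
  invFun W := fun i => decide (i ∈ W)
  left_inv ω := by
    funext i
    simp
  right_inv W := by
    ext i
    simp

lemma mem_setEquiv (ω : ι → Bool) (i : ι) : i ∈ setEquiv ω ↔ ω i = true := by
  simp [setEquiv]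

lemma wt_setEquiv (p : ℝ) (ω : ι → Bool) : wt p (setEquiv ω) = ∏ i, bw p (ω i) := by
  unfold wt
  refine Finset.prod_congr rfl (fun i _ => ?_)
  congr 1
  cases h : ω i <;> simp [mem_setEquiv, h]

lemma bw_nonneg {p : ℝ} (h0 : 0 ≤ p) (h1 : p ≤ 1) (b : Bool) : 0 ≤ bw p b := by
  unfold bw
  split_ifs
  · exact h0
  · linarith

lemma wt_nonneg {p : ℝ} (h0 : 0 ≤ p) (h1 : p ≤ 1) (W : Finset ι) : 0 ≤ wt p W :=
  Finset.prod_nonneg (fun _ _ => bw_nonneg h0 h1 _)

lemma wt_eq_pow (p : ℝ) (W : Finset ι) : wt p W = p ^ W.card * (1 - p) ^ Wᶜ.card := by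
  unfold wt bw
  simp only [decide_eq_true_eq]
  rw [Finset.prod_ite]
  simp only [Finset.prod_const]
  congr 2
  · congr 1
    ext i
    simp
  · congr 1
    ext i
    simp

/-- sums over sets as sums over Boolean outcomes -/
lemma sum_set_eq_sum_bool (f : Finset ι → ℝ) :
    ∑ W : Finset ι, f W = ∑ ω : ι → Bool, f (setEquiv ω) :=
  (Equiv.sum_comp setEquiv f).symm

lemma sum_bw (p : ℝ) : ∑ b : Bool, bw p b = 1 := by
  simp [bw]

lemma sum_wt (p : ℝ) : ∑ W : Finset ι, wt p W = 1 := by
  rw [sum_set_eq_sum_bool]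
  simp only [wt_setEquiv]
  have := (Finset.prod_univ_sum (fun _ : ι => (univ : Finset Bool)) (fun _ b => bw p b))
  rw [Fintype.piFinset_univ] at this
  rw [← this]
  simp only [sum_bw, Finset.prod_const_one]

lemma setEquiv_union (ω₁ ω₂ : ι → Bool) :
    setEquiv ω₁ ∪ setEquiv ω₂ = setEquiv (fun i => ω₁ i || ω₂ i) := by
  ext i
  simp [mem_setEquiv]

lemma bw_or (a b : ℝ) (c : Bool) :
    ∑ xy ∈ (univ : Finset (Bool × Bool)).filter (fun xy => (xy.1 || xy.2) = c),
      bw a xy.1 * bw b xy.2 = bw (a + b - a * b) c := by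
  rw [Finset.sum_filter, Fintype.sum_prod_type]
  cases c <;> simp [bw] <;> ring

lemma union_fiber (a b : ℝ) (ω : ι → Bool) :
    ∑ η ∈ (univ : Finset (ι → Bool × Bool)).filter
        (fun η => (fun i => ((η i).1 || (η i).2)) = ω),
      ∏ i, (bw a (η i).1 * bw b (η i).2) = ∏ i, bw (a + b - a * b) (ω i) := by
  have h1 : (univ : Finset (ι → Bool × Bool)).filter
        (fun η => (fun i => ((η i).1 || (η i).2)) = ω)
      = Fintype.piFinset (fun i => (univ : Finset (Bool × Bool)).filter
          (fun xy => (xy.1 || xy.2) = ω i)) := by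
    ext η
    simp [Fintype.mem_piFinset, funext_iff]
  rw [h1]
  have h2 := Finset.prod_univ_sum (fun i => (univ : Finset (Bool × Bool)).filter
          (fun xy => (xy.1 || xy.2) = ω i)) (fun (_ : ι) (xy : Bool × Bool) => bw a xy.1 * bw b xy.2)
  rw [← h2]
  exact Finset.prod_congr rfl (fun i _ => bw_or a b (ω i))

/-- The union of two independent samples of densities `a`, `b` is a sample of density
`a + b - a b`. -/
theorem sum_union (a b : ℝ) (F : Finset ι → ℝ) :
    ∑ W₁ : Finset ι, ∑ W₂ : Finset ι, wt a W₁ * wt b W₂ * F (W₁ ∪ W₂)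
      = ∑ W : Finset ι, wt (a + b - a * b) W * F W := by
  rw [sum_set_eq_sum_bool]
  simp_rw [sum_set_eq_sum_bool (fun W₂ => wt a _ * wt b W₂ * F (_ ∪ W₂))]
  rw [sum_set_eq_sum_bool (fun W => wt (a + b - a * b) W * F W)]
  simp only [wt_setEquiv, setEquiv_union]
  rw [← Finset.sum_product']
  rw [Finset.univ_product_univ]
  rw [← Equiv.sum_comp (Equiv.arrowProdEquivProdArrow ι (fun _ : ι => Bool) (fun _ : ι => Bool))]
  rw [← Finset.sum_fiberwise (univ : Finset (ι → Bool × Bool))
    (fun η => (fun i => ((η i).1 || (η i).2)))]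
  refine Finset.sum_congr rfl (fun ω _ => ?_)
  rw [← union_fiber a b ω, Finset.sum_mul]
  refine Finset.sum_congr rfl (fun η hη => ?_)
  have hη' : (fun i => ((η i).1 || (η i).2)) = ω := (Finset.mem_filter.mp hη).2
  simp only [Equiv.arrowProdEquivProdArrow_apply, Finset.prod_mul_distrib]
  rw [hη']

/-- Expectation of a monotone function is monotone in the density. -/
theorem sum_wt_mono {p p' : ℝ} (h0 : 0 ≤ p) (hpp : p ≤ p') (h1 : p' ≤ 1)
    (F : Finset ι → ℝ) (hF : ∀ W W' : Finset ι, W ⊆ W' → F W ≤ F W') :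
    ∑ W : Finset ι, wt p W * F W ≤ ∑ W : Finset ι, wt p' W * F W := by
  rcases eq_or_lt_of_le (le_trans hpp h1) with hp1 | hp1
  · have : p' = p := le_antisymm (by linarith) hpp
    rw [this]
  · set b : ℝ := (p' - p) / (1 - p) with hb
    have hpos : 0 < 1 - p := by linarith
    have hb0 : 0 ≤ b := div_nonneg (by linarith) hpos.le
    have hb1 : b ≤ 1 := by
      rw [hb, div_le_one hpos]
      linarith
    have hr : p + b - p * b = p' := by
      rw [hb]
      field_simp
      ring
    rw [← hr, ← sum_union p b F]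
    refine Finset.sum_le_sum (fun W₁ _ => ?_)
    calc wt p W₁ * F W₁ = ∑ W₂ : Finset ι, wt p W₁ * wt b W₂ * F W₁ := by
          rw [← Finset.sum_mul, ← Finset.mul_sum, sum_wt, mul_one]
      _ ≤ ∑ W₂ : Finset ι, wt p W₁ * wt b W₂ * F (W₁ ∪ W₂) := by
          refine Finset.sum_le_sum (fun W₂ _ => ?_)
          refine mul_le_mul_of_nonneg_left (hF _ _ Finset.subset_union_left) ?_
          exact mul_nonneg (wt_nonneg h0 (by linarith) _) (wt_nonneg hb0 hb1 _)

end Crest.Agent.S0076Aux.PP21
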