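import Crest.Agent.S0076Aux.PP21Abs
import Crest.Prelude.Def_FinProb
import Crest.Prelude.Def_RandomGraph

/-!
# Park–Pham for copies of a graph in the binomial random graph (helper21, S0076Aux)

`contains_of_spread`: if the uniform random copy of `H` in `K_n` is `q`-spread (up to a constant
`A ≤ 500`) then `G(n, min 1 (2048 q (1 + log₂ e(H))))` contains `H` with probability `≥ 1/2`.
-/

set_option autoImplicit false
set_option linter.unusedSectionVars false

namespace Crest.Agent.S0076Aux.PP21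

open Finset Crest.CombinatoricsR.RandomGraph

variable {n : ℕ} {V : Type} [Fintype V] [DecidableEq V]

open Classical in
/-- the coin positions used by the copy `φ(H)` -/
noncomputable def slotSet (H : SimpleGraph V) (φ : V ↪ Fin n) : Finset (EdgeSlot n) :=
  univ.filter (fun s => s.1 ∈ (H.map φ).edgeSet)

lemma mem_slotSet (H : SimpleGraph V) (φ : V ↪ Fin n) (s : EdgeSlot n) :
    s ∈ slotSet H φ ↔ s.1 ∈ (H.map φ).edgeSet := by
  unfold slotSet
  simp

lemma card_slotSet_le (H : SimpleGraph V) [DecidableRel H.Adj] (φ : V ↪ Fin n) :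
    (slotSet H φ).card ≤ H.edgeFinset.card := by
  classical
  have h1 : (slotSet H φ).card = ((slotSet H φ).image Subtype.val).card :=
    (Finset.card_image_of_injective _ Subtype.val_injective).symm
  rw [h1]
  have h2 : (slotSet H φ).image Subtype.val ⊆ H.edgeFinset.image φ.sym2Map := by
    intro z hz
    obtain ⟨s, hs, rfl⟩ := Finset.mem_image.mp hz
    rw [mem_slotSet, SimpleGraph.edgeSet_map] at hs
    obtain ⟨e, he, hes⟩ := hs
    exact Finset.mem_image.mpr ⟨e, SimpleGraph.mem_edgeFinset.mpr he, hes⟩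
  exact (Finset.card_le_card h2).trans Finset.card_image_le

/-- the family of all copies of `H` in `K_n`, as sets of coin positions -/
noncomputable def copies (n : ℕ) (H : SimpleGraph V) : Finset (Finset (EdgeSlot n)) :=
  (univ : Finset (V ↪ Fin n)).image (slotSet H)

lemma isContained_of_not_fails (H : SimpleGraph V) (ω : EdgeSlot n → Bool)
    (h : ¬ Fails (copies n H) (setEquiv ω)) : H.IsContained (graphOf ω) := by
  unfold Fails at h
  push Not at h
  obtain ⟨S, hS, hSW⟩ := h
  obtain ⟨φ, _, rfl⟩ := Finset.mem_image.mp hS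
  refine ⟨⟨⟨φ, ?_⟩, φ.injective⟩⟩
  intro a b hab
  have hne : φ a ≠ φ b := fun he => hab.ne (φ.injective he)
  have hnd : ¬ (s(φ a, φ b) : Sym2 (Fin n)).IsDiag := by
    rw [Sym2.mk_isDiag_iff]
    exact hne
  have hmem : (⟨s(φ a, φ b), hnd⟩ : EdgeSlot n) ∈ slotSet H φ := by
    rw [mem_slotSet, SimpleGraph.mem_edgeSet]
    exact SimpleGraph.map_adj_apply.mpr hab
  have hW := hSW hmem
  rw [mem_setEquiv] at hW
  unfold graphOf
  rw [SimpleGraph.fromEdgeSet_adj]
  exact ⟨⟨hnd, hW⟩, hne⟩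

lemma bernoulliWeight_eq (p : ℝ) (ω : EdgeSlot n → Bool) :
    Crest.FinProb.bernoulliWeight p ω = wt p (setEquiv ω) := by
  rw [wt_setEquiv]
  rfl

theorem le_gnpProb (H : SimpleGraph V) (P : ℝ) (h0 : 0 ≤ P) (h1 : P ≤ 1) :
    ∑ W : Finset (EdgeSlot n), wt P W * (if Fails (copies n H) W then (0 : ℝ) else 1)
      ≤ gnpProb n P {G | H.IsContained G} := by
  classical
  unfold gnpProb Crest.FinProb.bernoulliProb
  rw [sum_set_eq_sum_bool, Finset.sum_filter]
  refine Finset.sum_le_sum (fun ω _ => ?_)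
  rw [bernoulliWeight_eq]
  have hw := wt_nonneg h0 h1 (setEquiv ω)
  by_cases hf : Fails (copies n H) (setEquiv ω)
  · rw [if_pos hf, mul_zero]
    split_ifs
    · exact hw
    · exact le_refl _
  · rw [if_neg hf, mul_one]
    have : ω ∈ {ω : EdgeSlot n → Bool | graphOf ω ∈ {G | H.IsContained G}} :=
      isContained_of_not_fails H ω hf
    rw [if_pos this]

open Classical in
/-- **Graph form of Park–Pham.**  `(SPREAD)` is the hypothesis `hs`. -/
theorem contains_of_spread (n : ℕ) (H : SimpleGraph V) [DecidableRel H.Adj]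
    (hV : Fintype.card V ≤ n) (hH : 1 ≤ H.edgeFinset.card)
    (q : ℝ) (hq : 0 ≤ q) (A : ℝ) (hA0 : 0 < A) (hA : A ≤ 500)
    (hs : ∀ T : Finset (EdgeSlot n),
      (((univ : Finset (V ↪ Fin n)).filter (fun φ => T ⊆ slotSet H φ)).card : ℝ)
        ≤ A * q ^ T.card * (Fintype.card (V ↪ Fin n) : ℝ)) :
    (1 : ℝ) / 2 ≤ gnpProb n (min 1 (2048 * q * (1 + Real.logb 2 (H.edgeFinset.card : ℝ))))
      {G | H.IsContained G} := by
  have hlog0 : 0 ≤ Real.logb 2 (H.edgeFinset.card : ℝ) :=
    Real.logb_nonneg (by norm_num) (by exact_mod_cast hH)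
  have hP0 : 0 ≤ min 1 (2048 * q * (1 + Real.logb 2 (H.edgeFinset.card : ℝ))) :=
    le_min (by norm_num) (by positivity)
  have hP1 : min 1 (2048 * q * (1 + Real.logb 2 (H.edgeFinset.card : ℝ))) ≤ 1 := min_le_left _ _
  refine le_trans ?_ (le_gnpProb H _ hP0 hP1)
  have hb : ∀ S ∈ copies n H, S.card ≤ H.edgeFinset.card := by
    intro S hS
    obtain ⟨φ, _, rfl⟩ := Finset.mem_image.mp hS
    exact card_slotSet_le H φ
  have hne : Nonempty (V ↪ Fin n) :=
    Function.Embedding.nonempty_of_card_le (by simpa using hV)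
  have hN : (0 : ℝ) < (Fintype.card (V ↪ Fin n) : ℝ) := by
    exact_mod_cast Fintype.card_pos
  have hc : ∀ G, Covers G (copies n H) → 1 / A ≤ cost q G := by
    intro G hG
    have h1 : (Fintype.card (V ↪ Fin n) : ℝ)
        ≤ ∑ T ∈ G, (((univ : Finset (V ↪ Fin n)).filter (fun φ => T ⊆ slotSet H φ)).card : ℝ) := by
      have h2 : ∀ φ : V ↪ Fin n, (1 : ℝ) ≤ ∑ T ∈ G, (if T ⊆ slotSet H φ then (1 : ℝ) else 0) := by
        intro φ
        obtain ⟨T, hT, hTs⟩ := hG (slotSet H φ) (Finset.mem_image_of_mem _ (Finset.mem_univ φ))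
        calc (1 : ℝ) = (if T ⊆ slotSet H φ then (1 : ℝ) else 0) := by rw [if_pos hTs]
          _ ≤ ∑ T ∈ G, (if T ⊆ slotSet H φ then (1 : ℝ) else 0) :=
            Finset.single_le_sum (f := fun T => if T ⊆ slotSet H φ then (1 : ℝ) else 0)
              (fun T _ => by split_ifs <;> norm_num) hT
      calc (Fintype.card (V ↪ Fin n) : ℝ) = ∑ _φ : V ↪ Fin n, (1 : ℝ) := by simp
        _ ≤ ∑ φ : V ↪ Fin n, ∑ T ∈ G, (if T ⊆ slotSet H φ then (1 : ℝ) else 0) :=
          Finset.sum_le_sum (fun φ _ => h2 φ)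
        _ = ∑ T ∈ G, ∑ φ : V ↪ Fin n, (if T ⊆ slotSet H φ then (1 : ℝ) else 0) :=
          Finset.sum_comm
        _ = _ := by
          refine Finset.sum_congr rfl (fun T _ => ?_)
          rw [Finset.sum_boole]
    have h3 : ∑ T ∈ G, (((univ : Finset (V ↪ Fin n)).filter (fun φ => T ⊆ slotSet H φ)).card : ℝ)
        ≤ A * cost q G * (Fintype.card (V ↪ Fin n) : ℝ) := by
      unfold cost
      rw [Finset.mul_sum, Finset.sum_mul]
      exact Finset.sum_le_sum (fun T _ => hs T)
    have h4 : (1 : ℝ) ≤ A * cost q G := by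
      by_contra hlt
      have hlt' : A * cost q G < 1 := not_le.mp hlt
      have := mul_lt_mul_of_pos_right hlt' hN
      linarith
    rw [div_le_iff₀ hA0]
    linarith
  have hmain := pp_abs (copies n H) H.edgeFinset.card hH hb q hq (1 / A) (by positivity) hc
  have h5 : (1 : ℝ) / 2 ≤ 1 - 1 / (1000 * (1 / A)) := by
    have : 1 / (1000 * (1 / A)) = A / 1000 := by
      field_simp
    rw [this]
    linarith
  exact h5.trans hmain

end Crest.Agent.S0076Aux.PP21
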