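import Mathlib
import Crest.Prelude.Def_FinProb

/-!
# S0076Aux.PP48Bern : product Bernoulli weights on finite sets

`mu p W` is the weight of the finite set `W ⊆ ι` when every point of `ι` is kept independently with
probability `p`.  Basic facts: total mass, shifting a set, law of the union of two independent
random sets, monotonicity of up-sets, dictionary with `Crest.FinProb.bernoulliWeight`.
-/

set_option autoImplicit false

namespace Crest.Agent.S0076Aux.PP48

open Finset Crest.FinProb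

variable {ι : Type*} [Fintype ι] [DecidableEq ι]

/-- weight of one coin -/
noncomputable def w (p : ℝ) (b : Bool) : ℝ := if b then p else 1 - p

/-- Weight of the finite set `W` under the product Bernoulli(`p`) measure. -/
noncomputable def mu (p : ℝ) (W : Finset ι) : ℝ := ∏ i, if i ∈ W then p else 1 - p

/-- The set of heads of an outcome. -/
def heads (ω : ι → Bool) : Finset ι := univ.filter (fun i => ω i = true)

/-- outcomes `≃` finite sets -/
def headsEquiv : (ι → Bool) ≃ Finset ι where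
  toFun := heads
  invFun W := fun i => decide (i ∈ W)
  left_inv ω := by
    funext i
    simp [heads]
  right_inv W := by
    ext i
    simp [heads]

@[simp] lemma mem_heads (ω : ι → Bool) (i : ι) : i ∈ heads ω ↔ ω i = true := by
  simp [heads]

lemma mu_heads (p : ℝ) (ω : ι → Bool) : mu p (heads ω) = bernoulliWeight p ω := by
  unfold mu bernoulliWeight
  refine Finset.prod_congr rfl (fun i _ => ?_)
  simp [mem_heads]

lemma sum_bern_eq_sum_mu (p : ℝ) (f : Finset ι → ℝ) :
    ∑ ω : ι → Bool, bernoulliWeight p ω * f (heads ω) = ∑ W : Finset ι, mu p W * f W := by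
  refine Fintype.sum_equiv headsEquiv _ _ (fun ω => ?_)
  show _ = mu p (heads ω) * f (heads ω)
  rw [mu_heads]

lemma mu_nonneg {p : ℝ} (h0 : 0 ≤ p) (h1 : p ≤ 1) (W : Finset ι) : 0 ≤ mu p W :=
  Finset.prod_nonneg (fun i _ => by split_ifs <;> linarith)

lemma mu_eq (p : ℝ) (W : Finset ι) : mu p W = p ^ #W * (1 - p) ^ #(univ \ W) := by
  unfold mu
  rw [Finset.prod_ite]
  simp only [Finset.prod_const]
  congr 2
  · congr 1
    ext i; simp
  · congr 1
    ext i; simp

lemma sum_mu (p : ℝ) : ∑ W : Finset ι, mu p W = 1 := by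
  have h := Finset.prod_add (fun _ : ι => p) (fun _ : ι => 1 - p) univ
  simp only [Finset.prod_const, add_sub_cancel, one_pow, Finset.powerset_univ] at h
  rw [h]
  exact Finset.sum_congr rfl (fun W _ => mu_eq p W)

/-- shifting: adding a disjoint set `U` -/
lemma mu_union_disjoint (p : ℝ) {W U : Finset ι} (h : Disjoint U W) :
    p ^ #U * mu p W = (1 - p) ^ #U * mu p (W ∪ U) := by
  rw [mu_eq, mu_eq]
  have h1 : #(W ∪ U) = #W + #U := Finset.card_union_of_disjoint h.symm
  have h2 : univ \ W = (univ \ (W ∪ U)) ∪ U := by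
    ext i
    simp only [mem_sdiff, mem_univ, true_and, mem_union, not_or]
    constructor
    · intro hi
      by_cases hU : i ∈ U
      · exact Or.inr hU
      · exact Or.inl ⟨hi, hU⟩
    · rintro (⟨hi, _⟩ | hi)
      · exact hi
      · exact fun hW => (Finset.disjoint_left.mp h hi hW)
  have h3 : #(univ \ W) = #(univ \ (W ∪ U)) + #U := by
    rw [h2]
    apply Finset.card_union_of_disjoint
    rw [Finset.disjoint_left]
    intro i hi hU
    simp only [mem_sdiff, mem_univ, true_and, mem_union, not_or] at hi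
    exact hi.2 hU
  rw [h1, h3, pow_add, pow_add]
  ring

lemma pow_mul_mu_le {p : ℝ} (h0 : 0 ≤ p) (h1 : p ≤ 1) {W U : Finset ι} (h : Disjoint U W) :
    p ^ #U * mu p W ≤ mu p (W ∪ U) := by
  rw [mu_union_disjoint p h]
  have : (1 - p) ^ #U ≤ 1 := pow_le_one₀ (by linarith) (by linarith)
  calc (1 - p) ^ #U * mu p (W ∪ U) ≤ 1 * mu p (W ∪ U) :=
        mul_le_mul_of_nonneg_right this (mu_nonneg h0 h1 _)
    _ = _ := one_mul _

lemma mu_zero (W : Finset ι) : mu (0 : ℝ) W = if W = ∅ then 1 else 0 := by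
  unfold mu
  split_ifs with h
  · subst h; simp
  · obtain ⟨i, hi⟩ := Finset.nonempty_iff_ne_empty.mpr h
    exact Finset.prod_eq_zero (mem_univ i) (by simp [hi])

lemma mu_one (W : Finset ι) : mu (1 : ℝ) W = if W = univ then 1 else 0 := by
  unfold mu
  split_ifs with h
  · subst h; simp
  · have : ∃ i, i ∉ W := by
      by_contra hcon
      push Not at hcon
      exact h (Finset.eq_univ_iff_forall.mpr hcon)
    obtain ⟨i, hi⟩ := this
    exact Finset.prod_eq_zero (mem_univ i) (by simp [hi])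

/-- one-coordinate computation for the union of two coins -/
lemma w_union (p1 p2 : ℝ) (c : Bool) :
    ∑ ab : Bool × Bool, (if (ab.1 || ab.2) = c then w p1 ab.1 * w p2 ab.2 else 0)
      = w (1 - (1 - p1) * (1 - p2)) c := by
  cases c <;> simp [Fintype.sum_prod_type, w] <;> ring

lemma bern_eq_prod_w (p : ℝ) (ω : ι → Bool) : bernoulliWeight p ω = ∏ i, w p (ω i) := rfl

lemma bern_union_fiber (p1 p2 : ℝ) (ζ : ι → Bool) :
    ∑ x : ι → Bool × Bool,
      (if (fun i => ((x i).1 || (x i).2)) = ζ then ∏ i, (w p1 (x i).1 * w p2 (x i).2) else 0)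
      = bernoulliWeight (1 - (1 - p1) * (1 - p2)) ζ := by
  rw [bern_eq_prod_w]
  have h : ∀ i, w (1 - (1 - p1) * (1 - p2)) (ζ i)
      = ∑ ab : Bool × Bool, (if (ab.1 || ab.2) = ζ i then w p1 ab.1 * w p2 ab.2 else 0) :=
    fun i => (w_union p1 p2 (ζ i)).symm
  simp_rw [h]
  rw [Fintype.prod_sum]
  refine Finset.sum_congr rfl (fun x _ => ?_)
  split_ifs with hx
  · refine Finset.prod_congr rfl (fun i _ => ?_)
    have := congrFun hx i
    rw [if_pos this]
  · have : ∃ i, ((x i).1 || (x i).2) ≠ ζ i := by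
      by_contra hcon
      push Not at hcon
      exact hx (funext hcon)
    obtain ⟨i, hi⟩ := this
    exact (Finset.prod_eq_zero (mem_univ i) (by rw [if_neg hi])).symm

/-- law of the union of two independent Bernoulli random sets (outcome form) -/
lemma bern_union (p1 p2 : ℝ) (f : (ι → Bool) → ℝ) :
    ∑ ω1 : ι → Bool, ∑ ω2 : ι → Bool,
        bernoulliWeight p1 ω1 * bernoulliWeight p2 ω2 * f (fun i => ω1 i || ω2 i)
      = ∑ ζ : ι → Bool, bernoulliWeight (1 - (1 - p1) * (1 - p2)) ζ * f ζ := by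
  have hR : ∀ ζ : ι → Bool, bernoulliWeight (1 - (1 - p1) * (1 - p2)) ζ * f ζ
      = ∑ x : ι → Bool × Bool,
      (if (fun i => ((x i).1 || (x i).2)) = ζ then
        (∏ i, (w p1 (x i).1 * w p2 (x i).2)) * f (fun i => ((x i).1 || (x i).2)) else 0) := by
    intro ζ
    rw [← bern_union_fiber, Finset.sum_mul]
    refine Finset.sum_congr rfl (fun x _ => ?_)
    split_ifs with hx
    · rw [hx]
    · simp
  simp_rw [hR]
  conv_rhs => rw [Finset.sum_comm]
  simp only [Finset.sum_ite_eq, mem_univ, if_true]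
  rw [← Fintype.sum_prod_type']
  refine Fintype.sum_equiv (Equiv.arrowProdEquivProdArrow ι (fun _ => Bool) (fun _ => Bool)).symm
    _ _ (fun x => ?_)
  simp only [Equiv.arrowProdEquivProdArrow, Equiv.coe_fn_symm_mk, bern_eq_prod_w,
    Finset.prod_mul_distrib]

lemma heads_or (ω1 ω2 : ι → Bool) : heads (fun i => ω1 i || ω2 i) = heads ω1 ∪ heads ω2 := by
  ext i; simp

/-- law of the union of two independent Bernoulli random sets (finite set form) -/
lemma mu_union (p1 p2 : ℝ) (f : Finset ι → ℝ) :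
    ∑ W1 : Finset ι, ∑ W2 : Finset ι, mu p1 W1 * mu p2 W2 * f (W1 ∪ W2)
      = ∑ Z : Finset ι, mu (1 - (1 - p1) * (1 - p2)) Z * f Z := by
  rw [← sum_bern_eq_sum_mu, ← bern_union]
  have h1 : ∀ W1 : Finset ι, ∑ W2 : Finset ι, mu p1 W1 * mu p2 W2 * f (W1 ∪ W2)
      = mu p1 W1 * ∑ ω2 : ι → Bool, bernoulliWeight p2 ω2 * f (W1 ∪ heads ω2) := by
    intro W1
    rw [sum_bern_eq_sum_mu p2 (fun W2 => f (W1 ∪ W2)), Finset.mul_sum]
    exact Finset.sum_congr rfl (fun W2 _ => by ring)
  simp_rw [h1]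
  rw [← sum_bern_eq_sum_mu p1
    (fun W1 => ∑ ω2 : ι → Bool, bernoulliWeight p2 ω2 * f (W1 ∪ heads ω2))]
  refine Finset.sum_congr rfl (fun ω1 _ => ?_)
  rw [Finset.mul_sum]
  refine Finset.sum_congr rfl (fun ω2 _ => ?_)
  rw [heads_or]
  ring

/-- expectations of monotone functions are monotone in `p` -/
lemma sum_mu_mono {p p' : ℝ} (h0 : 0 ≤ p) (hpp' : p ≤ p') (h1 : p' ≤ 1) (f : Finset ι → ℝ)
    (hf : ∀ A B : Finset ι, A ⊆ B → f A ≤ f B) :
    ∑ W : Finset ι, mu p W * f W ≤ ∑ W : Finset ι, mu p' W * f W := by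
  rcases eq_or_lt_of_le (hpp'.trans h1) with hp1 | hp1
  · have : p' = p := le_antisymm (by rw [hp1]; exact h1) hpp'
    rw [this]
  · have hpos : 0 < 1 - p := by linarith
    set p2 : ℝ := 1 - (1 - p') / (1 - p) with hp2
    have hp2_0 : 0 ≤ p2 := by
      rw [hp2, sub_nonneg, div_le_one hpos]; linarith
    have hp2_1 : p2 ≤ 1 := by
      rw [hp2]
      have : 0 ≤ (1 - p') / (1 - p) := div_nonneg (by linarith) hpos.le
      linarith
    have hcomb : 1 - (1 - p) * (1 - p2) = p' := by
      rw [hp2]; field_simp; ring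
    rw [← hcomb, ← mu_union]
    refine Finset.sum_le_sum (fun W1 _ => ?_)
    calc mu p W1 * f W1 = ∑ W2 : Finset ι, mu p W1 * mu p2 W2 * f W1 := by
          rw [← Finset.sum_mul, ← Finset.mul_sum, sum_mu, mul_one]
      _ ≤ _ := by
          refine Finset.sum_le_sum (fun W2 _ => ?_)
          exact mul_le_mul_of_nonneg_left (hf _ _ Finset.subset_union_left)
            (mul_nonneg (mu_nonneg h0 (hpp'.trans h1) _) (mu_nonneg hp2_0 hp2_1 _))

end Crest.Agent.S0076Aux.PP48
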