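import Mathlib
import Crest.Agent.S0076Aux.PP48Bern

/-!
# S0076Aux.PP48Round : one round of the Park–Pham minimum-fragment argument (binomial model)
-/

set_option autoImplicit false
set_option linter.unusedSectionVars false

namespace Crest.Agent.S0076Aux.PP48

open Finset

variable {ι : Type*} [Fintype ι] [DecidableEq ι]
variable {σ : Type*} [Fintype σ] [DecidableEq σ]

/-- `IsFrag A T W T'` : for every alive index `s ∈ A`, `T' s` is a minimum fragment of `T s`
with respect to `W` and the family `(T s')_{s' ∈ A}`. -/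
def IsFrag (A : Finset σ) (T : σ → Finset ι) (W : Finset ι) (T' : σ → Finset ι) : Prop :=
  ∀ s ∈ A, ∃ s' ∈ A, T s' ⊆ W ∪ T s ∧ T' s = T s' \ W ∧
    ∀ s'' ∈ A, T s'' ⊆ W ∪ T s → #(T' s) ≤ #(T s'' \ W)

lemma exists_isFrag (A : Finset σ) (T : σ → Finset ι) (W : Finset ι) :
    ∃ T' : σ → Finset ι, IsFrag A T W T' := by
  classical
  have h : ∀ s : σ, ∃ X : Finset ι, s ∈ A → ∃ s' ∈ A, T s' ⊆ W ∪ T s ∧ X = T s' \ W ∧
      ∀ s'' ∈ A, T s'' ⊆ W ∪ T s → #X ≤ #(T s'' \ W) := by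
    intro s
    by_cases hs : s ∈ A
    · have hne : (A.filter (fun s' => T s' ⊆ W ∪ T s)).Nonempty :=
        ⟨s, by simp [hs, Finset.subset_union_right]⟩
      obtain ⟨s', hs', hmin⟩ := Finset.exists_min_image _ (fun s' => #(T s' \ W)) hne
      rw [Finset.mem_filter] at hs'
      refine ⟨T s' \ W, fun _ => ⟨s', hs'.1, hs'.2, rfl, fun s'' h1 h2 => ?_⟩⟩
      exact hmin s'' (by simp [h1, h2])
    · exact ⟨∅, fun h => absurd h hs⟩
  choose X hX using h
  exact ⟨X, fun s hs => hX s hs⟩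

lemma IsFrag.subset {A : Finset σ} {T : σ → Finset ι} {W : Finset ι} {T' : σ → Finset ι}
    (h : IsFrag A T W T') {s : σ} (hs : s ∈ A) : T' s ⊆ T s := by
  obtain ⟨s', _, h1, h2, _⟩ := h s hs
  rw [h2]
  intro i hi
  rw [Finset.mem_sdiff] at hi
  rcases Finset.mem_union.mp (h1 hi.1) with h | h
  · exact absurd h hi.2
  · exact h

lemma IsFrag.disjoint {A : Finset σ} {T : σ → Finset ι} {W : Finset ι} {T' : σ → Finset ι}
    (h : IsFrag A T W T') {s : σ} (hs : s ∈ A) : Disjoint (T' s) W := by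
  obtain ⟨s', _, _, h2, _⟩ := h s hs
  rw [h2]
  exact Finset.sdiff_disjoint

/-- if the new fragment of `s` lies in `W'` then some old fragment lies in `W ∪ W'` -/
lemma IsFrag.covered {A : Finset σ} {T : σ → Finset ι} {W : Finset ι} {T' : σ → Finset ι}
    (h : IsFrag A T W T') {s : σ} (hs : s ∈ A) {W' : Finset ι} (hW' : T' s ⊆ W') :
    ∃ s' ∈ A, T s' ⊆ W ∪ W' := by
  obtain ⟨s', hs', _, h2, _⟩ := h s hs
  refine ⟨s', hs', fun i hi => ?_⟩
  by_cases hiW : i ∈ W
  · exact Finset.mem_union_left _ hiW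
  · exact Finset.mem_union_right _ (hW' (by rw [h2]; exact Finset.mem_sdiff.mpr ⟨hi, hiW⟩))

/-- canonical member of the family inside `Z` -/
noncomputable def canon (A : Finset σ) (T : σ → Finset ι) (Z : Finset ι) : Finset ι :=
  open Classical in if h : ∃ s ∈ A, T s ⊆ Z then T (Classical.choose h) else ∅

lemma canon_spec {A : Finset σ} {T : σ → Finset ι} {Z : Finset ι} (h : ∃ s ∈ A, T s ⊆ Z) :
    ∃ s ∈ A, canon A T Z = T s ∧ T s ⊆ Z := by
  refine ⟨Classical.choose h, (Classical.choose_spec h).1, ?_, (Classical.choose_spec h).2⟩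
  unfold canon
  rw [dif_pos h]

lemma card_canon_le {A : Finset σ} {T : σ → Finset ι} {ℓ : ℕ} (hT : ∀ s ∈ A, #(T s) ≤ ℓ)
    (Z : Finset ι) : #(canon A T Z) ≤ ℓ := by
  by_cases h : ∃ s ∈ A, T s ⊆ Z
  · obtain ⟨s, hs, h1, _⟩ := canon_spec h
    rw [h1]; exact hT s hs
  · unfold canon
    rw [dif_neg h]; simp

/-- The key observation of Park–Pham: the minimum fragment is contained in the canonical member
of the family inside `W ∪ T' s`. -/
lemma IsFrag.subset_canon {A : Finset σ} {T : σ → Finset ι} {W : Finset ι} {T' : σ → Finset ι}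
    (h : IsFrag A T W T') {s : σ} (hs : s ∈ A) : T' s ⊆ canon A T (W ∪ T' s) := by
  obtain ⟨s', hs', h1, h2, hmin⟩ := h s hs
  have hex : ∃ s0 ∈ A, T s0 ⊆ W ∪ T' s := h.covered hs (Finset.Subset.refl _)
  obtain ⟨s0, hs0, hc, hsub⟩ := canon_spec hex
  rw [hc]
  have hsub2 : T s0 ⊆ W ∪ T s :=
    hsub.trans (Finset.union_subset_union (Finset.Subset.refl _) (h.subset hs))
  have hcard := hmin s0 hs0 hsub2
  have hsub3 : T s0 \ W ⊆ T' s := by
    intro i hi
    rw [Finset.mem_sdiff] at hi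
    rcases Finset.mem_union.mp (hsub hi.1) with h | h
    · exact absurd h hi.2
    · exact h
  have heq : T s0 \ W = T' s := Finset.eq_of_subset_of_card_le hsub3 hcard
  rw [← heq]
  exact Finset.sdiff_subset

/-- the possible fragments `U` for a given `W` -/
noncomputable def fragSet (A : Finset σ) (T : σ → Finset ι) (m : ℕ) (W : Finset ι) :
    Finset (Finset ι) :=
  univ.filter (fun U : Finset ι => m ≤ #U ∧ Disjoint U W ∧ U ⊆ canon A T (W ∪ U))

/-- re-indexing `(W,U) ↦ (W ∪ U, U)` -/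
lemma sum_fragSet_le (A : Finset σ) (T : σ → Finset ι) (m ℓ : ℕ) (hTl : ∀ s ∈ A, #(T s) ≤ ℓ)
    {P : ℝ} (hP0 : 0 ≤ P) (hP1 : P ≤ 1) :
    ∑ W : Finset ι, ∑ U ∈ fragSet A T m W, mu P (W ∪ U) ≤ 2 ^ ℓ := by
  classical
  set D : Finset (Finset ι × Finset ι) := univ.filter (fun x => x.2 ∈ fragSet A T m x.1) with hD
  set D' : Finset (Finset ι × Finset ι) :=
    univ.filter (fun y => y.2 ∈ (canon A T y.1).powerset) with hD'
  have e1 : ∑ W : Finset ι, ∑ U ∈ fragSet A T m W, mu P (W ∪ U)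
      = ∑ x ∈ D, mu P (x.1 ∪ x.2) :=
    (Finset.sum_finset_product' D univ (fragSet A T m) (by intro x; simp [hD])
      (f := fun W U => mu P (W ∪ U))).symm
  have e2 : ∑ Z : Finset ι, ∑ _U ∈ (canon A T Z).powerset, mu P Z = ∑ y ∈ D', mu P y.1 :=
    (Finset.sum_finset_product' D' univ (fun Z => (canon A T Z).powerset)
      (by intro x; simp [hD']) (f := fun Z _ => mu P Z)).symm
  set φ : Finset ι × Finset ι → Finset ι × Finset ι := fun x => (x.1 ∪ x.2, x.2) with hφ
  have hinj : Set.InjOn φ (D : Set (Finset ι × Finset ι)) := by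
    rintro ⟨W1, U1⟩ h1 ⟨W2, U2⟩ h2 h
    simp only [hD, fragSet, Finset.coe_filter, Finset.mem_univ, true_and, Set.mem_ofPred_eq,
      Finset.mem_filter] at h1 h2
    simp only [hφ, Prod.mk.injEq] at h
    obtain ⟨hZ, hU⟩ := h
    subst hU
    have a1 : W1 = (W1 ∪ U1) \ U1 := by
      rw [Finset.union_sdiff_right]
      exact (Finset.sdiff_eq_self_of_disjoint h1.2.1.symm).symm
    have a2 : W2 = (W2 ∪ U1) \ U1 := by
      rw [Finset.union_sdiff_right]
      exact (Finset.sdiff_eq_self_of_disjoint h2.2.1.symm).symm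
    rw [a1, a2, hZ]
  have e3 : ∑ x ∈ D, mu P (x.1 ∪ x.2) = ∑ y ∈ D.image φ, mu P y.1 :=
    (Finset.sum_image (f := fun y : Finset ι × Finset ι => mu P y.1) hinj).symm
  have hsub : D.image φ ⊆ D' := by
    intro y hy
    rw [Finset.mem_image] at hy
    obtain ⟨⟨W, U⟩, hx, rfl⟩ := hy
    simp only [hD, fragSet, Finset.mem_filter, Finset.mem_univ, true_and] at hx
    simp only [hD', hφ, Finset.mem_filter, Finset.mem_univ, true_and, Finset.mem_powerset]
    exact hx.2.2
  calc ∑ W : Finset ι, ∑ U ∈ fragSet A T m W, mu P (W ∪ U)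
      = ∑ y ∈ D.image φ, mu P y.1 := e1.trans e3
    _ ≤ ∑ y ∈ D', mu P y.1 :=
        Finset.sum_le_sum_of_subset_of_nonneg hsub (fun y _ _ => mu_nonneg hP0 hP1 _)
    _ = ∑ Z : Finset ι, ∑ _U ∈ (canon A T Z).powerset, mu P Z := e2.symm
    _ ≤ ∑ Z : Finset ι, 2 ^ ℓ * mu P Z := by
        refine Finset.sum_le_sum (fun Z _ => ?_)
        rw [Finset.sum_const, Finset.card_powerset, nsmul_eq_mul]
        refine mul_le_mul_of_nonneg_right ?_ (mu_nonneg hP0 hP1 _)
        push_cast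
        exact pow_le_pow_right₀ (by norm_num) (card_canon_le hTl Z)
    _ = 2 ^ ℓ := by rw [← Finset.mul_sum, sum_mu, mul_one]

/-- **One round.**  Expected number of indices whose new fragment has at least `m` elements. -/
theorem round_bound (S : σ → Finset ι) (c0 q L : ℝ) (hc0 : 0 ≤ c0) (hq : 0 ≤ q) (hL : 1 ≤ L)
    (hP : L * q ≤ 1) (m ℓ : ℕ)
    (hspread : ∀ U : Finset ι, m ≤ #U → #U ≤ ℓ →
      (#(univ.filter (fun s => U ⊆ S s)) : ℝ) ≤ c0 * q ^ #U * Fintype.card σ)
    (A : Finset σ) (T : σ → Finset ι) (hTS : ∀ s ∈ A, T s ⊆ S s) (hTl : ∀ s ∈ A, #(T s) ≤ ℓ)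
    (T' : Finset ι → σ → Finset ι) (hT' : ∀ W, IsFrag A T W (T' W)) :
    L ^ m * ∑ W : Finset ι, mu (L * q) W * (#(A.filter (fun s => m ≤ #(T' W s))) : ℝ)
      ≤ c0 * 2 ^ ℓ * Fintype.card σ := by
  classical
  have hP0 : 0 ≤ L * q := mul_nonneg (by linarith) hq
  have hL0 : 0 ≤ L := by linarith
  -- Step A
  have hA : ∀ W : Finset ι, (#(A.filter (fun s => m ≤ #(T' W s))) : ℝ)
      ≤ ∑ U ∈ fragSet A T m W, c0 * q ^ #U * Fintype.card σ := by
    intro W
    have hsub : A.filter (fun s => m ≤ #(T' W s))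
        ⊆ (fragSet A T m W).biUnion (fun U => univ.filter (fun s => U ⊆ S s)) := by
      intro s hs
      rw [Finset.mem_filter] at hs
      rw [Finset.mem_biUnion]
      refine ⟨T' W s, ?_, ?_⟩
      · simp only [fragSet, Finset.mem_filter, Finset.mem_univ, true_and]
        exact ⟨hs.2, (hT' W).disjoint hs.1, (hT' W).subset_canon hs.1⟩
      · simp only [Finset.mem_filter, Finset.mem_univ, true_and]
        exact ((hT' W).subset hs.1).trans (hTS s hs.1)
    have h1 : #(A.filter (fun s => m ≤ #(T' W s)))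
        ≤ ∑ U ∈ fragSet A T m W, #(univ.filter (fun s => U ⊆ S s)) :=
      (Finset.card_le_card hsub).trans Finset.card_biUnion_le
    calc (#(A.filter (fun s => m ≤ #(T' W s))) : ℝ)
        ≤ ((∑ U ∈ fragSet A T m W, #(univ.filter (fun s => U ⊆ S s)) : ℕ) : ℝ) := by
          exact_mod_cast h1
      _ = ∑ U ∈ fragSet A T m W, (#(univ.filter (fun s => U ⊆ S s)) : ℝ) := by push_cast; rfl
      _ ≤ _ := by
          refine Finset.sum_le_sum (fun U hU => ?_)
          simp only [fragSet, Finset.mem_filter, Finset.mem_univ, true_and] at hU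
          exact hspread U hU.1 ((Finset.card_le_card hU.2.2).trans (card_canon_le hTl _))
  -- Step B
  have hB : ∀ W : Finset ι, ∀ U ∈ fragSet A T m W,
      L ^ m * (mu (L * q) W * q ^ #U) ≤ mu (L * q) (W ∪ U) := by
    intro W U hU
    simp only [fragSet, Finset.mem_filter, Finset.mem_univ, true_and] at hU
    have h1 : L ^ m ≤ L ^ #U := pow_le_pow_right₀ hL hU.1
    have h2 : 0 ≤ mu (L * q) W * q ^ #U := mul_nonneg (mu_nonneg hP0 hP _) (pow_nonneg hq _)
    calc L ^ m * (mu (L * q) W * q ^ #U) ≤ L ^ #U * (mu (L * q) W * q ^ #U) :=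
          mul_le_mul_of_nonneg_right h1 h2
      _ = (L * q) ^ #U * mu (L * q) W := by rw [mul_pow]; ring
      _ ≤ _ := pow_mul_mu_le hP0 hP hU.2.1
  have hcard : (0 : ℝ) ≤ Fintype.card σ := Nat.cast_nonneg _
  calc L ^ m * ∑ W : Finset ι, mu (L * q) W * (#(A.filter (fun s => m ≤ #(T' W s))) : ℝ)
      ≤ L ^ m * ∑ W : Finset ι, mu (L * q) W *
          ∑ U ∈ fragSet A T m W, c0 * q ^ #U * Fintype.card σ := by
        refine mul_le_mul_of_nonneg_left ?_ (pow_nonneg hL0 _)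
        exact Finset.sum_le_sum (fun W _ =>
          mul_le_mul_of_nonneg_left (hA W) (mu_nonneg hP0 hP _))
    _ = c0 * Fintype.card σ * ∑ W : Finset ι, ∑ U ∈ fragSet A T m W,
          L ^ m * (mu (L * q) W * q ^ #U) := by
        simp only [Finset.mul_sum]
        refine Finset.sum_congr rfl (fun W _ => Finset.sum_congr rfl (fun U _ => ?_))
        ring
    _ ≤ c0 * Fintype.card σ * ∑ W : Finset ι, ∑ U ∈ fragSet A T m W, mu (L * q) (W ∪ U) := by
        refine mul_le_mul_of_nonneg_left ?_ (mul_nonneg hc0 hcard)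
        exact Finset.sum_le_sum (fun W _ => Finset.sum_le_sum (fun U hU => hB W U hU))
    _ ≤ c0 * Fintype.card σ * 2 ^ ℓ :=
        mul_le_mul_of_nonneg_left (sum_fragSet_le A T m ℓ hTl hP0 hP) (mul_nonneg hc0 hcard)
    _ = _ := by ring

end Crest.Agent.S0076Aux.PP48
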