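import Mathlib
import Crest.Agent.S0076Aux.PP48Round

/-!
# S0076Aux.PP48Iterate : iterating the Park–Pham round; abstract "spread ⇒ threshold" theorem
-/

set_option autoImplicit false
set_option linter.unusedSectionVars false

namespace Crest.Agent.S0076Aux.PP48

open Finset

variable {ι : Type*} [Fintype ι] [DecidableEq ι]
variable {σ : Type*} [Fintype σ] [DecidableEq σ]

/-- probability parameter of the union of the first `k` rounds; round `j` uses `L * q j`. -/
noncomputable def Qk (L : ℝ) (q : ℕ → ℝ) : ℕ → ℝ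
  | 0 => 0
  | (k + 1) => 1 - (1 - L * q k) * (1 - Qk L q k)

lemma Qk_mem (L : ℝ) (q : ℕ → ℝ) (k : ℕ) (h0 : ∀ j < k, 0 ≤ L * q j) (h1 : ∀ j < k, L * q j ≤ 1) :
    0 ≤ Qk L q k ∧ Qk L q k ≤ 1 ∧ Qk L q k ≤ ∑ j ∈ range k, L * q j := by
  induction k with
  | zero => simp [Qk]
  | succ k ih =>
    obtain ⟨a, b, c⟩ := ih (fun j hj => h0 j (by omega)) (fun j hj => h1 j (by omega))
    have p0 := h0 k (by omega)
    have p1 := h1 k (by omega)
    rw [Finset.sum_range_succ]
    simp only [Qk]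
    refine ⟨?_, ?_, ?_⟩
    · nlinarith
    · nlinarith
    · nlinarith

/-- indicator of failure: no alive fragment is contained in `W` -/
noncomputable def fail (A : Finset σ) (T : σ → Finset ι) (W : Finset ι) : ℝ :=
  open Classical in if ∃ s ∈ A, T s ⊆ W then 0 else 1

lemma fail_nonneg (A : Finset σ) (T : σ → Finset ι) (W : Finset ι) : 0 ≤ fail A T W := by
  unfold fail; split_ifs <;> norm_num

lemma fail_le_one (A : Finset σ) (T : σ → Finset ι) (W : Finset ι) : fail A T W ≤ 1 := by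
  unfold fail; split_ifs <;> norm_num

lemma fail_le_fail {A A' : Finset σ} {T T' : σ → Finset ι} {W W' : Finset ι}
    (h : (∃ s ∈ A', T' s ⊆ W') → ∃ s ∈ A, T s ⊆ W) : fail A T W ≤ fail A' T' W' := by
  unfold fail
  by_cases h' : ∃ s ∈ A', T' s ⊆ W'
  · rw [if_pos h', if_pos (h h')]
  · rw [if_neg h']; split_ifs <;> norm_num

theorem iterate (S : σ → Finset ι) (c0 L : ℝ) (q : ℕ → ℝ) (hc0 : 0 ≤ c0) (hL : 1 ≤ L) :
    ∀ k : ℕ, (∀ j < k, 0 ≤ q j) → (∀ j < k, L * q j ≤ 1) →
    (∀ j < k, ∀ U : Finset ι, 2 ^ j ≤ #U → #U < 2 ^ (j + 1) →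
      (#(univ.filter (fun s => U ⊆ S s)) : ℝ) ≤ c0 * (q j) ^ #U * Fintype.card σ) →
    ∀ (A : Finset σ) (T : σ → Finset ι), (∀ s ∈ A, T s ⊆ S s) → (∀ s ∈ A, #(T s) < 2 ^ k) →
      (#A : ℝ) * ∑ W : Finset ι, mu (Qk L q k) W * fail A T W
        ≤ c0 * (∑ j ∈ range k, (4 / L) ^ (2 ^ j)) * Fintype.card σ := by
  classical
  have hL0 : 0 < L := by linarith
  intro k
  induction k with
  | zero =>
    intro _ _ _ A T _ hT
    simp only [Finset.range_zero, Finset.sum_empty, mul_zero, zero_mul]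
    rcases A.eq_empty_or_nonempty with hA | ⟨s, hs⟩
    · simp [hA]
    · have : ∀ W : Finset ι, fail A T W = 0 := by
        intro W
        unfold fail
        rw [if_pos]
        refine ⟨s, hs, ?_⟩
        have := hT s hs
        simp only [pow_zero, Nat.lt_one_iff, Finset.card_eq_zero] at this
        rw [this]; exact Finset.empty_subset _
      simp [this]
  | succ k ih =>
    intro hq hP hspread A T hTS hTl
    have hq' : ∀ j < k, 0 ≤ q j := fun j hj => hq j (by omega)
    have hP' : ∀ j < k, L * q j ≤ 1 := fun j hj => hP j (by omega)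
    have IH := ih hq' hP' (fun j hj => hspread j (by omega))
    obtain ⟨hQ0, hQ1, _⟩ := Qk_mem L q k (fun j hj => mul_nonneg hL0.le (hq' j hj)) hP'
    have hqk := hq k (by omega)
    have hPk := hP k (by omega)
    have hPk0 : 0 ≤ L * q k := mul_nonneg hL0.le hqk
    choose T' hT' using fun W => exists_isFrag A T W
    set B : ℝ := c0 * (∑ j ∈ range k, (4 / L) ^ (2 ^ j)) * Fintype.card σ with hB
    -- the round bound
    have hround := round_bound S c0 (q k) L hc0 hqk hL hPk (2 ^ k) (2 ^ (k + 1) - 1)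
      (fun U h1 h2 => hspread k (by omega) U h1 (by
        have : 0 < 2 ^ (k + 1) := by positivity
        omega))
      A T hTS (fun s hs => by have := hTl s hs; omega) T' hT'
    set E : ℝ := ∑ W : Finset ι, mu (L * q k) W *
      (#(A.filter (fun s => 2 ^ k ≤ #(T' W s))) : ℝ) with hE
    have hcard : (0 : ℝ) ≤ Fintype.card σ := Nat.cast_nonneg _
    have hE_le : E ≤ c0 * (4 / L) ^ (2 ^ k) * Fintype.card σ := by
      have h2 : (2 : ℝ) ^ (2 ^ (k + 1) - 1) ≤ 4 ^ (2 ^ k) := by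
        have : (4 : ℝ) ^ (2 ^ k) = 2 ^ (2 ^ (k + 1)) := by
          rw [show (4 : ℝ) = 2 ^ 2 by norm_num, ← pow_mul, pow_succ 2 k, mul_comm]
        rw [this]
        exact pow_le_pow_right₀ (by norm_num) (Nat.sub_le _ _)
      have h3 : L ^ (2 ^ k) * E ≤ c0 * 4 ^ (2 ^ k) * Fintype.card σ :=
        hround.trans (by
          refine mul_le_mul_of_nonneg_right ?_ hcard
          exact mul_le_mul_of_nonneg_left h2 hc0)
      have hLp : 0 < L ^ (2 ^ k) := pow_pos hL0 _
      rw [div_pow]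
      have : c0 * (4 ^ (2 ^ k) / L ^ (2 ^ k)) * (Fintype.card σ : ℝ)
          = (c0 * 4 ^ (2 ^ k) * Fintype.card σ) / L ^ (2 ^ k) := by ring
      rw [this, le_div_iff₀ hLp]
      linarith
    -- decomposition of the measure
    have hdecomp : ∑ Z : Finset ι, mu (Qk L q (k + 1)) Z * fail A T Z
        = ∑ W1 : Finset ι, ∑ W2 : Finset ι,
            mu (L * q k) W1 * mu (Qk L q k) W2 * fail A T (W1 ∪ W2) :=
      (mu_union (L * q k) (Qk L q k) (fail A T)).symm
    rw [hdecomp, Finset.mul_sum]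
    have hstep : ∀ W1 : Finset ι,
        (#A : ℝ) * ∑ W2 : Finset ι, mu (L * q k) W1 * mu (Qk L q k) W2 * fail A T (W1 ∪ W2)
        ≤ mu (L * q k) W1 * B
          + mu (L * q k) W1 * (#(A.filter (fun s => 2 ^ k ≤ #(T' W1 s))) : ℝ) := by
      intro W1
      set A' : Finset σ := A.filter (fun s => #(T' W1 s) < 2 ^ k) with hA'
      set F : ℝ := ∑ W2 : Finset ι, mu (Qk L q k) W2 * fail A' (T' W1) W2 with hF
      have hF0 : 0 ≤ F := Finset.sum_nonneg (fun W2 _ =>
        mul_nonneg (mu_nonneg hQ0 hQ1 _) (fail_nonneg _ _ _))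
      have hF1 : F ≤ 1 := by
        calc F ≤ ∑ W2 : Finset ι, mu (Qk L q k) W2 * 1 :=
              Finset.sum_le_sum (fun W2 _ =>
                mul_le_mul_of_nonneg_left (fail_le_one _ _ _) (mu_nonneg hQ0 hQ1 _))
          _ = 1 := by simp [sum_mu]
      have hIH : (#A' : ℝ) * F ≤ B := by
        refine IH A' (T' W1) (fun s hs => ?_) (fun s hs => ?_)
        · rw [hA', Finset.mem_filter] at hs
          exact ((hT' W1).subset hs.1).trans (hTS s hs.1)
        · rw [hA', Finset.mem_filter] at hs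
          exact hs.2
      have hsplit : (#A : ℝ) = #A' + #(A.filter (fun s => 2 ^ k ≤ #(T' W1 s))) := by
        have := Finset.card_filter_add_card_filter_not (s := A) (fun s => #(T' W1 s) < 2 ^ k)
        simp only [not_lt] at this
        rw [hA']
        exact_mod_cast this.symm
      have hle : ∑ W2 : Finset ι, mu (L * q k) W1 * mu (Qk L q k) W2 * fail A T (W1 ∪ W2)
          ≤ mu (L * q k) W1 * F := by
        rw [hF, Finset.mul_sum]
        refine Finset.sum_le_sum (fun W2 _ => ?_)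
        rw [mul_assoc]
        refine mul_le_mul_of_nonneg_left ?_ (mu_nonneg hPk0 hPk _)
        refine mul_le_mul_of_nonneg_left ?_ (mu_nonneg hQ0 hQ1 _)
        refine fail_le_fail ?_
        rintro ⟨s, hs, hsub⟩
        rw [hA', Finset.mem_filter] at hs
        exact (hT' W1).covered hs.1 hsub
      have hmu := mu_nonneg hPk0 hPk W1
      have hd0 : (0 : ℝ) ≤ #(A.filter (fun s => 2 ^ k ≤ #(T' W1 s))) := Nat.cast_nonneg _
      calc (#A : ℝ) * ∑ W2 : Finset ι, mu (L * q k) W1 * mu (Qk L q k) W2 * fail A T (W1 ∪ W2)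
          ≤ (#A : ℝ) * (mu (L * q k) W1 * F) :=
            mul_le_mul_of_nonneg_left hle (Nat.cast_nonneg _)
        _ = mu (L * q k) W1 * ((#A' : ℝ) * F)
            + mu (L * q k) W1 * ((#(A.filter (fun s => 2 ^ k ≤ #(T' W1 s))) : ℝ) * F) := by
            rw [hsplit]; ring
        _ ≤ _ := by
            refine add_le_add (mul_le_mul_of_nonneg_left hIH hmu)
              (mul_le_mul_of_nonneg_left ?_ hmu)
            calc (#(A.filter (fun s => 2 ^ k ≤ #(T' W1 s))) : ℝ) * F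
                ≤ (#(A.filter (fun s => 2 ^ k ≤ #(T' W1 s))) : ℝ) * 1 :=
                  mul_le_mul_of_nonneg_left hF1 hd0
              _ = _ := mul_one _
    calc ∑ W1 : Finset ι, (#A : ℝ) *
          ∑ W2 : Finset ι, mu (L * q k) W1 * mu (Qk L q k) W2 * fail A T (W1 ∪ W2)
        ≤ ∑ W1 : Finset ι, (mu (L * q k) W1 * B
          + mu (L * q k) W1 * (#(A.filter (fun s => 2 ^ k ≤ #(T' W1 s))) : ℝ)) :=
          Finset.sum_le_sum (fun W1 _ => hstep W1)
      _ = B + E := by
          rw [Finset.sum_add_distrib, ← Finset.sum_mul, sum_mu, one_mul]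
      _ ≤ B + c0 * (4 / L) ^ (2 ^ k) * Fintype.card σ := by linarith
      _ = _ := by rw [hB, Finset.sum_range_succ]; ring

lemma sum_pow_two_pow_le {x : ℝ} (h0 : 0 ≤ x) (h1 : x ≤ 1 / 2) (k : ℕ) :
    ∑ j ∈ range k, x ^ (2 ^ j) ≤ 2 * x - 2 * x ^ (k + 1) := by
  induction k with
  | zero => simp
  | succ k ih =>
    rw [Finset.sum_range_succ]
    have h2 : x ^ (2 ^ k) ≤ x ^ (k + 1) :=
      pow_le_pow_of_le_one h0 (by linarith) (Nat.lt_two_pow_self)
    have h3 : x ^ (k + 1 + 1) ≤ x ^ (k + 1) * (1 / 2) := by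
      rw [pow_succ x (k + 1)]
      exact mul_le_mul_of_nonneg_left h1 (pow_nonneg h0 _)
    linarith

lemma fail_antitone (A : Finset σ) (T : σ → Finset ι) {W W' : Finset ι} (h : W ⊆ W') :
    fail A T W' ≤ fail A T W :=
  fail_le_fail (fun ⟨s, hs, hsub⟩ => ⟨s, hs, hsub.trans h⟩)

/-- **Abstract Park–Pham / FKNP theorem in the binomial model, scale-dependent spread.**
`S : σ → Finset ι` a family of sets of size `< 2 ^ k`, such that the uniform measure on `σ` is
`q j`-spread (up to the constant `c0`) on sets `U` with `2 ^ j ≤ #U < 2 ^ (j+1)`.  Then a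
`p'`-random set, `p' ≥ L * ∑_{j<k} q j`, fails to contain a member with probability
`≤ 8 * c0 / L`. -/
theorem spread_threshold [Nonempty σ] (S : σ → Finset ι) (c0 L : ℝ) (q : ℕ → ℝ) (hc0 : 0 ≤ c0)
    (hL : 8 ≤ L) (k : ℕ) (hq : ∀ j < k, 0 ≤ q j) (hP : ∀ j < k, L * q j ≤ 1)
    (hspread : ∀ j < k, ∀ U : Finset ι, 2 ^ j ≤ #U → #U < 2 ^ (j + 1) →
      (#(univ.filter (fun s => U ⊆ S s)) : ℝ) ≤ c0 * (q j) ^ #U * Fintype.card σ)
    (hS : ∀ s, #(S s) < 2 ^ k) (p' : ℝ) (hp' : ∑ j ∈ range k, L * q j ≤ p') (hp'1 : p' ≤ 1) :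
    ∑ W : Finset ι, mu p' W * fail univ S W ≤ 8 * c0 / L := by
  have hL0 : 0 < L := by linarith
  have h := iterate S c0 L q hc0 (by linarith) k hq hP hspread univ S
    (fun s _ => Finset.Subset.refl _) (fun s _ => hS s)
  obtain ⟨hQ0, hQ1, hQs⟩ := Qk_mem L q k (fun j hj => mul_nonneg hL0.le (hq j hj)) hP
  have hcard : (0 : ℝ) < Fintype.card σ := by exact_mod_cast Fintype.card_pos
  rw [Finset.card_univ] at h
  have h1 : ∑ W : Finset ι, mu (Qk L q k) W * fail univ S W
      ≤ c0 * (∑ j ∈ range k, (4 / L) ^ (2 ^ j)) := by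
    have : (Fintype.card σ : ℝ) * ∑ W : Finset ι, mu (Qk L q k) W * fail univ S W
        ≤ (Fintype.card σ : ℝ) * (c0 * (∑ j ∈ range k, (4 / L) ^ (2 ^ j))) := by
      linarith
    exact le_of_mul_le_mul_left this hcard
  have hx0 : 0 ≤ 4 / L := by positivity
  have hx1 : 4 / L ≤ 1 / 2 := by
    rw [div_le_div_iff₀ hL0 (by norm_num)]; linarith
  have h2 : ∑ j ∈ range k, (4 / L) ^ (2 ^ j) ≤ 2 * (4 / L) := by
    have := sum_pow_two_pow_le hx0 hx1 k
    have h3 : 0 ≤ (4 / L) ^ (k + 1) := pow_nonneg hx0 _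
    linarith
  have h3 : ∑ W : Finset ι, mu p' W * fail univ S W
      ≤ ∑ W : Finset ι, mu (Qk L q k) W * fail univ S W := by
    have := sum_mu_mono hQ0 (hQs.trans hp') hp'1 (fun W => - fail univ S W)
      (fun A B hAB => neg_le_neg (fail_antitone univ S hAB))
    simp only [mul_neg, Finset.sum_neg_distrib, neg_le_neg_iff] at this
    exact this
  calc ∑ W : Finset ι, mu p' W * fail univ S W
      ≤ c0 * (∑ j ∈ range k, (4 / L) ^ (2 ^ j)) := h3.trans h1
    _ ≤ c0 * (2 * (4 / L)) := mul_le_mul_of_nonneg_left h2 hc0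
    _ = 8 * c0 / L := by ring

end Crest.Agent.S0076Aux.PP48
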