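import Mathlib
import Crest.Prelude.Def_RandomGraph
import Crest.Agent.S0076Aux.PP48Iterate

/-!
# S0076Aux.PP48Graph : "the uniform measure on the copies of `H` in `K_n` is spread" implies that the
binomial random graph contains `H` with probability `≥ 1/2`.
-/

set_option autoImplicit false
set_option linter.unusedSectionVars false

namespace Crest.Agent.S0076Aux.PP48

open Finset Crest.FinProb Crest.CombinatoricsR.RandomGraph

variable {n : ℕ} {V : Type} [Fintype V] [DecidableEq V]

/-- The edge slots of `K_n` occupied by the copy `φ(H)`. -/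
noncomputable def slots (H : SimpleGraph V) [DecidableRel H.Adj] (φ : V ↪ Fin n) :
    Finset (EdgeSlot n) :=
  univ.filter (fun z : EdgeSlot n => z.1 ∈ H.edgeFinset.image (Sym2.map φ))

lemma card_slots_le (H : SimpleGraph V) [DecidableRel H.Adj] (φ : V ↪ Fin n) :
    #(slots H φ) ≤ #H.edgeFinset := by
  calc #(slots H φ) ≤ #(H.edgeFinset.image (Sym2.map φ)) := by
        refine Finset.card_le_card_of_injOn Subtype.val ?_ (Subtype.val_injective.injOn)
        intro z hz
        have hz' : z ∈ slots H φ := hz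
        simp only [slots, Finset.mem_filter, Finset.mem_univ, true_and] at hz'
        exact hz'
    _ ≤ _ := Finset.card_image_le

lemma isContained_of_slots_subset (H : SimpleGraph V) [DecidableRel H.Adj] (φ : V ↪ Fin n)
    (ω : EdgeSlot n → Bool) (h : slots H φ ⊆ heads ω) : H.IsContained (graphOf ω) := by
  refine ⟨⟨⟨φ, ?_⟩, φ.injective⟩⟩
  intro a b hab
  have hne : φ a ≠ φ b := fun h => hab.ne (φ.injective h)
  have hnd : ¬ (s(φ a, φ b)).IsDiag := by simpa using hne
  have hmem : (⟨s(φ a, φ b), hnd⟩ : EdgeSlot n) ∈ slots H φ := by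
    simp only [slots, Finset.mem_filter, Finset.mem_univ, true_and, Finset.mem_image,
      SimpleGraph.mem_edgeFinset]
    exact ⟨s(a, b), hab, rfl⟩
  have h2 := h hmem
  rw [mem_heads] at h2
  simp only [graphOf, SimpleGraph.fromEdgeSet_adj]
  exact ⟨⟨hnd, h2⟩, hne⟩

/-- transfer from the abstract failure probability to `gnpProb` -/
lemma one_sub_fail_le_gnpProb (H : SimpleGraph V) [DecidableRel H.Adj] {p : ℝ} (h0 : 0 ≤ p)
    (h1 : p ≤ 1) :
    1 - ∑ W : Finset (EdgeSlot n), mu p W * fail univ (slots (n := n) H) W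
      ≤ gnpProb n p {G | H.IsContained G} := by
  classical
  unfold gnpProb bernoulliProb
  rw [Finset.sum_filter]
  have e1 : (1 : ℝ) - ∑ W : Finset (EdgeSlot n), mu p W * fail univ (slots (n := n) H) W
      = ∑ W : Finset (EdgeSlot n), mu p W * (1 - fail univ (slots (n := n) H) W) := by
    simp only [mul_sub, mul_one, Finset.sum_sub_distrib, sum_mu]
  rw [e1, ← sum_bern_eq_sum_mu]
  refine Finset.sum_le_sum (fun ω _ => ?_)
  have hw : 0 ≤ bernoulliWeight p ω := by rw [← mu_heads]; exact mu_nonneg h0 h1 _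
  by_cases hc : ∃ φ ∈ (univ : Finset (V ↪ Fin n)), slots H φ ⊆ heads ω
  · obtain ⟨φ, _, hφ⟩ := hc
    have : ω ∈ {ω : EdgeSlot n → Bool | graphOf ω ∈ {G | H.IsContained G}} :=
      isContained_of_slots_subset H φ ω hφ
    rw [if_pos this]
    have := fail_nonneg univ (slots (n := n) H) (heads ω)
    nlinarith
  · have : fail univ (slots (n := n) H) (heads ω) = 1 := by
      unfold fail; rw [if_neg hc]
    rw [this]
    split_ifs <;> simp [hw]

lemma sum_mu_one_fail {ι σ : Type*} [Fintype ι] [DecidableEq ι] [Fintype σ] [DecidableEq σ]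
    [Nonempty σ] (S : σ → Finset ι) : ∑ W : Finset ι, mu 1 W * fail univ S W = 0 := by
  refine Finset.sum_eq_zero (fun W _ => ?_)
  rw [mu_one]
  split_ifs with h
  · subst h
    have : fail univ S univ = 0 := by
      unfold fail
      rw [if_pos ⟨Classical.arbitrary σ, Finset.mem_univ _, Finset.subset_univ _⟩]
    rw [this, mul_zero]
  · rw [zero_mul]

/-- **Scale-dependent version.** -/
theorem gnp_of_spread_scales (n : ℕ) (H : SimpleGraph V) [DecidableRel H.Adj]
    (hV : Fintype.card V ≤ n) (k : ℕ) (hk : #H.edgeFinset < 2 ^ k) (c0 : ℝ) (hc0 : 0 ≤ c0)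
    (hc0' : c0 ≤ 128) (q : ℕ → ℝ) (hq : ∀ j < k, 0 ≤ q j)
    (hD : ∀ j < k, ∀ U : Finset (EdgeSlot n), 2 ^ j ≤ #U → #U < 2 ^ (j + 1) →
      (#(univ.filter (fun φ : V ↪ Fin n => U ⊆ slots H φ)) : ℝ)
        ≤ c0 * (q j) ^ #U * Fintype.card (V ↪ Fin n))
    (p' : ℝ) (hp' : min 1 (∑ j ∈ range k, 2048 * q j) ≤ p') (hp'1 : p' ≤ 1) :
    (1 : ℝ) / 2 ≤ gnpProb n p' {G | H.IsContained G} := by
  classical
  haveI : Nonempty (V ↪ Fin n) := by
    rw [Function.Embedding.nonempty_iff_card_le]; simpa using hV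
  have hterm : ∀ j ∈ range k, 0 ≤ 2048 * q j := fun j hj =>
    mul_nonneg (by norm_num) (hq j (Finset.mem_range.mp hj))
  have hp'0 : 0 ≤ p' :=
    le_trans (le_min (by norm_num) (Finset.sum_nonneg hterm)) hp'
  refine le_trans ?_ (one_sub_fail_le_gnpProb H hp'0 hp'1)
  rcases le_or_gt 1 (∑ j ∈ range k, 2048 * q j) with hbig | hsmall
  · have : p' = 1 := le_antisymm hp'1 (by rwa [min_eq_left hbig] at hp')
    rw [this, sum_mu_one_fail]; norm_num
  · rw [min_eq_right hsmall.le] at hp'
    have hP : ∀ j < k, 2048 * q j ≤ 1 := fun j hj =>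
      (Finset.single_le_sum hterm (Finset.mem_range.mpr hj)).trans hsmall.le
    have := spread_threshold (slots (n := n) H) c0 2048 q hc0 (by norm_num) k hq hP hD
      (fun φ => (card_slots_le H φ).trans_lt hk) p' hp' hp'1
    linarith

/-- **Uniform version** (the interface for S0076): if the uniform measure on the embeddings
`V ↪ Fin n` is `q`-spread up to a constant `c0 ≤ 128`, then `G(n, min 1 (2^11 q (1 + log₂ h)))`
contains `H` with probability at least `1/2`. -/
theorem gnp_of_spread (n : ℕ) (H : SimpleGraph V) [DecidableRel H.Adj]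
    (hV : Fintype.card V ≤ n) (c0 : ℝ) (hc0 : 0 ≤ c0)
    (hc0' : c0 ≤ 128) (q : ℝ) (hq : 0 ≤ q)
    (hD : ∀ U : Finset (EdgeSlot n), U.Nonempty →
      (#(univ.filter (fun φ : V ↪ Fin n => U ⊆ slots H φ)) : ℝ)
        ≤ c0 * q ^ #U * Fintype.card (V ↪ Fin n)) :
    (1 : ℝ) / 2 ≤ gnpProb n (min 1 (2048 * q * (1 + Real.logb 2 (H.edgeFinset.card : ℝ))))
      {G | H.IsContained G} := by
  set h := H.edgeFinset.card with hh
  refine gnp_of_spread_scales n H hV (Nat.log 2 h + 1) (Nat.lt_pow_succ_log_self (by norm_num) h)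
    c0 hc0 hc0' (fun _ => q) (fun _ _ => hq) (fun j _ U h1 _ => hD U ?_) _ ?_ (min_le_left _ _)
  · rw [← Finset.card_pos]
    exact lt_of_lt_of_le (by positivity) h1
  · refine min_le_min_left _ ?_
    rw [Finset.sum_const, Finset.card_range, nsmul_eq_mul]
    have h1 : ((Nat.log 2 h : ℕ) : ℝ) ≤ Real.logb 2 (h : ℝ) := by
      have := Real.natLog_le_logb h 2
      simpa using this
    push_cast
    have h2 : 0 ≤ 2048 * q := by positivity
    nlinarith

end Crest.Agent.S0076Aux.PP48
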