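import Crest.Agent.S0076Aux.PP67Fail

/-!
Park--Pham minimum fragments (choice free) and the cost of one round.
(helper67, Park--Pham layer for S0076)
-/

set_option autoImplicit false

namespace Crest.Agent.S0076Aux.PP67

open Finset

variable {X : Type*} [Fintype X] [DecidableEq X]

/-- cost of a family at density `q` -/
noncomputable def cost (q : ℝ) (UU : Finset (Finset X)) : ℝ := ∑ U ∈ UU, q ^ U.card

lemma cost_nonneg {q : ℝ} (hq : 0 ≤ q) (UU : Finset (Finset X)) : 0 ≤ cost q UU :=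
  Finset.sum_nonneg fun _ _ => pow_nonneg hq _

lemma cost_union_le {q : ℝ} (hq : 0 ≤ q) (UU VV : Finset (Finset X)) :
    cost q (UU ∪ VV) ≤ cost q UU + cost q VV := by
  unfold cost
  rw [← Finset.sum_union_inter]
  have : 0 ≤ ∑ U ∈ UU ∩ VV, q ^ U.card := Finset.sum_nonneg fun _ _ => pow_nonneg hq _
  linarith

open Classical in
/-- minimal fragments of `HH` with respect to `W` -/
noncomputable def frag (HH : Finset (Finset X)) (W : Finset X) : Finset (Finset X) :=
  univ.filter fun T => Disjoint T W ∧ (∃ S ∈ HH, S \ W = T) ∧ ∀ S ∈ HH, S ⊆ W ∪ T → T ⊆ S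

lemma mem_frag (HH : Finset (Finset X)) (W T : Finset X) :
    T ∈ frag HH W ↔ Disjoint T W ∧ (∃ S ∈ HH, S \ W = T) ∧ ∀ S ∈ HH, S ⊆ W ∪ T → T ⊆ S := by
  unfold frag
  simp

/-- every member of the family contains a minimal fragment -/
lemma exists_frag (HH : Finset (Finset X)) (W : Finset X) {S : Finset X} (hS : S ∈ HH) :
    ∃ T ∈ frag HH W, T ⊆ S := by
  classical
  set C : Finset (Finset X) := (HH.filter (fun S' => S' ⊆ W ∪ S)).image (fun S' => S' \ W)
    with hC
  have hne : C.Nonempty :=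
    ⟨S \ W, Finset.mem_image.mpr ⟨S, Finset.mem_filter.mpr ⟨hS, Finset.subset_union_right⟩, rfl⟩⟩
  obtain ⟨T₀, hT₀, hmin⟩ := Finset.exists_min_image C Finset.card hne
  obtain ⟨S₀, hS₀, rfl⟩ := Finset.mem_image.mp hT₀
  obtain ⟨hS₀H, hS₀sub⟩ := Finset.mem_filter.mp hS₀
  have hTS : S₀ \ W ⊆ S := sdiff_le_iff.mpr hS₀sub
  refine ⟨S₀ \ W, (mem_frag _ _ _).mpr ⟨Finset.sdiff_disjoint, ⟨S₀, hS₀H, rfl⟩, ?_⟩, hTS⟩
  intro S' hS' hsub
  have h1 : S' ⊆ W ∪ S := hsub.trans (Finset.union_subset_union_right hTS)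
  have h2 : S' \ W ∈ C :=
    Finset.mem_image.mpr ⟨S', Finset.mem_filter.mpr ⟨hS', h1⟩, rfl⟩
  have h3 : (S₀ \ W).card ≤ (S' \ W).card := hmin _ h2
  have h4 : S' \ W ⊆ S₀ \ W := sdiff_le_iff.mpr hsub
  have h5 : S' \ W = S₀ \ W := Finset.eq_of_subset_of_card_le h4 h3
  rw [← h5]
  exact Finset.sdiff_subset

/-- moving a disjoint set into the random set -/
lemma wt_mul_pow_eq (P : ℝ) {W T : Finset X} (h : Disjoint T W) :
    wt P W * P ^ T.card = wt P (W ∪ T) * (1 - P) ^ T.card := by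
  have e1 : P ^ T.card = ∏ x, if x ∈ T then P else 1 := by
    rw [Finset.prod_ite_mem, Finset.univ_inter, Finset.prod_const]
  have e2 : (1 - P) ^ T.card = ∏ x, if x ∈ T then (1 - P) else 1 := by
    rw [Finset.prod_ite_mem, Finset.univ_inter, Finset.prod_const]
  rw [e1, e2]
  unfold wt
  rw [← Finset.prod_mul_distrib, ← Finset.prod_mul_distrib]
  refine Finset.prod_congr rfl fun x _ => ?_
  by_cases hxT : x ∈ T
  · have hxW : x ∉ W := fun hx => (Finset.disjoint_left.mp h hxT) hx
    simp [hxT, hxW, mul_comm]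
  · simp [hxT]

open Classical in
/-- a member of the family inside `Z`, if there is one -/
noncomputable def pick (HH : Finset (Finset X)) (Z : Finset X) : Finset X :=
  if h : ∃ S ∈ HH, S ⊆ Z then h.choose else ∅

lemma pick_card_le (HH : Finset (Finset X)) {l : ℕ} (hl : ∀ S ∈ HH, S.card ≤ l)
    (Z : Finset X) : (pick HH Z).card ≤ l := by
  unfold pick
  split_ifs with h
  · exact hl _ h.choose_spec.1
  · simp

lemma subset_pick (HH : Finset (Finset X)) {W T : Finset X} (hT : T ∈ frag HH W) :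
    T ⊆ pick HH (W ∪ T) := by
  obtain ⟨_, ⟨S, hS, hST⟩, hmin⟩ := (mem_frag _ _ _).mp hT
  have h : ∃ S ∈ HH, S ⊆ W ∪ T := ⟨S, hS, by rw [← hST]; exact sdiff_le_iff.mp le_rfl⟩
  unfold pick
  rw [dif_pos h]
  exact hmin _ h.choose_spec.1 h.choose_spec.2

/-- the large fragments -/
noncomputable def large (HH : Finset (Finset X)) (l : ℕ) (W : Finset X) : Finset (Finset X) :=
  (frag HH W).filter fun T => l < 2 * T.card

/-- the small fragments -/
noncomputable def small (HH : Finset (Finset X)) (l : ℕ) (W : Finset X) : Finset (Finset X) :=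
  (frag HH W).filter fun T => 2 * T.card ≤ l

/-- expected cost of the large fragments in one round of density `P = L q` -/
lemma round_cost (HH : Finset (Finset X)) {l : ℕ} (hl : ∀ S ∈ HH, S.card ≤ l)
    {q L : ℝ} (hq : 0 ≤ q) (hL : 1 ≤ L) (hP : L * q ≤ 1) :
    ∑ W : Finset X, wt (L * q) W * cost q (large HH l W) ≤ 2 ^ l * (L⁻¹) ^ (l / 2 + 1) := by
  classical
  set P : ℝ := L * q with hPdef
  have hP0 : 0 ≤ P := mul_nonneg (by linarith) hq
  have hL0 : 0 < L := by linarith
  set c : ℝ := L⁻¹ with hc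
  have hc0 : 0 ≤ c := inv_nonneg.mpr hL0.le
  have hc1 : c ≤ 1 := inv_le_one_of_one_le₀ hL
  have hqc : q = P * c := by
    rw [hPdef, hc]; field_simp
  -- step 1: termwise bound
  have step1 : ∀ W : Finset X, wt P W * cost q (large HH l W) ≤
      ∑ T : Finset X, if T ∈ large HH l W then wt P (W ∪ T) * c ^ T.card else 0 := by
    intro W
    unfold cost
    rw [Finset.mul_sum, ← Finset.sum_filter, Finset.filter_mem_eq_inter, Finset.univ_inter]
    refine Finset.sum_le_sum fun T hT => ?_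
    have hTf : T ∈ frag HH W := (Finset.mem_filter.mp hT).1
    have hdis : Disjoint T W := ((mem_frag _ _ _).mp hTf).1
    have h1 := wt_mul_pow_eq P hdis
    have h2 : (1 - P) ^ T.card ≤ 1 := pow_le_one₀ (by linarith) (by linarith)
    have h3 : 0 ≤ wt P (W ∪ T) := wt_nonneg hP0 hP _
    calc wt P W * q ^ T.card = (wt P W * P ^ T.card) * c ^ T.card := by
          rw [hqc, mul_pow]; ring
      _ = (wt P (W ∪ T) * (1 - P) ^ T.card) * c ^ T.card := by rw [h1]
      _ ≤ (wt P (W ∪ T) * 1) * c ^ T.card := by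
          refine mul_le_mul_of_nonneg_right ?_ (pow_nonneg hc0 _)
          exact mul_le_mul_of_nonneg_left h2 h3
      _ = wt P (W ∪ T) * c ^ T.card := by ring
  -- step 2: for fixed T change variables Z = W ∪ T
  have step2 : ∀ T : Finset X,
      ∑ W : Finset X, (if T ∈ large HH l W then wt P (W ∪ T) * c ^ T.card else 0) ≤
      ∑ Z : Finset X, (if T ⊆ pick HH Z ∧ l < 2 * T.card then wt P Z * c ^ T.card else 0) := by
    intro T
    rw [← Finset.sum_filter, ← Finset.sum_filter]
    have hinj : Set.InjOn (fun W : Finset X => W ∪ T)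
        (univ.filter (fun W => T ∈ large HH l W) : Finset (Finset X)) := by
      intro W₁ h₁ W₂ h₂ heq
      have d₁ : Disjoint T W₁ :=
        ((mem_frag _ _ _).mp (Finset.mem_filter.mp (Finset.mem_filter.mp h₁).2).1).1
      have d₂ : Disjoint T W₂ :=
        ((mem_frag _ _ _).mp (Finset.mem_filter.mp (Finset.mem_filter.mp h₂).2).1).1
      have e₁ : (W₁ ∪ T) \ T = W₁ := Finset.union_sdiff_cancel_right d₁.symm
      have e₂ : (W₂ ∪ T) \ T = W₂ := Finset.union_sdiff_cancel_right d₂.symm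
      have heq' : W₁ ∪ T = W₂ ∪ T := heq
      rw [← e₁, ← e₂, heq']
    rw [← Finset.sum_image (f := fun Z => wt P Z * c ^ T.card) hinj]
    refine Finset.sum_le_sum_of_subset_of_nonneg ?_ ?_
    · intro Z hZ
      obtain ⟨W, hW, rfl⟩ := Finset.mem_image.mp hZ
      have hTl := (Finset.mem_filter.mp hW).2
      obtain ⟨hTf, hTc⟩ := Finset.mem_filter.mp hTl
      exact Finset.mem_filter.mpr ⟨Finset.mem_univ _, subset_pick HH hTf, hTc⟩
    · intro Z _ _
      exact mul_nonneg (wt_nonneg hP0 hP _) (pow_nonneg hc0 _)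
  -- step 3: count for fixed Z
  have step3 : ∀ Z : Finset X,
      ∑ T : Finset X, (if T ⊆ pick HH Z ∧ l < 2 * T.card then wt P Z * c ^ T.card else 0) ≤
      wt P Z * (2 ^ l * c ^ (l / 2 + 1)) := by
    intro Z
    rw [← Finset.sum_filter]
    have hsub : (univ.filter fun T : Finset X => T ⊆ pick HH Z ∧ l < 2 * T.card) ⊆
        (pick HH Z).powerset := by
      intro T hT
      exact Finset.mem_powerset.mpr (Finset.mem_filter.mp hT).2.1
    have hcard : ((univ.filter fun T : Finset X => T ⊆ pick HH Z ∧ l < 2 * T.card).card : ℝ)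
        ≤ 2 ^ l := by
      have h1 := Finset.card_le_card hsub
      rw [Finset.card_powerset] at h1
      have h2 : 2 ^ (pick HH Z).card ≤ 2 ^ l :=
        Nat.pow_le_pow_right (by norm_num) (pick_card_le HH hl Z)
      exact_mod_cast h1.trans h2
    have hw := wt_nonneg hP0 hP Z
    calc ∑ T ∈ univ.filter (fun T : Finset X => T ⊆ pick HH Z ∧ l < 2 * T.card),
          wt P Z * c ^ T.card
        ≤ ∑ T ∈ univ.filter (fun T : Finset X => T ⊆ pick HH Z ∧ l < 2 * T.card),
          wt P Z * c ^ (l / 2 + 1) := by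
          refine Finset.sum_le_sum fun T hT => mul_le_mul_of_nonneg_left ?_ hw
          have hTc := (Finset.mem_filter.mp hT).2.2
          exact pow_le_pow_of_le_one hc0 hc1 (by omega)
      _ = ((univ.filter fun T : Finset X => T ⊆ pick HH Z ∧ l < 2 * T.card).card : ℝ) *
          (wt P Z * c ^ (l / 2 + 1)) := by
          rw [Finset.sum_const, nsmul_eq_mul]
      _ ≤ 2 ^ l * (wt P Z * c ^ (l / 2 + 1)) :=
          mul_le_mul_of_nonneg_right hcard (mul_nonneg hw (pow_nonneg hc0 _))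
      _ = wt P Z * (2 ^ l * c ^ (l / 2 + 1)) := by ring
  calc ∑ W : Finset X, wt P W * cost q (large HH l W)
      ≤ ∑ W : Finset X, ∑ T : Finset X,
          (if T ∈ large HH l W then wt P (W ∪ T) * c ^ T.card else 0) :=
        Finset.sum_le_sum fun W _ => step1 W
    _ = ∑ T : Finset X, ∑ W : Finset X,
          (if T ∈ large HH l W then wt P (W ∪ T) * c ^ T.card else 0) := Finset.sum_comm
    _ ≤ ∑ T : Finset X, ∑ Z : Finset X,
          (if T ⊆ pick HH Z ∧ l < 2 * T.card then wt P Z * c ^ T.card else 0) :=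
        Finset.sum_le_sum fun T _ => step2 T
    _ = ∑ Z : Finset X, ∑ T : Finset X,
          (if T ⊆ pick HH Z ∧ l < 2 * T.card then wt P Z * c ^ T.card else 0) := Finset.sum_comm
    _ ≤ ∑ Z : Finset X, wt P Z * (2 ^ l * c ^ (l / 2 + 1)) :=
        Finset.sum_le_sum fun Z _ => step3 Z
    _ = 2 ^ l * c ^ (l / 2 + 1) := by
        rw [← Finset.sum_mul, sum_wt, one_mul]

end Crest.Agent.S0076Aux.PP67
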