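import Crest.Agent.S0076Aux.PP67Weight

/-!
Failure probability of a family under the binomial weight: two rounds, monotonicity.
(helper67, Park--Pham layer for S0076)
-/

set_option autoImplicit false

namespace Crest.Agent.S0076Aux.PP67

open Finset

variable {X : Type*} [Fintype X] [DecidableEq X]

open Classical in
/-- probability that the random subset contains no member of `HH` -/
noncomputable def fail (HH : Finset (Finset X)) (p : ℝ) : ℝ :=
  ∑ W : Finset X, wt p W * (if ∃ S ∈ HH, S ⊆ W then 0 else 1)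

lemma fail_nonneg (HH : Finset (Finset X)) {p : ℝ} (h0 : 0 ≤ p) (h1 : p ≤ 1) :
    0 ≤ fail HH p := by
  unfold fail
  refine Finset.sum_nonneg fun W _ => mul_nonneg (wt_nonneg h0 h1 W) ?_
  split_ifs <;> norm_num

lemma fail_le_one (HH : Finset (Finset X)) {p : ℝ} (h0 : 0 ≤ p) (h1 : p ≤ 1) :
    fail HH p ≤ 1 := by
  unfold fail
  calc ∑ W : Finset X, wt p W * (if ∃ S ∈ HH, S ⊆ W then 0 else 1)
      ≤ ∑ W : Finset X, wt p W := by
        refine Finset.sum_le_sum fun W _ => ?_
        have := wt_nonneg h0 h1 W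
        split_ifs <;> nlinarith
    _ = 1 := sum_wt p

lemma fail_eq_zero_of_empty_mem (HH : Finset (Finset X)) (h : ∅ ∈ HH) (p : ℝ) :
    fail HH p = 0 := by
  unfold fail
  refine Finset.sum_eq_zero fun W _ => ?_
  rw [if_pos ⟨∅, h, Finset.empty_subset W⟩, mul_zero]

/-- comparison of families -/
lemma fail_le_of_hit (HH HH' : Finset (Finset X)) {p : ℝ} (h0 : 0 ≤ p) (h1 : p ≤ 1)
    (h : ∀ W : Finset X, (∃ S ∈ HH', S ⊆ W) → ∃ S ∈ HH, S ⊆ W) :
    fail HH p ≤ fail HH' p := by
  unfold fail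
  refine Finset.sum_le_sum fun W _ => mul_le_mul_of_nonneg_left ?_ (wt_nonneg h0 h1 W)
  by_cases hW : ∃ S ∈ HH', S ⊆ W
  · rw [if_pos hW, if_pos (h W hW)]
  · rw [if_neg hW]
    split_ifs <;> norm_num

/-- two independent rounds -/
lemma fail_union (HH : Finset (Finset X)) (a b : ℝ) :
    fail HH (a + b - a * b) =
      ∑ W₁ : Finset X, wt a W₁ * fail (HH.image (fun S => S \ W₁)) b := by
  classical
  unfold fail
  rw [← sum_wt_union]
  refine Finset.sum_congr rfl fun W₁ _ => ?_
  rw [Finset.mul_sum]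
  refine Finset.sum_congr rfl fun W₂ _ => ?_
  rw [mul_assoc]
  congr 2
  have : (∃ S ∈ HH, S ⊆ W₁ ∪ W₂) ↔ (∃ S ∈ HH.image (fun S => S \ W₁), S ⊆ W₂) := by
    constructor
    · rintro ⟨S, hS, hsub⟩
      exact ⟨S \ W₁, Finset.mem_image_of_mem _ hS, sdiff_le_iff.mpr hsub⟩
    · rintro ⟨T, hT, hsub⟩
      obtain ⟨S, hS, rfl⟩ := Finset.mem_image.mp hT
      exact ⟨S, hS, sdiff_le_iff.mp hsub⟩
  simp only [this]

lemma fail_antitone (HH : Finset (Finset X)) {p p' : ℝ} (h0 : 0 ≤ p) (hpp : p ≤ p')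
    (h1 : p' ≤ 1) : fail HH p' ≤ fail HH p := by
  classical
  rcases eq_or_lt_of_le (hpp.trans h1) with hp1 | hp1
  · have : p' = p := le_antisymm (by rw [hp1]; exact h1) hpp
    rw [this]
  · set b : ℝ := (p' - p) / (1 - p) with hb
    have h1p : 0 < 1 - p := by linarith
    have hb0 : 0 ≤ b := div_nonneg (by linarith) h1p.le
    have hb1 : b ≤ 1 := by
      rw [hb, div_le_one h1p]; linarith
    have hc : p + b - p * b = p' := by
      have : b * (1 - p) = p' - p := by
        rw [hb]; field_simp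
      nlinarith
    rw [← hc, fail_union]
    conv_rhs => unfold fail
    refine Finset.sum_le_sum fun W₁ _ => mul_le_mul_of_nonneg_left ?_ (wt_nonneg h0 hp1.le W₁)
    by_cases hW : ∃ S ∈ HH, S ⊆ W₁
    · rw [if_pos hW]
      obtain ⟨S, hS, hsub⟩ := hW
      refine le_of_eq (fail_eq_zero_of_empty_mem _ ?_ b)
      refine Finset.mem_image.mpr ⟨S, hS, ?_⟩
      exact Finset.sdiff_eq_empty_iff_subset.mpr hsub
    · rw [if_neg hW]
      exact fail_le_one _ hb0 hb1

lemma fail_one_of_nonempty (HH : Finset (Finset X)) (h : HH.Nonempty) : fail HH 1 = 0 := by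
  classical
  unfold fail
  refine Finset.sum_eq_zero fun W _ => ?_
  by_cases hW : W = univ
  · obtain ⟨S, hS⟩ := h
    rw [if_pos ⟨S, hS, by rw [hW]; exact Finset.subset_univ S⟩, mul_zero]
  · have : ∃ x, x ∉ W := by
      by_contra hcon
      push Not at hcon
      exact hW (Finset.eq_univ_iff_forall.mpr hcon)
    obtain ⟨x, hx⟩ := this
    have : wt 1 W = 0 := by
      unfold wt
      refine Finset.prod_eq_zero (Finset.mem_univ x) ?_
      rw [if_neg hx]; norm_num
    rw [this, zero_mul]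

end Crest.Agent.S0076Aux.PP67
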