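import Crest.Agent.S0076Aux.PP67Main
import Crest.Prelude.Def_FinProb
import Crest.Prelude.Def_RandomGraph

/-!
Graph layer: from a spread bound for the uniformly random copy of `H` in `K_n` to containment
in the binomial random graph.  (helper67, Park--Pham layer for S0076)
-/

set_option autoImplicit false

namespace Crest.Agent.S0076Aux.PP67

open Finset Crest.CombinatoricsR.RandomGraph

variable {n : ℕ} {W : Type} [Fintype W] [DecidableEq W] (H : SimpleGraph W) [DecidableRel H.Adj]

open Classical in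
/-- the set of edge slots of `K_n` covered by the copy `φ(H)` -/
noncomputable def edgeImage (φ : W ↪ Fin n) : Finset (EdgeSlot n) :=
  univ.filter fun z => ∃ e ∈ H.edgeFinset, Sym2.map φ e = z.1

lemma mem_edgeImage (φ : W ↪ Fin n) (z : EdgeSlot n) :
    z ∈ edgeImage H φ ↔ ∃ e ∈ H.edgeFinset, Sym2.map φ e = z.1 := by
  unfold edgeImage
  simp

lemma card_edgeImage_le (φ : W ↪ Fin n) : (edgeImage H φ).card ≤ H.edgeFinset.card := by
  classical
  have h1 : (edgeImage H φ).map (Function.Embedding.subtype _) ⊆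
      H.edgeFinset.image (Sym2.map φ) := by
    intro z hz
    obtain ⟨z', hz', rfl⟩ := Finset.mem_map.mp hz
    obtain ⟨e, he, hez⟩ := (mem_edgeImage H φ z').mp hz'
    exact Finset.mem_image.mpr ⟨e, he, hez⟩
  calc (edgeImage H φ).card = ((edgeImage H φ).map (Function.Embedding.subtype _)).card :=
        (Finset.card_map _).symm
    _ ≤ (H.edgeFinset.image (Sym2.map φ)).card := Finset.card_le_card h1
    _ ≤ H.edgeFinset.card := Finset.card_image_le

/-- containment in `graphOf ω` in terms of edge images -/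
lemma isContained_graphOf_iff (ω : EdgeSlot n → Bool) :
    H.IsContained (graphOf ω) ↔ ∃ φ : W ↪ Fin n, edgeImage H φ ⊆ supp67 ω := by
  rw [SimpleGraph.isContained_iff_exists_le_comap]
  constructor
  · rintro ⟨φ, hφ⟩
    refine ⟨φ, fun z hz => ?_⟩
    obtain ⟨e, he, hez⟩ := (mem_edgeImage H φ z).mp hz
    induction e using Sym2.ind with
    | _ u v =>
      have hadj : H.Adj u v := by simpa using he
      have h2 : (graphOf ω).Adj (φ u) (φ v) := hφ hadj
      unfold graphOf at h2
      rw [SimpleGraph.fromEdgeSet_adj] at h2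
      obtain ⟨⟨hd, hω⟩, _⟩ := h2
      rw [mem_supp67]
      have : z = ⟨s(φ u, φ v), hd⟩ := by
        apply Subtype.ext
        rw [← hez]
        rfl
      rw [this]
      exact hω
  · rintro ⟨φ, hφ⟩
    refine ⟨φ, fun u v hadj => ?_⟩
    show (graphOf ω).Adj (φ u) (φ v)
    have hne : φ u ≠ φ v := fun h => hadj.ne (φ.injective h)
    have hd : ¬ (s(φ u, φ v) : Sym2 (Fin n)).IsDiag := by
      simpa using hne
    have hz : (⟨s(φ u, φ v), hd⟩ : EdgeSlot n) ∈ edgeImage H φ := by
      rw [mem_edgeImage]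
      exact ⟨s(u, v), by simpa using hadj, rfl⟩
    have := (mem_supp67 ω _).mp (hφ hz)
    unfold graphOf
    rw [SimpleGraph.fromEdgeSet_adj]
    exact ⟨⟨hd, this⟩, hne⟩

/-- the family of all copies -/
noncomputable def copies (n : ℕ) : Finset (Finset (EdgeSlot n)) :=
  (univ : Finset (W ↪ Fin n)).image (edgeImage H)

lemma gnpProb_isContained (p : ℝ) :
    gnpProb n p {G | H.IsContained G} = 1 - fail (copies H n) p := by
  classical
  unfold gnpProb Crest.FinProb.bernoulliProb
  have h1 : ∀ ω : EdgeSlot n → Bool, Crest.FinProb.bernoulliWeight p ω = ∏ x, bw p (ω x) := by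
    intro ω
    rfl
  have h2 : ∑ ω ∈ univ.filter (fun ω : EdgeSlot n → Bool =>
        ω ∈ {ω : EdgeSlot n → Bool | graphOf ω ∈ {G | H.IsContained G}}),
        Crest.FinProb.bernoulliWeight p ω =
      ∑ ω : EdgeSlot n → Bool, (∏ x, bw p (ω x)) *
        (fun V : Finset (EdgeSlot n) => if ∃ S ∈ copies H n, S ⊆ V then (1 : ℝ) else 0)
          (supp67 ω) := by
    rw [Finset.sum_filter]
    refine Finset.sum_congr rfl fun ω _ => ?_
    have hiff : (ω ∈ {ω : EdgeSlot n → Bool | graphOf ω ∈ {G | H.IsContained G}}) ↔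
        ∃ S ∈ copies H n, S ⊆ supp67 ω := by
      simp only [Set.mem_ofPred_eq]
      rw [isContained_graphOf_iff]
      unfold copies
      constructor
      · rintro ⟨φ, hφ⟩
        exact ⟨_, Finset.mem_image_of_mem _ (Finset.mem_univ φ), hφ⟩
      · rintro ⟨S, hS, hsub⟩
        obtain ⟨φ, _, rfl⟩ := Finset.mem_image.mp hS
        exact ⟨φ, hsub⟩
    by_cases hω : ∃ S ∈ copies H n, S ⊆ supp67 ω
    · rw [if_pos (hiff.mpr hω), h1]
      simp only [if_pos hω, mul_one]
    · rw [if_neg (fun h => hω (hiff.mp h))]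
      simp only [if_neg hω, mul_zero]
  have h3 : ∑ ω ∈ univ.filter (fun ω : EdgeSlot n → Bool =>
        ω ∈ {ω : EdgeSlot n → Bool | graphOf ω ∈ {G | H.IsContained G}}),
        Crest.FinProb.bernoulliWeight p ω = 1 - fail (copies H n) p := by
    have h4 := sum_bool_eq_sum_finset67 (X := EdgeSlot n) p
      (fun V : Finset (EdgeSlot n) => if ∃ S ∈ copies H n, S ⊆ V then (1 : ℝ) else 0)
    rw [h2]
    refine h4.trans ?_
    unfold fail
    rw [eq_sub_iff_add_eq, ← Finset.sum_add_distrib]
    refine Eq.trans ?_ (sum_wt (X := EdgeSlot n) p)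
    refine Finset.sum_congr rfl fun V _ => ?_
    by_cases hV : ∃ S ∈ copies H n, S ⊆ V
    · simp only [if_pos hV]; ring
    · simp only [if_neg hV]; ring
  convert h3

/-- **S0076 from the spread bound (D).** -/
theorem S0076_of_spread (hW : Fintype.card W ≤ n) (hH : 1 ≤ H.edgeFinset.card)
    {q : ℝ} (hq : 0 ≤ q)
    (hspread : ∀ T : Finset (EdgeSlot n),
      (((univ : Finset (W ↪ Fin n)).filter fun φ => T ⊆ edgeImage H φ).card : ℝ) ≤
        q ^ T.card * (Fintype.card (W ↪ Fin n) : ℝ)) :
    (1 : ℝ) / 2 ≤ gnpProb n (min 1 (16 * q * (1 + Real.logb 2 (H.edgeFinset.card : ℝ))))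
      {G | H.IsContained G} := by
  classical
  rw [gnpProb_isContained]
  have hne : Nonempty (W ↪ Fin n) :=
    Function.Embedding.nonempty_of_card_le (by simpa using hW)
  have hpos : (0 : ℝ) < (Fintype.card (W ↪ Fin n) : ℝ) := by
    exact_mod_cast Fintype.card_pos
  have hmain := pp_abstract hq hH (copies H n)
    (by
      intro S hS
      obtain ⟨φ, _, rfl⟩ := Finset.mem_image.mp hS
      exact card_edgeImage_le H φ)
    (by
      intro UU hUU
      have h1 : (univ : Finset (W ↪ Fin n)) ⊆
          UU.biUnion fun U => (univ : Finset (W ↪ Fin n)).filter fun φ => U ⊆ edgeImage H φ := by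
        intro φ _
        obtain ⟨U, hU, hsub⟩ := hUU (edgeImage H φ)
          (Finset.mem_image_of_mem _ (Finset.mem_univ φ))
        exact Finset.mem_biUnion.mpr ⟨U, hU, Finset.mem_filter.mpr ⟨Finset.mem_univ _, hsub⟩⟩
      have h2 : (Fintype.card (W ↪ Fin n) : ℝ) ≤
          ∑ U ∈ UU, (((univ : Finset (W ↪ Fin n)).filter fun φ => U ⊆ edgeImage H φ).card : ℝ) := by
        have := (Finset.card_le_card h1).trans Finset.card_biUnion_le
        rw [Finset.card_univ] at this
        exact_mod_cast this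
      have h3 : (Fintype.card (W ↪ Fin n) : ℝ) ≤ cost q UU * (Fintype.card (W ↪ Fin n) : ℝ) := by
        unfold cost
        rw [Finset.sum_mul]
        exact h2.trans (Finset.sum_le_sum fun U _ => hspread U)
      by_contra hlt
      push Not at hlt
      nlinarith)
  linarith

end Crest.Agent.S0076Aux.PP67
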