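import Crest.Agent.S0076Aux.PP67Core

/-!
Park--Pham: the induction over the rounds and the final abstract statement.
(helper67, Park--Pham layer for S0076)
-/

set_option autoImplicit false

namespace Crest.Agent.S0076Aux.PP67

open Finset

variable {X : Type*} [Fintype X] [DecidableEq X]

/-- number of rounds -/
def rounds (l : ℕ) : ℕ := if l = 0 then 0 else Nat.log 2 l + 1

lemma rounds_zero : rounds 0 = 0 := by simp [rounds]

lemma rounds_succ {l : ℕ} (hl : 1 ≤ l) : rounds l = rounds (l / 2) + 1 := by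
  unfold rounds
  have h0 : l ≠ 0 := by omega
  rw [if_neg h0]
  by_cases h2 : l / 2 = 0
  · rw [if_pos h2]
    have : l = 1 := by omega
    subst this
    simp
  · rw [if_neg h2]
    have : 2 ≤ l := by omega
    rw [Nat.log_of_one_lt_of_le (by norm_num) this]

lemma rounds_le_logb {l : ℕ} (hl : 1 ≤ l) : (rounds l : ℝ) ≤ 1 + Real.logb 2 (l : ℝ) := by
  unfold rounds
  have h0 : l ≠ 0 := by omega
  rw [if_neg h0]
  have := Real.natLog_le_logb l 2
  push_cast
  push_cast at this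
  linarith

/-- numerical step -/
lemma num_step {l : ℕ} (hl : 1 ≤ l) :
    (1 / 2 - 1 / 4 * (1 / 2 : ℝ) ^ (l / 2)) + 2 ^ l * ((16 : ℝ)⁻¹) ^ (l / 2 + 1) ≤
      1 / 2 - 1 / 4 * (1 / 2 : ℝ) ^ l := by
  obtain ⟨m, hm⟩ : ∃ m, l / 2 = m := ⟨_, rfl⟩
  rw [hm]
  set x : ℝ := (1 / 2 : ℝ) ^ m with hx
  have hx0 : 0 < x := by positivity
  have hx1 : x ≤ 1 := pow_le_one₀ (by norm_num) (by norm_num)
  have h16 : ((16 : ℝ)⁻¹) ^ (m + 1) = x ^ 4 / 16 := by
    rw [hx, ← pow_mul, pow_succ]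
    have : ((16 : ℝ)⁻¹) ^ m = (1 / 2 : ℝ) ^ (m * 4) := by
      rw [pow_mul']
      norm_num
    rw [this]; ring
  have h2x : (2 : ℝ) ^ m * x = 1 := by
    rw [hx, ← mul_pow]; norm_num
  rcases Nat.even_or_odd' l with ⟨k, hk | hk⟩
  · have hkm : k = m := by omega
    subst hkm
    have hk1 : 1 ≤ k := by omega
    have hxh : x ≤ 1 / 2 := by
      rw [hx]
      calc (1 / 2 : ℝ) ^ k ≤ (1 / 2 : ℝ) ^ 1 := pow_le_pow_of_le_one (by norm_num) (by norm_num) hk1
        _ = 1 / 2 := by norm_num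
    have e1 : (1 / 2 : ℝ) ^ l = x ^ 2 := by rw [hk, hx, ← pow_mul, mul_comm]
    have e2 : (2 : ℝ) ^ l = ((2 : ℝ) ^ k) ^ 2 := by rw [hk, ← pow_mul, mul_comm]
    rw [e1, e2, h16]
    have e3 : ((2 : ℝ) ^ k) ^ 2 * (x ^ 4 / 16) = ((2 : ℝ) ^ k * x) ^ 2 * x ^ 2 / 16 := by ring
    rw [e3, h2x]
    nlinarith
  · have hkm : k = m := by omega
    subst hkm
    have e1 : (1 / 2 : ℝ) ^ l = x ^ 2 / 2 := by
      rw [hk, hx, pow_succ, pow_mul']; ring
    have e2 : (2 : ℝ) ^ l = ((2 : ℝ) ^ k) ^ 2 * 2 := by rw [hk, pow_succ, pow_mul']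
    rw [e1, e2, h16]
    have e3 : ((2 : ℝ) ^ k) ^ 2 * 2 * (x ^ 4 / 16) = ((2 : ℝ) ^ k * x) ^ 2 * x ^ 2 / 8 := by ring
    rw [e3, h2x]
    nlinarith

/-- Park--Pham, inductive form. `κ` is any lower bound for the cost of all covers. -/
theorem pp_induction {q : ℝ} (hq : 0 ≤ q) : ∀ l : ℕ, ∀ HH : Finset (Finset X),
    (∀ S ∈ HH, S.card ≤ l) → ∀ κ : ℝ,
    (∀ UU : Finset (Finset X), (∀ S ∈ HH, ∃ U ∈ UU, U ⊆ S) → κ ≤ cost q UU) →
    ∀ p : ℝ, p ≤ 1 → min 1 ((rounds l : ℝ) * (16 * q)) ≤ p →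
    fail HH p * κ ≤ 1 / 2 - 1 / 4 * (1 / 2 : ℝ) ^ l := by
  intro l
  induction l using Nat.strong_induction_on with
  | _ l ih =>
  intro HH hl κ hκ p hp1 hp
  have hrhs : (0 : ℝ) ≤ 1 / 2 - 1 / 4 * (1 / 2 : ℝ) ^ l := by
    have : (1 / 2 : ℝ) ^ l ≤ 1 := pow_le_one₀ (by norm_num) (by norm_num)
    linarith
  have hp0 : 0 ≤ p := by
    refine le_trans (le_min (by norm_num) ?_) hp
    positivity
  have hf0 := fail_nonneg HH hp0 hp1
  -- trivial cases
  by_cases hκ0 : κ ≤ 0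
  · exact le_trans (mul_nonpos_of_nonneg_of_nonpos hf0 hκ0) hrhs
  push Not at hκ0
  have hne : HH.Nonempty := by
    by_contra hcon
    rw [Finset.not_nonempty_iff_eq_empty] at hcon
    have := hκ ∅ (by intro S hS; rw [hcon] at hS; simp at hS)
    simp [cost] at this
    linarith
  by_cases hemp : ∅ ∈ HH
  · rw [fail_eq_zero_of_empty_mem HH hemp, zero_mul]; exact hrhs
  have hl1 : 1 ≤ l := by
    obtain ⟨S, hS⟩ := hne
    have h1 := hl S hS
    have h2 : S.card ≠ 0 := by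
      intro h0
      rw [Finset.card_eq_zero] at h0
      exact hemp (h0 ▸ hS)
    omega
  set P : ℝ := 16 * q with hPdef
  have hP0 : 0 ≤ P := by positivity
  set r' : ℕ := rounds (l / 2) with hr'
  have hr : (rounds l : ℝ) = r' + 1 := by
    rw [rounds_succ hl1]; push_cast; rfl
  rw [hr] at hp
  by_cases hbig : 1 ≤ ((r' : ℝ) + 1) * P
  · have : p = 1 := le_antisymm hp1 (by rwa [min_eq_left hbig] at hp)
    rw [this, fail_one_of_nonempty HH hne, zero_mul]; exact hrhs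
  push Not at hbig
  rw [min_eq_right hbig.le] at hp
  set b : ℝ := (r' : ℝ) * P with hb
  have hb0 : 0 ≤ b := by positivity
  have hPb : P + b < 1 := by
    have : ((r' : ℝ) + 1) * P = P + b := by rw [hb]; ring
    linarith
  have hP1 : P ≤ 1 := by linarith
  have hb1 : b ≤ 1 := by linarith
  set c : ℝ := P + b - P * b with hc
  have hc0 : 0 ≤ c := by nlinarith
  have hcp : c ≤ p := by
    have : ((r' : ℝ) + 1) * P = P + b := by rw [hb]; ring
    nlinarith
  have h1 : fail HH p ≤ fail HH c := fail_antitone HH hc0 hcp hp1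
  have hlt : l / 2 < l := by omega
  -- per first round
  have key : ∀ W₁ : Finset X, fail (HH.image (fun S => S \ W₁)) b * κ ≤
      (1 / 2 - 1 / 4 * (1 / 2 : ℝ) ^ (l / 2)) + cost q (large HH l W₁) := by
    intro W₁
    have hA : fail (HH.image (fun S => S \ W₁)) b ≤ fail (small HH l W₁) b := by
      refine fail_le_of_hit _ _ hb0 hb1 ?_
      rintro W ⟨T, hT, hTW⟩
      obtain ⟨_, ⟨S, hS, hST⟩, _⟩ := (mem_frag _ _ _).mp (Finset.mem_filter.mp hT).1
      exact ⟨T, Finset.mem_image.mpr ⟨S, hS, hST⟩, hTW⟩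
    have hB := ih (l / 2) hlt (small HH l W₁)
      (by
        intro T hT
        have := (Finset.mem_filter.mp hT).2
        omega)
      (κ - cost q (large HH l W₁))
      (by
        intro UU hUU
        have hcov : ∀ S ∈ HH, ∃ U ∈ UU ∪ large HH l W₁, U ⊆ S := by
          intro S hS
          obtain ⟨T, hT, hTS⟩ := exists_frag HH W₁ hS
          by_cases hTl : l < 2 * T.card
          · exact ⟨T, Finset.mem_union_right _ (Finset.mem_filter.mpr ⟨hT, hTl⟩), hTS⟩
          · obtain ⟨U, hU, hUT⟩ := hUU T (Finset.mem_filter.mpr ⟨hT, by omega⟩)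
            exact ⟨U, Finset.mem_union_left _ hU, hUT.trans hTS⟩
        have := hκ _ hcov
        have h2 := cost_union_le hq UU (large HH l W₁)
        linarith)
      b hb1 (min_le_right _ _)
    have hs0 := fail_nonneg (small HH l W₁) hb0 hb1
    have hs1 := fail_le_one (small HH l W₁) hb0 hb1
    have hcl := cost_nonneg hq (large HH l W₁)
    calc fail (HH.image (fun S => S \ W₁)) b * κ ≤ fail (small HH l W₁) b * κ :=
          mul_le_mul_of_nonneg_right hA hκ0.le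
      _ = fail (small HH l W₁) b * (κ - cost q (large HH l W₁)) +
          fail (small HH l W₁) b * cost q (large HH l W₁) := by ring
      _ ≤ (1 / 2 - 1 / 4 * (1 / 2 : ℝ) ^ (l / 2)) + 1 * cost q (large HH l W₁) :=
          add_le_add hB (mul_le_mul_of_nonneg_right hs1 hcl)
      _ = _ := by ring
  have hround := round_cost HH hl hq (L := 16) (by norm_num) hP1
  calc fail HH p * κ ≤ fail HH c * κ := mul_le_mul_of_nonneg_right h1 hκ0.le
    _ = ∑ W₁ : Finset X, wt P W₁ * (fail (HH.image (fun S => S \ W₁)) b * κ) := by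
        rw [hc, fail_union, Finset.sum_mul]
        refine Finset.sum_congr rfl fun W₁ _ => by ring
    _ ≤ ∑ W₁ : Finset X, wt P W₁ *
          ((1 / 2 - 1 / 4 * (1 / 2 : ℝ) ^ (l / 2)) + cost q (large HH l W₁)) :=
        Finset.sum_le_sum fun W₁ _ => mul_le_mul_of_nonneg_left (key W₁) (wt_nonneg hP0 hP1 W₁)
    _ = (1 / 2 - 1 / 4 * (1 / 2 : ℝ) ^ (l / 2)) +
          ∑ W₁ : Finset X, wt P W₁ * cost q (large HH l W₁) := by
        simp only [mul_add]
        rw [Finset.sum_add_distrib, ← Finset.sum_mul, sum_wt, one_mul]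
    _ ≤ (1 / 2 - 1 / 4 * (1 / 2 : ℝ) ^ (l / 2)) + 2 ^ l * ((16 : ℝ)⁻¹) ^ (l / 2 + 1) := by
        linarith [hround]
    _ ≤ 1 / 2 - 1 / 4 * (1 / 2 : ℝ) ^ l := num_step hl1

/-- **Park--Pham, abstract form.** If every cover of the `l`-bounded family `HH` costs at least
`1` at density `q`, the binomial random subset of density `min 1 (16 q (1 + log₂ l))` misses
`⟨HH⟩` with probability at most `1/2`. -/
theorem pp_abstract {q : ℝ} (hq : 0 ≤ q) {l : ℕ} (hl1 : 1 ≤ l) (HH : Finset (Finset X))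
    (hl : ∀ S ∈ HH, S.card ≤ l)
    (hcov : ∀ UU : Finset (Finset X), (∀ S ∈ HH, ∃ U ∈ UU, U ⊆ S) → 1 ≤ cost q UU) :
    fail HH (min 1 (16 * q * (1 + Real.logb 2 (l : ℝ)))) ≤ 1 / 2 := by
  have h := pp_induction hq l HH hl 1 hcov (min 1 (16 * q * (1 + Real.logb 2 (l : ℝ))))
    (min_le_left _ _)
    (by
      refine min_le_min le_rfl ?_
      have := rounds_le_logb hl1
      have h16 : 0 ≤ 16 * q := by positivity
      nlinarith)
  have : (0 : ℝ) ≤ (1 / 2 : ℝ) ^ l := by positivity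
  linarith

end Crest.Agent.S0076Aux.PP67
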