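import Mathlib

/-!
Product (binomial) weights on the subsets of a finite ground set: total mass, two independent
rounds (law of the union), monotonicity of the failure probability.
Part of the Park--Pham layer for S0076 (helper67).
-/

set_option autoImplicit false

namespace Crest.Agent.S0076Aux.PP67

open Finset

section General

/-- Push-forward of a product weight under a coordinatewise map. -/
lemma sum_prod_comp67 {X α β : Type*} [Fintype X] [DecidableEq X] [Fintype α] [Fintype β]
    [DecidableEq β] (u : α → ℝ) (m : α → β) (F : (X → β) → ℝ) :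
    ∑ g : X → α, (∏ x, u (g x)) * F (fun x => m (g x)) =
      ∑ h : X → β, (∏ x, ∑ a ∈ univ.filter (fun a => m a = h x), u a) * F h := by
  classical
  rw [← Finset.sum_fiberwise (s := univ) (g := fun g : X → α => fun x => m (g x))]
  refine Finset.sum_congr rfl fun h _ => ?_
  rw [Finset.prod_univ_sum, Finset.sum_mul]
  refine Finset.sum_congr ?_ ?_
  · ext g
    simp [Fintype.mem_piFinset, funext_iff]
  · intro g hg
    have : (fun x => m (g x)) = h := by
      funext x
      have h2 := Fintype.mem_piFinset.mp hg x
      simpa using h2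
    rw [this]

end General

variable {X : Type*} [Fintype X] [DecidableEq X]

/-- The weight of the subset `W` when every point is kept independently with probability `p`. -/
noncomputable def wt (p : ℝ) (W : Finset X) : ℝ := ∏ x, if x ∈ W then p else 1 - p

/-- one-coordinate weight -/
noncomputable def bw (p : ℝ) (b : Bool) : ℝ := if b then p else 1 - p

/-- support of a Boolean outcome -/
def supp67 (ω : X → Bool) : Finset X := univ.filter (fun x => ω x = true)

omit [DecidableEq X] in
lemma mem_supp67 (ω : X → Bool) (x : X) : x ∈ supp67 ω ↔ ω x = true := by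
  simp [supp67]

/-- outcomes versus subsets -/
def suppEquiv67 : (X → Bool) ≃ Finset X where
  toFun := supp67
  invFun W := fun x => decide (x ∈ W)
  left_inv ω := by
    funext x
    simp [mem_supp67]
  right_inv W := by
    ext x
    simp [mem_supp67]

lemma wt_supp67 (p : ℝ) (ω : X → Bool) : wt p (supp67 ω) = ∏ x, bw p (ω x) := by
  unfold wt bw
  refine Finset.prod_congr rfl fun x _ => ?_
  simp [mem_supp67]

lemma sum_bool_eq_sum_finset67 (p : ℝ) (f : Finset X → ℝ) :
    ∑ ω : X → Bool, (∏ x, bw p (ω x)) * f (supp67 ω) = ∑ W : Finset X, wt p W * f W := by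
  rw [← Equiv.sum_comp (suppEquiv67 (X := X))]
  refine Finset.sum_congr rfl fun ω _ => ?_
  show _ = wt p (supp67 ω) * f (supp67 ω)
  rw [wt_supp67]

lemma wt_nonneg {p : ℝ} (h0 : 0 ≤ p) (h1 : p ≤ 1) (W : Finset X) : 0 ≤ wt p W :=
  Finset.prod_nonneg (fun x _ => by split_ifs <;> linarith)

lemma sum_wt (p : ℝ) : ∑ W : Finset X, wt p W = 1 := by
  have h := sum_prod_comp67 (X := X) (α := Bool) (β := Unit) (bw p) (fun _ => ()) (fun _ => 1)
  have h2 := sum_bool_eq_sum_finset67 (X := X) p (fun _ => 1)
  simp only [mul_one] at h h2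
  rw [← h2, h]
  simp [bw]

/-- Law of the union of two independent random subsets. -/
lemma sum_wt_union (a b : ℝ) (f : Finset X → ℝ) :
    ∑ W₁ : Finset X, ∑ W₂ : Finset X, wt a W₁ * wt b W₂ * f (W₁ ∪ W₂) =
      ∑ W : Finset X, wt (a + b - a * b) W * f W := by
  have h := sum_prod_comp67 (X := X) (α := Bool × Bool) (β := Bool)
    (fun t => bw a t.1 * bw b t.2) (fun t => t.1 || t.2) (fun h => f (supp67 h))
  have hR : ∀ h : X → Bool, (∏ x, ∑ t ∈ univ.filter (fun t : Bool × Bool => (t.1 || t.2) = h x),
      bw a t.1 * bw b t.2) = ∏ x, bw (a + b - a * b) (h x) := by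
    intro h
    refine Finset.prod_congr rfl fun x _ => ?_
    cases hx : h x
    · have : (univ.filter (fun t : Bool × Bool => (t.1 || t.2) = false)) = {(false, false)} := by
        decide
      rw [this]
      simp [bw]
      ring
    · have : (univ.filter (fun t : Bool × Bool => (t.1 || t.2) = true)) =
          {(true, true), (true, false), (false, true)} := by
        decide
      rw [this]
      simp [bw]
      ring
  simp only [hR] at h
  rw [sum_bool_eq_sum_finset67] at h
  rw [← h]
  rw [← Equiv.sum_comp (Equiv.arrowProdEquivProdArrow X (fun _ => Bool) (fun _ => Bool)).symm]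
  rw [Fintype.sum_prod_type]
  rw [← Equiv.sum_comp (suppEquiv67 (X := X))]
  refine Finset.sum_congr rfl fun ω₁ _ => ?_
  rw [← Equiv.sum_comp (suppEquiv67 (X := X))]
  refine Finset.sum_congr rfl fun ω₂ _ => ?_
  show wt a (supp67 ω₁) * wt b (supp67 ω₂) * f (supp67 ω₁ ∪ supp67 ω₂) = _
  rw [wt_supp67, wt_supp67, ← Finset.prod_mul_distrib]
  congr 1
  congr 1
  ext x
  simp [mem_supp67, Equiv.arrowProdEquivProdArrow]

end Crest.Agent.S0076Aux.PP67
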