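import Mathlib
import Crest.Prelude.Def_FinProb
import Crest.Prelude.Def_RandomGraph
import Crest.Agent.S0076Aux.Graph60
import Crest.Agent.S0076Aux.Expect60

/-!
# S0076Aux.Reduction

The statement S0076 follows from the deterministic claim (D):
if `N_F p^{e(F)} ≥ 1/2` for all subgraphs `F` of `H` (`N_F` = number of copies of `F` in `K_n`)
then the uniformly random copy of `H` in `K_n` is `e^50 p`-spread.
-/

set_option autoImplicit false

namespace Crest.Agent.S0076Aux.H60

open Finset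
open Crest.CombinatoricsR.RandomGraph

/-- The deterministic claim (D) for the data `(n, H, p)`. -/
def ClaimD (n : ℕ) {W : Type} [Fintype W] [DecidableEq W] (H : SimpleGraph W)
    [DecidableRel H.Adj] (p : ℝ) : Prop :=
  (∀ F : H.Subgraph, (1 : ℝ) / 2 ≤
      ((⊤ : SimpleGraph (Fin n)).copyCount F.coe : ℝ) * p ^ F.coe.edgeSet.ncard) →
    ∀ T : Finset (EdgeSlot n), T.Nonempty →
      (#(univ.filter (fun f : W ↪ Fin n => T ⊆ slots H f)) : ℝ) ≤
        (Real.exp 50 * p) ^ #T * (Fintype.card (W ↪ Fin n) : ℝ)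

/-- S0076 from the deterministic claim (D). -/
theorem result_of_claimD
    (n : ℕ) (W : Type) [Fintype W] [DecidableEq W] (H : SimpleGraph W)
    [DecidableRel H.Adj] (hW : Fintype.card W ≤ n) (hH : 1 ≤ H.edgeFinset.card)
    (p : ℝ) (hp0 : 0 ≤ p)
    (hE : ∀ F : H.Subgraph, (1 : ℝ) / 2 ≤
      Crest.CombinatoricsR.RandomGraph.gnpExpect n p (fun G => (G.copyCount F.coe : ℝ)))
    (hD : ClaimD n H p) :
    (1 : ℝ) / 2 ≤ Crest.CombinatoricsR.RandomGraph.gnpProb n
      (min 1 (2048 * Real.exp 50 * p * (1 + Real.logb 2 (H.edgeFinset.card : ℝ))))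
      {G | H.IsContained G} := by
  have h1 : ∀ F : H.Subgraph, (1 : ℝ) / 2 ≤
      ((⊤ : SimpleGraph (Fin n)).copyCount F.coe : ℝ) * p ^ F.coe.edgeSet.ncard := by
    intro F
    rw [← gnpExpect_copyCount]
    exact hE F
  have h2 := gnpProb_isContained_of_spread H hW hH (q := Real.exp 50 * p)
    (mul_nonneg (Real.exp_pos 50).le hp0) (hD h1)
  have h3 : 2048 * (Real.exp 50 * p) = 2048 * Real.exp 50 * p := by ring
  rw [h3] at h2
  exact h2

end Crest.Agent.S0076Aux.H60
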